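import Vale.Agent.P134.B331.RowH

/-! Change of orthonormal coordinates: rotations, invariance, deficit. -/

set_option linter.all false

open MeasureTheory Filter Topology
open scoped InnerProductSpace

namespace Vale.Agent.P134.B331.M

open Vale.Agent.P134 Vale.Agent.P134.H765 Vale.Agent.P134.B331

variable {n : ℕ}

/-- `rot b` as a continuous linear map. -/
noncomputable def rotL (b : OrthonormalBasis (Fin n) ℝ (EuclideanSpace ℝ (Fin n))) :
    (Fin n → ℝ) →L[ℝ] (Fin n → ℝ) :=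
  ∑ i, (ContinuousLinearMap.proj (R := ℝ) (φ := fun _ : Fin n => ℝ) i).smulRight
    (fun k => (b i) k : Fin n → ℝ)

lemma rotL_apply (b : OrthonormalBasis (Fin n) ℝ (EuclideanSpace ℝ (Fin n))) (y : Fin n → ℝ) :
    rotL b y = rot b y := by
  rw [rot_eq_sum, rotL]
  simp only [sum_apply, ContinuousLinearMap.smulRight_apply, ContinuousLinearMap.proj_apply]

/-- The inverse rotation. -/
noncomputable def rti (b : OrthonormalBasis (Fin n) ℝ (EuclideanSpace ℝ (Fin n))) (x : Fin n → ℝ) :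
    Fin n → ℝ := fun i => ∑ k, (b i) k * x k

/-- The inverse rotation as a continuous linear map. -/
noncomputable def rtiL (b : OrthonormalBasis (Fin n) ℝ (EuclideanSpace ℝ (Fin n))) :
    (Fin n → ℝ) →L[ℝ] (Fin n → ℝ) :=
  ContinuousLinearMap.pi fun i =>
    ∑ k, (b i) k • (ContinuousLinearMap.proj (R := ℝ) (φ := fun _ : Fin n => ℝ) k)

lemma rtiL_apply (b : OrthonormalBasis (Fin n) ℝ (EuclideanSpace ℝ (Fin n))) (x : Fin n → ℝ) :
    rtiL b x = rti b x := by
  funext i
  simp only [rtiL, rti, ContinuousLinearMap.pi_apply, sum_apply, ContinuousLinearMap.smul_apply,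
    ContinuousLinearMap.proj_apply, smul_eq_mul]

lemma rot_rti (b : OrthonormalBasis (Fin n) ℝ (EuclideanSpace ℝ (Fin n))) (x : Fin n → ℝ) :
    rot b (rti b x) = x := by
  funext k
  unfold rot rti
  simp_rw [Finset.sum_mul]
  rw [Finset.sum_comm]
  have h : ∀ l, ∑ i, (b i) l * x l * (b i) k = (if l = k then 1 else 0) * x l := by
    intro l
    rw [← sum_basis b l k, Finset.sum_mul]
    refine Finset.sum_congr rfl fun i _ => by ring
  simp_rw [h]
  simp

lemma sum_basis' (b : OrthonormalBasis (Fin n) ℝ (EuclideanSpace ℝ (Fin n))) (i j : Fin n) :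
    ∑ k, (b i) k * (b j) k = if i = j then 1 else 0 := by
  have h1 : ⟪b i, b j⟫_ℝ = ∑ k, (b i) k * (b j) k := by
    rw [PiLp.inner_apply]
    refine Finset.sum_congr rfl fun k _ => ?_
    simp [mul_comm]
  rw [← h1]
  exact orthonormal_iff_ite.mp b.orthonormal i j

lemma rti_rot (b : OrthonormalBasis (Fin n) ℝ (EuclideanSpace ℝ (Fin n))) (y : Fin n → ℝ) :
    rti b (rot b y) = y := by
  funext i
  unfold rot rti
  simp_rw [Finset.mul_sum]
  rw [Finset.sum_comm]
  have h : ∀ j, ∑ k, (b i) k * (y j * (b j) k) = (if i = j then 1 else 0) * y j := by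
    intro j
    rw [← sum_basis' b i j, Finset.sum_mul]
    refine Finset.sum_congr rfl fun k _ => by ring
  simp_rw [h]
  simp

lemma rot_single (b : OrthonormalBasis (Fin n) ℝ (EuclideanSpace ℝ (Fin n))) (i : Fin n) :
    rot b (Pi.single i 1) = fun k => (b i) k := by
  have := rot_smul_single b 1 i
  rwa [one_smul, one_smul] at this

lemma rti_basis (b : OrthonormalBasis (Fin n) ℝ (EuclideanSpace ℝ (Fin n))) (i : Fin n) :
    rti b (fun k => (b i) k) = Pi.single i 1 := by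
  rw [← rot_single, rti_rot]

lemma sum_mul_rti (b : OrthonormalBasis (Fin n) ℝ (EuclideanSpace ℝ (Fin n))) (z x : Fin n → ℝ) :
    ∑ i, z i * rti b x i = ∑ k, rot b z k * x k := by
  unfold rot rti
  simp_rw [Finset.mul_sum, Finset.sum_mul]
  rw [Finset.sum_comm]
  refine Finset.sum_congr rfl fun k _ => Finset.sum_congr rfl fun i _ => by ring

lemma esq_rot (b : OrthonormalBasis (Fin n) ℝ (EuclideanSpace ℝ (Fin n))) (y : Fin n → ℝ) :
    esq (rot b y) = esq y := by
  have h := sum_mul_rti b y (rot b y)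
  rw [rti_rot] at h
  unfold esq
  simp_rw [sq]
  exact h.symm

lemma esq_rti (b : OrthonormalBasis (Fin n) ℝ (EuclideanSpace ℝ (Fin n))) (x : Fin n → ℝ) :
    esq (rti b x) = esq x := by
  rw [← esq_rot b (rti b x), rot_rti]

lemma dd_rot {v : (Fin n → ℝ) → ℝ} (hv : Differentiable ℝ v)
    (b : OrthonormalBasis (Fin n) ℝ (EuclideanSpace ℝ (Fin n))) (z w y : Fin n → ℝ) :
    dd w (fun y => v (rot b y + z)) y = dd (rot b w) v (rot b y + z) := by
  unfold dd
  simp_rw [pd_rot hv b z _ y]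
  unfold dd rot
  simp_rw [Finset.mul_sum, Finset.sum_mul]
  rw [Finset.sum_comm]
  refine Finset.sum_congr rfl fun k _ => Finset.sum_congr rfl fun i _ => by ring

lemma defi_rot {v : (Fin n → ℝ) → ℝ} (hv : Differentiable ℝ v)
    (b : OrthonormalBasis (Fin n) ℝ (EuclideanSpace ℝ (Fin n))) (z y : Fin n → ℝ) :
    defi (fun y => v (rot b y + z)) y = defi v (rot b y + z) := by
  unfold defi
  congr 1
  simp_rw [pd_rot hv b z _ y]
  exact sum_sq_rot b fun k => pd k v (rot b y + z)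

/-- The conjugated linear map. -/
noncomputable def conj (b : OrthonormalBasis (Fin n) ℝ (EuclideanSpace ℝ (Fin n)))
    (A : (Fin n → ℝ) →L[ℝ] (Fin n → ℝ)) : (Fin n → ℝ) →L[ℝ] (Fin n → ℝ) :=
  (rtiL b).comp (A.comp (rotL b))

lemma conj_apply (b : OrthonormalBasis (Fin n) ℝ (EuclideanSpace ℝ (Fin n)))
    (A : (Fin n → ℝ) →L[ℝ] (Fin n → ℝ)) (y : Fin n → ℝ) :
    conj b A y = rti b (A (rot b y)) := by
  unfold conj
  rw [ContinuousLinearMap.comp_apply, ContinuousLinearMap.comp_apply, rtiL_apply, rotL_apply]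

lemma conj_ne_zero (b : OrthonormalBasis (Fin n) ℝ (EuclideanSpace ℝ (Fin n)))
    {A : (Fin n → ℝ) →L[ℝ] (Fin n → ℝ)} (hA : A ≠ 0) : conj b A ≠ 0 := by
  intro h
  apply hA
  ext x : 1
  have h1 : conj b A (rti b x) = 0 := by rw [h]; rfl
  rw [conj_apply, rot_rti] at h1
  have h2 := rot_rti b (A x)
  rw [h1] at h2
  rw [← h2]
  have : rot b (0 : Fin n → ℝ) = 0 := by
    rw [← rotL_apply, map_zero]
  simpa using this

theorem invRot {A : (Fin n → ℝ) →L[ℝ] (Fin n → ℝ)} {c : Fin n → ℝ} {V : (Fin n → ℝ) → ℝ}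
    (hI : Inv A c V) (hV : Differentiable ℝ V)
    (b : OrthonormalBasis (Fin n) ℝ (EuclideanSpace ℝ (Fin n))) (z : Fin n → ℝ) :
    Inv (conj b A) (rti b (A z + c)) (fun y => V (H765.rot b y + z)) where
  skew := fun y w => by
    rw [conj_apply, conj_apply, sum_mul_rti, hI.skew]
    congr 1
    have h := sum_mul_rti b w (A (H765.rot b y))
    calc ∑ i, A (H765.rot b y) i * H765.rot b w i = ∑ k, H765.rot b w k * A (H765.rot b y) k :=
          Finset.sum_congr rfl fun k _ => mul_comm _ _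
      _ = ∑ i, w i * rti b (A (H765.rot b y)) i := h.symm
      _ = _ := Finset.sum_congr rfl fun k _ => mul_comm _ _
  inv := fun y => by
    rw [dd_rot hV]
    have h1 : H765.rot b (conj b A y + rti b (A z + c)) = A (H765.rot b y + z) + c := by
      rw [rot_add, conj_apply, rot_rti, rot_rti, map_add]
      abel
    rw [h1]
    exact hI.inv _

/-- The map on the Euclidean space. -/
noncomputable def toE (A : (Fin n → ℝ) →L[ℝ] (Fin n → ℝ)) :
    EuclideanSpace ℝ (Fin n) →L[ℝ] EuclideanSpace ℝ (Fin n) :=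
  ((EuclideanSpace.equiv (Fin n) ℝ).symm : (Fin n → ℝ) →L[ℝ] EuclideanSpace ℝ (Fin n)).comp
    (A.comp ((EuclideanSpace.equiv (Fin n) ℝ) : EuclideanSpace ℝ (Fin n) →L[ℝ] (Fin n → ℝ)))

lemma toE_apply (A : (Fin n → ℝ) →L[ℝ] (Fin n → ℝ)) (x : EuclideanSpace ℝ (Fin n)) (k : Fin n) :
    toE A x k = A (fun i => x i) k := rfl

lemma toE_skew {A : (Fin n → ℝ) →L[ℝ] (Fin n → ℝ)}
    (h : ∀ z w, ∑ i, z i * A w i = - ∑ i, A z i * w i) (x : EuclideanSpace ℝ (Fin n)) :
    ⟪x, toE A x⟫_ℝ = 0 := by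
  have h1 : ⟪x, toE A x⟫_ℝ = ∑ k, x k * A (fun i => x i) k := by
    rw [PiLp.inner_apply]
    refine Finset.sum_congr rfl fun k _ => ?_
    rw [toE_apply]
    simp [mul_comm]
  have h2 := h (fun i => x i) (fun i => x i)
  have h3 : ∑ i, A (fun i => x i) i * x i = ∑ i, x i * A (fun i => x i) i :=
    Finset.sum_congr rfl fun k _ => mul_comm _ _
  rw [h3] at h2
  rw [h1]
  linarith

lemma toE_ne_zero {A : (Fin n → ℝ) →L[ℝ] (Fin n → ℝ)} (hA : A ≠ 0) : toE A ≠ 0 := by
  intro h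
  apply hA
  ext x : 1
  have h1 : toE A (WithLp.toLp 2 x) = 0 := by rw [h]; rfl
  funext k
  have h2 := congrArg (fun v : EuclideanSpace ℝ (Fin n) => v k) h1
  simp only [toE_apply] at h2
  simpa using h2

lemma norm_sq_eq_esq (x : EuclideanSpace ℝ (Fin n)) : ‖x‖ ^ 2 = esq (fun i => x i) := by
  rw [EuclideanSpace.norm_sq_eq]
  unfold esq
  simp

lemma eno_eq_norm (x : Fin n → ℝ) : eno x = ‖(WithLp.toLp 2 x : EuclideanSpace ℝ (Fin n))‖ := by
  unfold eno
  rw [← Real.sqrt_sq (norm_nonneg (WithLp.toLp 2 x : EuclideanSpace ℝ (Fin n))), norm_sq_eq_esq]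

lemma eno_add_le (x y : Fin n → ℝ) : eno (x + y) ≤ eno x + eno y := by
  rw [eno_eq_norm, eno_eq_norm, eno_eq_norm]
  exact norm_add_le _ _

end Vale.Agent.P134.B331.M
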