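import Vale.Agent.P134.B331.Defs

set_option linter.all false

/-! Geometric half of row D2: from the local density away from a slab to the global density. -/

open MeasureTheory Filter Topology

namespace Vale.Agent.P134.B331

open Vale.Agent.P134

/-- The volume of a slab in a box. -/
lemma slab_volume {m : ℕ} (a : Fin (m + 1) → ℝ) (i : Fin (m + 1)) (hi : a i ≠ 0) (c0 r0 S : ℝ)
    (hr0 : 0 ≤ r0) (hS : 0 ≤ S) :
    volume {z : Fin (m + 1) → ℝ | z ∈ box (m + 1) S ∧ |∑ j, a j * z j + c0| < r0}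
      ≤ ENNReal.ofReal (2 * (r0 / |a i|) * (2 * S) ^ m) := by
  set e := MeasurableEquiv.piFinSuccAbove (fun _ : Fin (m + 1) => ℝ) i with he
  have hmp : MeasurePreserving e volume volume := volume_preserving_piFinSuccAbove _ i
  set T : Set (ℝ × (Fin m → ℝ)) := {p | p.2 ∈ box m S ∧
    |a i * p.1 + ∑ j, a (i.succAbove j) * p.2 j + c0| < r0} with hT
  have hTm : MeasurableSet T := by
    have h1 : MeasurableSet {p : ℝ × (Fin m → ℝ) | p.2 ∈ box m S} :=
      measurable_snd (isCompact_box (n := m) S).measurableSet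
    have h2 : MeasurableSet {p : ℝ × (Fin m → ℝ) |
        |a i * p.1 + ∑ j, a (i.succAbove j) * p.2 j + c0| < r0} := by
      refine (isOpen_lt ?_ continuous_const).measurableSet
      fun_prop
    exact h1.inter h2
  have hsub : {z : Fin (m + 1) → ℝ | z ∈ box (m + 1) S ∧ |∑ j, a j * z j + c0| < r0}
      ⊆ e ⁻¹' T := by
    rintro z ⟨h1, h2⟩
    refine ⟨?_, ?_⟩
    · rw [mem_box] at h1 ⊢
      intro j
      exact h1 (i.succAbove j)
    · rw [Fin.sum_univ_succAbove _ i] at h2
      exact h2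
  refine (measure_mono hsub).trans ?_
  rw [hmp.measure_preimage hTm.nullMeasurableSet]
  have hprod : (volume : Measure (ℝ × (Fin m → ℝ))) = (volume : Measure ℝ).prod volume := rfl
  rw [hprod, Measure.prod_apply_symm hTm]
  have hle : ∀ y : Fin m → ℝ, volume ((fun x : ℝ => (x, y)) ⁻¹' T)
      ≤ (box m S).indicator (fun _ => ENNReal.ofReal (2 * (r0 / |a i|))) y := by
    intro y
    by_cases hy : y ∈ box m S
    · rw [Set.indicator_of_mem hy]
      have hsub2 : (fun x : ℝ => (x, y)) ⁻¹' T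
          ⊆ Metric.ball (-(∑ j, a (i.succAbove j) * y j + c0) / a i) (r0 / |a i|) := by
        rintro x ⟨-, hx⟩
        rw [Metric.mem_ball, Real.dist_eq]
        have h3 : 0 < |a i| := abs_pos.mpr hi
        rw [lt_div_iff₀ h3, ← abs_mul]
        have h4 : (x - -(∑ j, a (i.succAbove j) * y j + c0) / a i) * a i
            = a i * x + ∑ j, a (i.succAbove j) * y j + c0 := by
          field_simp
          ring
        rw [h4]
        exact hx
      refine (measure_mono hsub2).trans ?_
      rw [Real.volume_ball]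
    · have : (fun x : ℝ => (x, y)) ⁻¹' T = ∅ := by
        ext x
        simp only [Set.mem_preimage, Set.mem_empty_iff_false, iff_false]
        rintro ⟨h, -⟩
        exact hy h
      rw [this, measure_empty]
      exact zero_le
  refine (lintegral_mono hle).trans ?_
  rw [lintegral_indicator (isCompact_box (n := m) S).measurableSet, setLIntegral_const]
  have hv : volume (box m S) = ENNReal.ofReal ((2 * S) ^ m) := by
    rw [← volume_box hS, ENNReal.ofReal_toReal (volume_box_ne_top S)]
  rw [hv, ← ENNReal.ofReal_mul (by positivity)]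

/-- Translation of the box. -/
lemma box_transl {n : ℕ} {F : (Fin n → ℝ) → ℝ} (hF : Continuous F) (h0 : ∀ x, 0 ≤ F x)
    {R L : ℝ} {x : Fin n → ℝ} (hx : x ∈ box n L) :
    ∫ y in box n R, F y ≤ ∫ z in box n (R + L), F (x + z) := by
  set s : Set (Fin n → ℝ) := {y | y - x ∈ box n (R + L)} with hs
  have hpre : (fun z => x + z) ⁻¹' s = box n (R + L) := by
    ext z
    simp only [hs, Set.mem_preimage, Set.mem_setOf_eq, add_sub_cancel_left]
  have h1 := (measurePreserving_add_left (volume : Measure (Fin n → ℝ)) x).setIntegral_preimage_emb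
    (MeasurableEquiv.addLeft x).measurableEmbedding F s
  rw [hpre] at h1
  rw [h1]
  have hsc : IsCompact s := by
    have h2 : s = (fun z => x + z) '' box n (R + L) := by
      ext y
      constructor
      · intro hy
        exact ⟨y - x, hy, by simp⟩
      · rintro ⟨z, hz, rfl⟩
        simpa [hs] using hz
    rw [h2]
    exact (isCompact_box _).image (by fun_prop)
  refine setIntegral_mono_set (hF.continuousOn.integrableOn_compact hsc)
    (Eventually.of_forall fun y => h0 y) (HasSubset.Subset.eventuallyLE ?_)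
  intro y hy
  show y - x ∈ box n (R + L)
  rw [mem_box] at hy hx ⊢
  intro i
  calc |(y - x) i| ≤ |y i| + |x i| := abs_sub _ _
    _ ≤ R + L := add_le_add (hy i) (hx i)

/-- Geometric half of row D2. -/
theorem d2geo (F : (Fin 4 → ℝ) → ℝ) (hF : Continuous F) (h0 : ∀ x, 0 ≤ F x)
    (h1 : ∀ x, F x ≤ 1) (a : Fin 4 → ℝ) (ha : a ≠ 0) (c0 : ℝ)
    (H : ∀ ε : ℝ, 0 < ε → ∃ L r0 : ℝ, 1 ≤ L ∧ ∀ z, r0 ≤ |∑ i, a i * z i + c0| →
      ∫ x in box 4 L, F (x + z) ≤ ε * L ^ 4) :
    ∀ ε : ℝ, 0 < ε → ∃ R₀ : ℝ, ∀ R, R₀ ≤ R → ∫ x in box 4 R, F x ≤ ε * R ^ 4 := by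
  intro ε hε
  obtain ⟨i, hi⟩ : ∃ i, a i ≠ 0 := by
    by_contra hcon
    push Not at hcon
    exact ha (funext hcon)
  obtain ⟨L, r1, hL, hH⟩ := H (ε / 32) (by positivity)
  set r0 : ℝ := max r1 0 with hr0
  have hr00 : 0 ≤ r0 := le_max_right _ _
  set C : ℝ := 2 * (r0 / |a i|) * 8 with hC
  have hC0 : 0 ≤ C := by positivity
  refine ⟨max L (16 * C / ε), fun R hR => ?_⟩
  have hRL : L ≤ R := (le_max_left _ _).trans hR
  have hRC : 16 * C / ε ≤ R := (le_max_right _ _).trans hR
  have hL0 : 0 < L := by linarith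
  have hR0 : 0 < R := by linarith
  have hRL0 : 0 ≤ R + L := by linarith
  set μ : Measure (Fin 4 → ℝ) := volume.restrict (box 4 L) with hμ
  set ν : Measure (Fin 4 → ℝ) := volume.restrict (box 4 (R + L)) with hν
  haveI : IsFiniteMeasure μ := ⟨by
    rw [hμ, Measure.restrict_apply_univ]; exact (volume_box_ne_top _).lt_top⟩
  haveI : IsFiniteMeasure ν := ⟨by
    rw [hν, Measure.restrict_apply_univ]; exact (volume_box_ne_top _).lt_top⟩
  set T : Set (Fin 4 → ℝ) := {z | |∑ j, a j * z j + c0| < r0} with hT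
  have hTm : MeasurableSet T := by
    refine (isOpen_lt ?_ continuous_const).measurableSet
    fun_prop
  -- Fubini
  have hint : Integrable (Function.uncurry fun (x z : Fin 4 → ℝ) => F (x + z)) (μ.prod ν) := by
    refine Integrable.of_bound (C := 1) ?_ (Eventually.of_forall fun p => ?_)
    · exact (hF.comp (continuous_fst.add continuous_snd)).aestronglyMeasurable
    · show ‖F (p.1 + p.2)‖ ≤ 1
      rw [Real.norm_eq_abs, abs_of_nonneg (h0 _)]
      exact h1 _
  have hswap : ∫ x, ∫ z, F (x + z) ∂ν ∂μ = ∫ z, ∫ x, F (x + z) ∂μ ∂ν :=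
    integral_integral_swap hint
  have hlow : (2 * L) ^ 4 * ∫ y in box 4 R, F y ≤ ∫ x, ∫ z, F (x + z) ∂ν ∂μ := by
    have e1 : ∫ x in box 4 L, (∫ y in box 4 R, F y) = (2 * L) ^ 4 * ∫ y in box 4 R, F y := by
      rw [setIntegral_const, smul_eq_mul, Measure.real, volume_box hL0.le]
    rw [← e1]
    refine integral_mono_ae (integrable_const _) ?_ ?_
    · exact hint.integral_prod_left
    · rw [Filter.EventuallyLE, ae_restrict_iff' (isCompact_box _).measurableSet]
      exact Eventually.of_forall fun x hx => box_transl hF h0 hx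
  have hup : ∫ z, ∫ x, F (x + z) ∂μ ∂ν
      ≤ ε / 32 * L ^ 4 * (2 * (R + L)) ^ 4 + (2 * L) ^ 4 * (C * (R + L) ^ 3) := by
    have hpt : ∀ z, ∫ x, F (x + z) ∂μ
        ≤ ε / 32 * L ^ 4 + T.indicator (fun _ => (2 * L) ^ 4) z := by
      intro z
      by_cases hz : z ∈ T
      · rw [Set.indicator_of_mem hz]
        have h2 : ∫ x, F (x + z) ∂μ ≤ ∫ x, (1:ℝ) ∂μ := by
          refine integral_mono ?_ (integrable_const _) fun x => h1 _
          refine Integrable.of_bound (C := 1) ?_ (Eventually.of_forall fun x => ?_)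
          · exact (hF.comp (continuous_id.add continuous_const)).aestronglyMeasurable
          · rw [Real.norm_eq_abs, abs_of_nonneg (h0 _)]
            exact h1 _
        have h3 : ∫ x, (1:ℝ) ∂μ = (2 * L) ^ 4 := by
          rw [hμ, setIntegral_const, smul_eq_mul, mul_one, Measure.real, volume_box hL0.le]
        have h4 : 0 ≤ ε / 32 * L ^ 4 := by positivity
        linarith
      · rw [Set.indicator_of_notMem hz, add_zero]
        refine hH z ?_
        have h2 : r0 ≤ |∑ j, a j * z j + c0| := not_lt.mp hz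
        exact (le_max_left _ _).trans h2
    have hi2 : Integrable (T.indicator fun _ => (2 * L) ^ 4) ν :=
      (integrable_const _).indicator hTm
    have h5 : ∫ z, ∫ x, F (x + z) ∂μ ∂ν
        ≤ ∫ z, (ε / 32 * L ^ 4 + T.indicator (fun _ => (2 * L) ^ 4) z) ∂ν := by
      refine integral_mono ?_ ((integrable_const _).add hi2) fun z => hpt z
      exact hint.integral_prod_right
    have h6 : ∫ z, (ε / 32 * L ^ 4 + T.indicator (fun _ => (2 * L) ^ 4) z) ∂ν
        = ε / 32 * L ^ 4 * (2 * (R + L)) ^ 4 + (2 * L) ^ 4 * ν.real T := by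
      rw [integral_add (integrable_const _) hi2, integral_indicator hTm, hν, setIntegral_const,
        setIntegral_const, smul_eq_mul, smul_eq_mul, Measure.real, volume_box hRL0]
      ring
    have h7 : ν.real T ≤ C * (R + L) ^ 3 := by
      have h8 := slab_volume a i hi c0 r0 (R + L) hr00 hRL0
      have h9 : ν T ≤ ENNReal.ofReal (2 * (r0 / |a i|) * (2 * (R + L)) ^ 3) := by
        refine le_trans ?_ h8
        rw [hν, Measure.restrict_apply hTm]
        exact measure_mono fun z hz => ⟨hz.2, hz.1⟩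
      have h10 : (ν T).toReal ≤ 2 * (r0 / |a i|) * (2 * (R + L)) ^ 3 :=
        ENNReal.toReal_le_of_le_ofReal (by positivity) h9
      refine h10.trans (le_of_eq ?_)
      rw [hC]; ring
    rw [h6] at h5
    have h11 := mul_le_mul_of_nonneg_left h7 (show (0:ℝ) ≤ (2 * L) ^ 4 by positivity)
    linarith
  rw [hswap] at hlow
  have hfin := hlow.trans hup
  have hL4 : 0 < (2 * L) ^ 4 := by positivity
  have h12 : ∫ y in box 4 R, F y ≤ ε / 32 * (R + L) ^ 4 + C * (R + L) ^ 3 := by
    refine le_of_mul_le_mul_left (hfin.trans (le_of_eq ?_)) hL4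
    ring
  have h13 : (R + L) ^ 4 ≤ 16 * R ^ 4 := by
    calc (R + L) ^ 4 ≤ (2 * R) ^ 4 := pow_le_pow_left₀ hRL0 (by linarith) 4
      _ = 16 * R ^ 4 := by ring
  have h14 : (R + L) ^ 3 ≤ 8 * R ^ 3 := by
    calc (R + L) ^ 3 ≤ (2 * R) ^ 3 := pow_le_pow_left₀ hRL0 (by linarith) 3
      _ = 8 * R ^ 3 := by ring
  have h15 : 16 * C ≤ R * ε := by rwa [div_le_iff₀ hε] at hRC
  have h16 : C * (8 * R ^ 3) ≤ ε / 2 * R ^ 4 := by
    have h17 : 0 ≤ R ^ 3 := by positivity
    nlinarith [mul_le_mul_of_nonneg_right h15 h17]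
  calc ∫ y in box 4 R, F y ≤ ε / 32 * (R + L) ^ 4 + C * (R + L) ^ 3 := h12
    _ ≤ ε / 32 * (16 * R ^ 4) + C * (8 * R ^ 3) :=
        add_le_add (mul_le_mul_of_nonneg_left h13 (by positivity))
          (mul_le_mul_of_nonneg_left h14 hC0)
    _ ≤ ε * R ^ 4 := by linarith

end Vale.Agent.P134.B331
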