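import Vale.Agent.P134.B331.Defs

/-! Row G: growth of the energy from the rigidity of the profile. -/

set_option linter.all false

open MeasureTheory Filter Topology

namespace Vale.Agent.P134.B331

open Vale.Agent.P134

lemma cutb_univ_eq_one {n : ℕ} {ρ R : ℝ} (hR : 0 < R) (h : (n : ℝ) * R ^ 2 ≤ ρ ^ 2) (hρ : 0 < ρ)
    {x : Fin n → ℝ} (hx : x ∈ box n R) : cutb Finset.univ ρ x = 1 := by
  unfold cutb
  apply th_one
  rw [div_le_one (by positivity)]
  refine le_trans ?_ h
  unfold rho
  calc ∑ i : Fin n, x i ^ 2 ≤ ∑ _i : Fin n, R ^ 2 := by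
        refine Finset.sum_le_sum fun i _ => ?_
        have := mem_box.mp hx i
        rw [← sq_abs]
        exact pow_le_pow_left₀ (abs_nonneg _) this 2
    _ = (n : ℝ) * R ^ 2 := by simp

lemma cutb_univ_eq_zero {n : ℕ} {ρ : ℝ} (hρ : 0 < ρ) {x : Fin n → ℝ} (hx : x ∉ box n (2 * ρ)) :
    cutb Finset.univ ρ x = 0 := by
  rw [mem_box] at hx
  push Not at hx
  obtain ⟨i, hi⟩ := hx
  apply cutb_eq_zero hρ
  refine le_trans ?_ (sq_le_rho (Finset.mem_univ i) x)
  have : (2 * ρ) ^ 2 < |x i| ^ 2 := pow_lt_pow_left₀ hi (by positivity) (by norm_num)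
  rw [sq_abs] at this
  nlinarith only [this, sq_nonneg ρ]

lemma pd_cutb_univ_eq_zero {n : ℕ} {ρ : ℝ} (hρ : 0 < ρ) {x : Fin n → ℝ} (hx : x ∉ box n (2 * ρ))
    (i : Fin n) : pd i (cutb Finset.univ ρ) x = 0 := by
  rw [mem_box] at hx
  push Not at hx
  obtain ⟨j, hj⟩ := hx
  rw [pd_cutb, th_deriv_of_gt, zero_mul]
  rw [lt_div_iff₀ (by positivity)]
  refine lt_of_lt_of_le ?_ (sq_le_rho (Finset.mem_univ j) x)
  have : (2 * ρ) ^ 2 < |x j| ^ 2 := pow_lt_pow_left₀ hj (by positivity) (by norm_num)
  rw [sq_abs] at this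
  nlinarith only [this, sq_nonneg ρ]

lemma cutb_univ_hasCompactSupport {n : ℕ} {ρ : ℝ} (hρ : 0 < ρ) :
    HasCompactSupport (cutb (Finset.univ : Finset (Fin n)) ρ) :=
  HasCompactSupport.intro (isCompact_box (2 * ρ)) fun _ hx => cutb_univ_eq_zero hρ hx

/-- Integral of the gradient of the cutoff function. -/
lemma int_grad_cutb {n : ℕ} {C' ρ : ℝ} (hC' : ∀ t, |deriv th t| ≤ C') (hρ : 0 < ρ) :
    ∫ x, ∑ j, |pd j (cutb (Finset.univ : Finset (Fin n)) ρ) x|
      ≤ (n * (3 * C' / ρ)) * (2 * (2 * ρ)) ^ n := by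
  have hC0 : 0 ≤ C' := (abs_nonneg _).trans (hC' 0)
  have h1 : ∫ x, ∑ j, |pd j (cutb (Finset.univ : Finset (Fin n)) ρ) x|
      ≤ ∫ x in box n (2 * ρ), ((n : ℝ) * (3 * C' / ρ)) := by
    rw [← integral_indicator (isCompact_box (2 * ρ)).measurableSet]
    apply integral_mono_of_nonneg
    · exact Eventually.of_forall fun x => Finset.sum_nonneg fun _ _ => abs_nonneg _
    · rw [integrable_indicator_iff (isCompact_box (2 * ρ)).measurableSet]
      exact continuousOn_const.integrableOn_compact (isCompact_box _)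
    · refine Eventually.of_forall fun x => ?_
      by_cases hx : x ∈ box n (2 * ρ)
      · simp only [Set.indicator_of_mem hx]
        refine (Finset.sum_le_sum (g := fun _ => 3 * C' / ρ) fun j _ =>
          pd_cutb_bound hC' _ hρ).trans (le_of_eq ?_)
        simp
      · simp only [Set.indicator_of_notMem hx]
        apply le_of_eq
        apply Finset.sum_eq_zero
        intro j _
        rw [pd_cutb_univ_eq_zero hρ hx, abs_zero]
  refine h1.trans (le_of_eq ?_)
  rw [setIntegral_const, smul_eq_mul, measureReal_def, volume_box (by positivity)]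
  ring

theorem stG : StG := by
  intro u U e hu hpos hU hlim hD
  obtain ⟨C, hC0, hC1, hC2, -⟩ := hu.exists_bound
  obtain ⟨C', hC'1, hC'⟩ := exists_th_bound
  refine ⟨4 * ((1 / 2 + 2 * C) * (5 * (3 * C' / 3) * 12 ^ 5)), fun z R hR1 => ?_⟩
  have hR : 0 < R := by linarith only [hR1]
  have hρ : 0 < 3 * R := by linarith only [hR]
  set v : (Fin 5 → ℝ) → ℝ := fun x => u (x + z) with hv
  set W : (Fin 5 → ℝ) → ℝ := fun x => U (x + z) with hW
  have hvS : Sol v := hu.shift z
  have hWS : Sol W := hU.shift z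
  have hpdv : ∀ i, pd i v = fun x => pd i u (x + z) := fun i => pd_shift_fun u z i
  have hpdW : ∀ i, pd i W = fun x => pd i U (x + z) := fun i => pd_shift_fun U z i
  have hvpos : ∀ x, 0 < dd e v x := by
    intro x
    have h := hpos (x + z)
    unfold dd at h ⊢
    simp_rw [hpdv]
    exact h
  obtain ⟨W', hW', hlW, hlW', hiW⟩ := DStab.exists_profile_dir hvS hvpos
  have hWW : W' = W := by
    funext x
    have h1 := hlim (x + z)
    have h2 := hlW x
    refine tendsto_nhds_unique h2 ?_
    refine h1.congr fun t => ?_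
    simp only [hv]
    congr 1
    abel
  rw [hWW] at hlW hlW'
  have hDW : ∀ x, defi W x = 0 := by
    intro x
    have h := hD (x + z)
    unfold defi at h ⊢
    simp_rw [hpdW]
    exact h
  have hχ : ContDiff ℝ 1 (cutb (Finset.univ : Finset (Fin 5)) (3 * R)) := cutb_contDiff _ _
  have hc : HasCompactSupport (cutb (Finset.univ : Finset (Fin 5)) (3 * R)) :=
    cutb_univ_hasCompactSupport hρ
  have hC1v : ∀ x i, |pd i v x| ≤ C := fun x i => by rw [hpdv]; exact hC1 _ _
  have hC2v : ∀ x i j, |pd i (pd j v) x| ≤ C := fun x i j => by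
    rw [hpdv, pd_shift_fun]
    exact hC2 _ _ _
  have hcmp := energy_comparison_dir hvS hC1v hC2v hC0.le hvpos hWS hlW hlW' hχ hc
    (cutb_nonneg _ _)
  have hen := hWS.energy_of_defi_zero hDW hχ hc
  have hgr := int_grad_cutb (n := 5) hC' hρ
  set G := ∫ x, ∑ j, |pd j (cutb (Finset.univ : Finset (Fin 5)) (3 * R)) x| with hG
  have hG0 : 0 ≤ G := integral_nonneg fun x => Finset.sum_nonneg fun _ _ => abs_nonneg _
  have hcv : Continuous (fun x => psi v x ^ 2) := hvS.psi_contDiff.continuous.pow 2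
  have hcW : Continuous (fun x => psi W x ^ 2) := hWS.psi_contDiff.continuous.pow 2
  have hlow : (1 / 4) * ∫ x in box 5 R, psi v x ^ 2
      ≤ ∫ x, en v x * cutb Finset.univ (3 * R) x := by
    rw [← integral_indicator (isCompact_box R).measurableSet, ← integral_const_mul]
    apply integral_mono_of_nonneg
    · refine Eventually.of_forall fun x => mul_nonneg (by norm_num) ?_
      exact Set.indicator_nonneg (fun _ _ => sq_nonneg _) _
    · exact ((en_contDiff hvS.c2).continuous.mul hχ.continuous).integrable_of_hasCompactSupport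
        hc.mul_left
    · refine Eventually.of_forall fun x => ?_
      simp only []
      by_cases hx : x ∈ box 5 R
      · rw [Set.indicator_of_mem hx, cutb_univ_eq_one hR (by push_cast; nlinarith only [sq_nonneg R])
          hρ hx]
        have := en_ge v x
        linarith only [this]
      · rw [Set.indicator_of_notMem hx, mul_zero]
        exact mul_nonneg (en_nonneg _ _) (cutb_nonneg _ _ _)
  have hup : ∫ x, en W x * cutb Finset.univ (3 * R) x ≤ (1 / 2) * G := by
    have h1 : ∫ x, en W x * cutb Finset.univ (3 * R) x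
        ≤ ∫ x, (1 / 2) * (psi W x ^ 2 * cutb Finset.univ (3 * R) x) := by
      apply integral_mono_of_nonneg
      · exact Eventually.of_forall fun x => mul_nonneg (en_nonneg _ _) (cutb_nonneg _ _ _)
      · exact ((hcW.mul hχ.continuous).integrable_of_hasCompactSupport hc.mul_left).const_mul _
      · refine Eventually.of_forall fun x => ?_
        simp only []
        have h2 := hWS.en_le x
        have h3 := mul_le_mul_of_nonneg_right h2 (cutb_nonneg Finset.univ (3 * R) x)
        linarith only [h3]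
    rw [integral_const_mul] at h1
    linarith only [h1, hen]
  have hfin : (1 / 4) * ∫ x in box 5 R, psi v x ^ 2 ≤ (1 / 2 + 2 * C) * G := by
    linarith only [hlow, hcmp, hup]
  have hval : ((5 : ℕ) : ℝ) * (3 * C' / (3 * R)) * (2 * (2 * (3 * R))) ^ 5
      = (5 * (3 * C' / 3) * 12 ^ 5) * R ^ 4 := by
    push_cast
    field_simp
    ring
  rw [hval] at hgr
  have h9 : (1 / 2 + 2 * C) * G ≤ (1 / 2 + 2 * C) * ((5 * (3 * C' / 3) * 12 ^ 5) * R ^ 4) :=
    mul_le_mul_of_nonneg_left hgr (by linarith only [hC0])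
  have h10 : ∫ x in box 5 R, psi u (x + z) ^ 2 = ∫ x in box 5 R, psi v x ^ 2 := rfl
  rw [h10]
  linarith only [hfin, h9]

end Vale.Agent.P134.B331
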