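import Vale.Agent.P134.B331.Defs
import Vale.Agent.P134.B331.StG

/-! Row D2, compactness half: small energy density where the Killing field is large. -/

set_option linter.all false

open MeasureTheory Filter Topology

namespace Vale.Agent.P134.B331

open Vale.Agent.P134

/-- Energy in a box of a solution with vanishing deficit. -/
lemma energy_box_of_defi_zero : ∃ K : ℝ, 0 ≤ K ∧ ∀ U : (Fin 4 → ℝ) → ℝ, Sol U →
    (∀ x, defi U x = 0) → ∀ L : ℝ, 1 ≤ L → ∫ x in box 4 L, psi U x ^ 2 ≤ K * L ^ 3 := by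
  obtain ⟨C', hC'1, hC'⟩ := exists_th_bound
  refine ⟨4 * (3 * C' / 2) * 8 ^ 4, by positivity, fun U hU hD L hL => ?_⟩
  have hL0 : 0 < L := by linarith only [hL]
  have hρ : 0 < 2 * L := by linarith only [hL0]
  have hχ : ContDiff ℝ 1 (cutb (Finset.univ : Finset (Fin 4)) (2 * L)) := cutb_contDiff _ _
  have hc : HasCompactSupport (cutb (Finset.univ : Finset (Fin 4)) (2 * L)) :=
    cutb_univ_hasCompactSupport hρ
  have hen := hU.energy_of_defi_zero hD hχ hc
  have hgr := int_grad_cutb (n := 4) hC' hρ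
  have hcU : Continuous (fun x => psi U x ^ 2) := hU.psi_contDiff.continuous.pow 2
  have hlow : ∫ x in box 4 L, psi U x ^ 2
      ≤ ∫ x, psi U x ^ 2 * cutb Finset.univ (2 * L) x := by
    rw [← integral_indicator (isCompact_box L).measurableSet]
    apply integral_mono_of_nonneg
    · exact Eventually.of_forall fun x => Set.indicator_nonneg (fun _ _ => sq_nonneg _) _
    · exact (hcU.mul hχ.continuous).integrable_of_hasCompactSupport hc.mul_left
    · refine Eventually.of_forall fun x => ?_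
      simp only []
      by_cases hx : x ∈ box 4 L
      · rw [Set.indicator_of_mem hx, cutb_univ_eq_one hL0
          (by push_cast; nlinarith only [sq_nonneg L]) hρ hx, mul_one]
      · rw [Set.indicator_of_notMem hx]
        exact mul_nonneg (sq_nonneg _) (cutb_nonneg _ _ _)
  have hval : ((4 : ℕ) : ℝ) * (3 * C' / (2 * L)) * (2 * (2 * (2 * L))) ^ 4
      = 4 * (3 * C' / 2) * 8 ^ 4 * L ^ 3 := by
    push_cast
    field_simp
    ring
  rw [hval] at hgr
  exact hlow.trans (hen.trans hgr)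

/-- Small energy density where the Killing field is large. -/
theorem d2loc (h1 : StD1) {C : ℝ} {V : (Fin 4 → ℝ) → ℝ} (hV : SS C V)
    {A : (Fin 4 → ℝ) →L[ℝ] (Fin 4 → ℝ)} {c : Fin 4 → ℝ} (hA : ∀ x, dd (A x + c) V x = 0) :
    ∀ ε : ℝ, 0 < ε → ∃ L r0 : ℝ, 1 ≤ L ∧ ∀ z, r0 ≤ ‖A z + c‖ →
      ∫ x in box 4 L, psi V (x + z) ^ 2 ≤ ε * L ^ 4 := by
  intro ε hε
  obtain ⟨K, hK0, hK⟩ := energy_box_of_defi_zero
  set L : ℝ := K / ε + 1 with hL
  have hL1 : 1 ≤ L := by
    have : 0 ≤ K / ε := by positivity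
    linarith only [this, hL]
  have hL0 : 0 < L := by linarith only [hL1]
  have hKL : K * L ^ 3 < ε * L ^ 4 := by
    have h2 : K < ε * L := by
      rw [hL, mul_add, mul_one, mul_div_cancel₀ _ hε.ne']
      linarith only [hε]
    calc K * L ^ 3 < (ε * L) * L ^ 3 := mul_lt_mul_of_pos_right h2 (by positivity)
      _ = ε * L ^ 4 := by ring
  by_contra hcon
  push Not at hcon
  have hz : ∀ k : ℕ, ∃ z : Fin 4 → ℝ, (k : ℝ) + 1 ≤ ‖A z + c‖ ∧
      ε * L ^ 4 < ∫ x in box 4 L, psi V (x + z) ^ 2 := fun k => hcon L (k + 1) hL1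
  choose z hz1 hz2 using hz
  set F : ℕ → (Fin 4 → ℝ) → ℝ := fun k x => V (x + z k) with hF
  have hFS : ∀ k, Sol (F k) := fun k => hV.toSol.shift (z k)
  obtain ⟨φ, hφ, U, hlim0⟩ := exists_subseq F hFS
  -- the directions
  set ω : ℕ → (Fin 4 → ℝ) := fun k => (‖A (z (φ k)) + c‖)⁻¹ • (A (z (φ k)) + c) with hω
  have hN0 : ∀ k, 0 < ‖A (z k) + c‖ := fun k => by
    have h := hz1 k
    have : (0:ℝ) ≤ k := Nat.cast_nonneg k
    linarith only [h, this]
  have hωs : ∀ k, ω k ∈ Metric.sphere (0 : Fin 4 → ℝ) 1 := by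
    intro k
    rw [mem_sphere_zero_iff_norm, hω]
    simp only []
    rw [norm_smul, norm_inv, norm_norm, inv_mul_cancel₀ (hN0 (φ k)).ne']
  obtain ⟨w, hw, θ, hθ, hlw⟩ := (isCompact_sphere (0 : Fin 4 → ℝ) 1).tendsto_subseq hωs
  have hw1 : ‖w‖ = 1 := by simpa using hw
  have hw0 : w ≠ 0 := by
    intro h
    rw [h, norm_zero] at hw1
    exact zero_ne_one hw1
  have hlim : ∀ x, Tendsto (fun k => F (φ (θ k)) x) atTop (𝓝 (U x)) := fun x =>
    (hlim0 x).comp hθ.tendsto_atTop
  obtain ⟨hU, hpd, -⟩ := Sol.of_tendsto (fun k => hFS (φ (θ k))) hlim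
  have hUS : SS C U := ⟨hU, H491.HypN.of_tendsto (L := atTop) (fun k => hFS (φ (θ k))) hU hlim
    fun k => hV.hyp.translate (z (φ (θ k)))⟩
  have hNt : Tendsto (fun k => ‖A (z (φ (θ k))) + c‖) atTop atTop := by
    have h2 : Tendsto (fun k : ℕ => ((φ (θ k) : ℕ) : ℝ) + 1) atTop atTop :=
      tendsto_atTop_add_const_right _ _
        (tendsto_natCast_atTop_atTop.comp (hφ.tendsto_atTop.comp hθ.tendsto_atTop))
    exact tendsto_atTop_mono (fun k => hz1 _) h2
  have hdd : ∀ x, dd w U x = 0 := by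
    intro x
    have e1 : ∀ k, ∑ i, ((‖A (z (φ (θ k))) + c‖)⁻¹ * (A x) i + ω (θ k) i)
        * pd i (F (φ (θ k))) x = 0 := by
      intro k
      have h2 := hA (x + z (φ (θ k)))
      unfold dd at h2
      have h3 : ∀ i, ((‖A (z (φ (θ k))) + c‖)⁻¹ * (A x) i + ω (θ k) i) * pd i (F (φ (θ k))) x
          = (‖A (z (φ (θ k))) + c‖)⁻¹ * ((A (x + z (φ (θ k))) + c) i
            * pd i V (x + z (φ (θ k)))) := by
        intro i
        rw [hF]
        simp only []
        rw [pd_shift_fun]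
        simp only [hω, map_add, Pi.add_apply, Pi.smul_apply, smul_eq_mul]
        ring
      rw [Finset.sum_congr rfl fun i _ => h3 i, ← Finset.mul_sum, h2, mul_zero]
    have e2 : Tendsto (fun k => ∑ i, ((‖A (z (φ (θ k))) + c‖)⁻¹ * (A x) i + ω (θ k) i)
        * pd i (F (φ (θ k))) x) atTop (𝓝 (∑ i, (0 * (A x) i + w i) * pd i U x)) := by
      refine tendsto_finsetSum _ fun i _ => ?_
      refine Tendsto.mul (Tendsto.add ((tendsto_inv_atTop_zero.comp hNt).mul_const _) ?_) (hpd x i)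
      exact (tendsto_pi_nhds.mp hlw) i
    have e3 : ∑ i, (0 * (A x) i + w i) * pd i U x = 0 := by
      refine tendsto_nhds_unique e2 ?_
      simp_rw [e1]
      exact tendsto_const_nhds
    unfold dd
    rw [← e3]
    refine Finset.sum_congr rfl fun i _ => by ring
  have hD := h1 C U hUS w hw0 hdd
  have hbd := hK U hU hD L hL1
  have L3 : Tendsto (fun k => ∫ x in box 4 L, psi (F (φ (θ k))) x ^ 2) atTop
      (𝓝 (∫ x in box 4 L, psi U x ^ 2)) := by
    apply tendsto_integral_filter_of_dominated_convergence (fun _ => (1:ℝ))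
    · refine Eventually.of_forall fun k => Continuous.aestronglyMeasurable ?_
      exact (hFS (φ (θ k))).psi_contDiff.continuous.pow 2
    · refine Eventually.of_forall fun k => Eventually.of_forall fun x => ?_
      rw [Real.norm_eq_abs, abs_of_nonneg (sq_nonneg _)]
      exact (hFS (φ (θ k))).psi_sq_le x
    · exact integrableOn_const (isCompact_box _).measure_lt_top.ne
    · refine Eventually.of_forall fun x => ?_
      exact (tendsto_psi (hlim x)).pow 2
  have hge : ε * L ^ 4 ≤ ∫ x in box 4 L, psi U x ^ 2 :=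
    ge_of_tendsto L3 (Eventually.of_forall fun k => (hz2 (φ (θ k))).le)
  linarith only [hge, hbd, hKL]

end Vale.Agent.P134.B331
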