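import Vale.Agent.P134.H765.S3Prof
import Vale.Agent.P134.H765.Struct
import Vale.Agent.P134.H491.Hyp

/-! Dimension five, solutions with a continuous symmetry: statements of the rows.

Class `SS`: solutions whose potential `3u²-1` lies in `HypN` (approximate Riccati fields), i.e.
stable solutions. -/

set_option linter.all false

open MeasureTheory Filter Topology
open scoped InnerProductSpace

namespace Vale.Agent.P134.B331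

open Vale.Agent.P134 Vale.Agent.P134.H765

variable {n : ℕ}

/-- A stable solution. -/
structure SS {n : ℕ} (C : ℝ) (u : (Fin n → ℝ) → ℝ) : Prop extends Sol u where
  hyp : H491.HypN n C (fun x => 3 * u x ^ 2 - 1)

/-- `|∂_p u|² + |∂_q u|²`. -/
noncomputable def Q2 (p q : Fin n) (u : (Fin n → ℝ) → ℝ) (x : Fin n → ℝ) : ℝ :=
  pd p u x ^ 2 + pd q u x ^ 2

/-- `|∂_p u ∇∂_q u - ∂_q u ∇∂_p u|²`. -/
noncomputable def RR (p q : Fin n) (u : (Fin n → ℝ) → ℝ) (x : Fin n → ℝ) : ℝ :=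
  ∑ j, (pd p u x * pd j (pd q u) x - pd q u x * pd j (pd p u) x) ^ 2

/-- The weight `1 / (h + √(1 + |x|²))`. -/
noncomputable def wh (h : ℝ) (x : Fin n → ℝ) : ℝ := 1 / (h + Real.sqrt (1 + esq x))

/-- Invariance under the Killing field `A x + c`, `A` skew. -/
structure Inv (A : (Fin n → ℝ) →L[ℝ] (Fin n → ℝ)) (c : Fin n → ℝ) (u : (Fin n → ℝ) → ℝ) :
    Prop where
  skew : ∀ z w, ∑ i, z i * A w i = - ∑ i, A z i * w i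
  inv : ∀ x, dd (A x + c) u x = 0

/-- ROW H. Stability is invariant under rigid motions. -/
def StH : Prop := ∀ {n : ℕ} (C : ℝ) (u : (Fin n → ℝ) → ℝ), SS C u →
  ∀ (b : OrthonormalBasis (Fin n) ℝ (EuclideanSpace ℝ (Fin n))) (z : Fin n → ℝ),
    SS C (fun y => u (rot b y + z))

/-- ROW K. Stability tested with `φ √(|∂_p u|²+|∂_q u|²)`. -/
def StK : Prop := ∀ {n : ℕ} (C : ℝ) (u : (Fin n → ℝ) → ℝ), SS C u → ∀ (p q : Fin n)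
  (g : (Fin n → ℝ) → ℝ), Continuous g → (∀ x, g x * Q2 p q u x ^ 2 ≤ RR p q u x) →
  ∀ φ : (Fin n → ℝ) → ℝ, ContDiff ℝ 1 φ → HasCompactSupport φ →
    ∫ x, φ x ^ 2 * (g x * Q2 p q u x) ≤ ∫ x, Q2 p q u x * ∑ j, pd j φ x ^ 2

/-- ROW R. The rotation of the gradient along the orbits. -/
def StR : Prop := ∀ {n : ℕ} (u : (Fin n → ℝ) → ℝ), Sol u →
  ∀ (A : (Fin n → ℝ) →L[ℝ] (Fin n → ℝ)) (c : Fin n → ℝ), (∀ x, dd (A x + c) u x = 0) →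
  ∀ (p q : Fin n) (l : ℝ), A (Pi.single p 1) = l • Pi.single q 1 →
    A (Pi.single q 1) = - (l • Pi.single p 1) →
    ∀ x, l ^ 2 * Q2 p q u x ^ 2 ≤ esq (A x + c) * RR p q u x

/-- ROW C. The critical Liouville theorem. -/
def StC : Prop := ∀ {n : ℕ} (C : ℝ) (u : (Fin n → ℝ) → ℝ), SS C u → ∀ (p q : Fin n) (h : ℝ),
  0 ≤ h → (∀ x, wh h x ^ 2 * Q2 p q u x ^ 2 ≤ RR p q u x) →
  (∀ ε R₀ : ℝ, 0 < ε → ∃ R, R₀ ≤ R ∧ ∫ x in box n R, Q2 p q u x ≤ ε * R ^ 4) →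
  ∀ x, Q2 p q u x = 0

/-- ROW B. Smallness where the gain is strict. -/
def StB : Prop := ∀ {n : ℕ} (C : ℝ) (u : (Fin n → ℝ) → ℝ), SS C u → ∀ (p q : Fin n) (h K : ℝ)
  (g : (Fin n → ℝ) → ℝ), 0 ≤ h → Continuous g → (∀ x, g x * Q2 p q u x ^ 2 ≤ RR p q u x) →
  (∀ x, wh h x ^ 2 ≤ g x) → (∀ R, 1 ≤ R → ∫ x in box n R, Q2 p q u x ≤ K * R ^ 4) →
  ∀ δ ε : ℝ, 0 < δ → 0 < ε → ∃ R₀ : ℝ, ∀ R, R₀ ≤ R →
    ∫ x in {x | x ∈ box n R ∧ 1 + δ ≤ g x * esq x}, Q2 p q u x ≤ ε * R ^ 4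

/-- ROW D1. Stable solutions on `ℝ⁴` with a direction of invariance. -/
def StD1 : Prop := ∀ (C : ℝ) (V : (Fin 4 → ℝ) → ℝ), SS C V → ∀ w : Fin 4 → ℝ, w ≠ 0 →
  (∀ x, dd w V x = 0) → ∀ x, defi V x = 0

/-- ROW D2. Zero mean density of the energy of a stable solution on `ℝ⁴` with a continuous
symmetry which is not a translation. -/
def StD2 : Prop := ∀ (C : ℝ) (V : (Fin 4 → ℝ) → ℝ), SS C V →
  ∀ (A : (Fin 4 → ℝ) →L[ℝ] (Fin 4 → ℝ)) (c : Fin 4 → ℝ), Inv A c V → A ≠ 0 →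
  ∀ ε : ℝ, 0 < ε → ∃ R₀ : ℝ, ∀ R, R₀ ≤ R → ∫ x in box 4 R, psi V x ^ 2 ≤ ε * R ^ 4

/-- ROW G. Growth of the energy from the rigidity of the profile. -/
def StG : Prop := ∀ (u U : (Fin 5 → ℝ) → ℝ) (e : Fin 5 → ℝ), Sol u → (∀ x, 0 < dd e u x) →
  Sol U → (∀ x, Tendsto (fun t : ℝ => u (x + t • e)) atTop (𝓝 (U x))) → (∀ x, defi U x = 0) →
  ∃ K : ℝ, ∀ (z : Fin 5 → ℝ) (R : ℝ), 1 ≤ R → ∫ x in box 5 R, psi u (x + z) ^ 2 ≤ K * R ^ 4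

/-- ROW T. Thin neighbourhoods of a plane carry little energy. -/
def StT : Prop := ∀ (u : (Fin 5 → ℝ) → ℝ) (K : ℝ), Sol u →
  (∀ (z : Fin 5 → ℝ) (R : ℝ), 1 ≤ R → ∫ x in box 5 R, psi u (x + z) ^ 2 ≤ K * R ^ 4) →
  ∀ ε : ℝ, 0 < ε → ∃ δ R₀ : ℝ, 0 < δ ∧ ∀ R, R₀ ≤ R →
    ∫ x in {x | x ∈ box 5 R ∧ |x 2| ≤ δ * R ∧ |x 3| ≤ δ * R ∧ |x 4| ≤ δ * R}, psi u x ^ 2
      ≤ ε * R ^ 4

/-- ROW I. Horizontal smallness, from the stress tensor and the monotonicity formula. -/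
def StI : Prop := ∀ (u : (Fin 5 → ℝ) → ℝ) (K : ℝ), Sol u →
  (∀ R : ℝ, 1 ≤ R → ∫ x in box 5 R, psi u x ^ 2 ≤ K * R ^ 4) →
  (∀ δ ε : ℝ, 0 < δ → 0 < ε → ∃ R₀ : ℝ, ∀ R, R₀ ≤ R →
    ∫ x in {x | x ∈ box 5 R ∧ δ * R ≤ |x 4|}, (Q2 0 1 u x + Q2 2 3 u x) ≤ ε * R ^ 4) →
  ∀ ε : ℝ, 0 < ε → ∃ R₀ : ℝ, ∀ R, R₀ ≤ R →
    ∫ x in box 5 R, (Q2 0 1 u x + Q2 2 3 u x) ≤ ε * R ^ 4

/-- ROW N4. The top eigenplane of a skew map. -/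
def StN4 : Prop := ∀ (n : ℕ) (A : EuclideanSpace ℝ (Fin n) →L[ℝ] EuclideanSpace ℝ (Fin n)),
  (∀ x, ⟪x, A x⟫_ℝ = 0) → A ≠ 0 → ∀ p q : Fin n, p ≠ q →
  ∃ (b : OrthonormalBasis (Fin n) ℝ (EuclideanSpace ℝ (Fin n))) (l : ℝ), 0 < l ∧
    A (b p) = l • b q ∧ A (b q) = - (l • b p) ∧ ∀ x, ‖A x‖ ≤ l * ‖x‖

/-- ROW N5. Normal form of skew maps of `ℝ⁵`. -/
def StN5 : Prop := ∀ (A : EuclideanSpace ℝ (Fin 5) →L[ℝ] EuclideanSpace ℝ (Fin 5)),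
  (∀ x, ⟪x, A x⟫_ℝ = 0) → A ≠ 0 →
  ∃ (b : OrthonormalBasis (Fin 5) ℝ (EuclideanSpace ℝ (Fin 5))) (l m : ℝ), 0 < l ∧ 0 ≤ m ∧
    m ≤ l ∧ A (b 0) = l • b 1 ∧ A (b 1) = - (l • b 0) ∧ A (b 2) = m • b 3 ∧
    A (b 3) = - (m • b 2) ∧ A (b 4) = 0

/-- ROW P4. Stable solutions on `ℝ⁴` with a continuous symmetry. -/
def StP4 : Prop := ∀ (C : ℝ) (V : (Fin 4 → ℝ) → ℝ), SS C V →
  ∀ (A : (Fin 4 → ℝ) →L[ℝ] (Fin 4 → ℝ)) (c : Fin 4 → ℝ), Inv A c V → (A ≠ 0 ∨ c ≠ 0) →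
  ∀ x, defi V x = 0

/-- ROW P5. The upper profile of a monotone solution on `ℝ⁵` with a continuous symmetry. -/
def StP5 : Prop := ∀ (u : (Fin 5 → ℝ) → ℝ) (e : Fin 5 → ℝ), Sol u → (∀ x, 0 < dd e u x) →
  ∀ (A : (Fin 5 → ℝ) →L[ℝ] (Fin 5 → ℝ)) (c : Fin 5 → ℝ), Inv A c u → (A ≠ 0 ∨ c ≠ 0) →
  ∃ U : (Fin 5 → ℝ) → ℝ, Sol U ∧
    (∀ x, Tendsto (fun t : ℝ => u (x + t • e)) atTop (𝓝 (U x))) ∧ ∀ x, defi U x = 0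

/-- ROW V. Vanishing of two derivatives, in adapted coordinates. -/
def StV : Prop := ∀ (C : ℝ) (u : (Fin 5 → ℝ) → ℝ), SS C u → ∀ (l m : ℝ) (c : Fin 5 → ℝ),
  0 < l → 0 ≤ m → m ≤ l →
  (∀ x, dd (![-(l * x 1), l * x 0, -(m * x 3), m * x 2, 0] + c) u x = 0) → ∀ K : ℝ,
  (∀ (z : Fin 5 → ℝ) (R : ℝ), 1 ≤ R → ∫ x in box 5 R, psi u (x + z) ^ 2 ≤ K * R ^ 4) →
  ∀ x, pd 0 u x = 0

end Vale.Agent.P134.B331
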