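import Vale.Agent.P134.B331.Defs

/-! The gain inequality: `StK` tested with the weight `1 / (h + √(1+|x|²))` and a cut-off. -/

set_option linter.all false

open MeasureTheory Filter Topology
open scoped InnerProductSpace

namespace Vale.Agent.P134.B331.M

open Vale.Agent.P134 Vale.Agent.P134.H765 Vale.Agent.P134.B331

variable {n : ℕ} {h : ℝ} {x : Fin n → ℝ}

lemma esq_cd {k : WithTop ℕ∞} : ContDiff ℝ k (esq (n := n)) := by
  have h1 := rho_contDiff (n := n) (k := k) Finset.univ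
  exact h1

lemma one_esq_pos (x : Fin n → ℝ) : 0 < 1 + esq x := by
  have := esq_nonneg x
  linarith

lemma sq_cd {k : WithTop ℕ∞} : ContDiff ℝ k (fun x : Fin n → ℝ => Real.sqrt (1 + esq x)) :=
  (contDiff_const.add esq_cd).sqrt fun x => (one_esq_pos x).ne'

lemma sq_pos' (x : Fin n → ℝ) : 0 < Real.sqrt (1 + esq x) := Real.sqrt_pos.mpr (one_esq_pos x)

lemma one_le_sq (x : Fin n → ℝ) : 1 ≤ Real.sqrt (1 + esq x) := by
  rw [Real.one_le_sqrt]
  linarith [esq_nonneg x]

lemma wh_den_pos (hh : 0 ≤ h) (x : Fin n → ℝ) : 0 < h + Real.sqrt (1 + esq x) := by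
  linarith [sq_pos' x]

lemma wh_cd (hh : 0 ≤ h) {k : WithTop ℕ∞} : ContDiff ℝ k (wh (n := n) h) := by
  unfold wh
  exact contDiff_const.div (contDiff_const.add sq_cd) fun x => (wh_den_pos hh x).ne'

lemma wh_pos (hh : 0 ≤ h) (x : Fin n → ℝ) : 0 < wh h x := by
  unfold wh
  have := wh_den_pos hh x
  positivity

lemma wh_le (hh : 0 ≤ h) (x : Fin n → ℝ) : wh h x ≤ 1 / Real.sqrt (1 + esq x) := by
  unfold wh
  exact one_div_le_one_div_of_le (sq_pos' x) (by linarith)

lemma pd_esq' (i : Fin n) (x : Fin n → ℝ) : pd i (esq (n := n)) x = 2 * x i := by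
  have h1 := pd_rho (i := i) (x := x) Finset.univ
  simp only [Finset.mem_univ, if_true] at h1
  exact h1

lemma pd_sq' (i : Fin n) (x : Fin n → ℝ) :
    pd i (fun x : Fin n → ℝ => Real.sqrt (1 + esq x)) x = x i / Real.sqrt (1 + esq x) := by
  have h0 : DifferentiableAt ℝ (fun y : Fin n → ℝ => 1 + esq y) x :=
    ((contDiff_const.add esq_cd : ContDiff ℝ 1 fun y : Fin n → ℝ => 1 + esq y).differentiable
      (by norm_num)) x
  have h1 := pd_comp (i := i) (h := Real.sqrt) (f := fun y : Fin n → ℝ => 1 + esq y) (x := x)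
    (Real.hasDerivAt_sqrt (one_esq_pos x).ne').differentiableAt h0
  rw [h1]
  have h2 : pd i (fun y : Fin n → ℝ => 1 + esq y) x = 2 * x i := by
    have h3 : DifferentiableAt ℝ (esq (n := n)) x :=
      ((esq_cd : ContDiff ℝ 1 (esq (n := n))).differentiable (by norm_num)) x
    have h4 : pd i (fun y : Fin n → ℝ => 1 + esq y) x
        = pd i (fun _ : Fin n → ℝ => (1:ℝ)) x + pd i (esq (n := n)) x := by
      unfold pd
      rw [fderiv_fun_add (by fun_prop) h3]
      rfl
    rw [h4, pd_const, pd_esq', zero_add]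
  rw [h2, (Real.hasDerivAt_sqrt (one_esq_pos x).ne').deriv]
  have := (sq_pos' x).ne'
  field_simp

lemma pd_wh (hh : 0 ≤ h) (i : Fin n) (x : Fin n → ℝ) :
    pd i (wh h) x = - (wh h x ^ 2 * (x i / Real.sqrt (1 + esq x))) := by
  have h0 : DifferentiableAt ℝ (fun y : Fin n → ℝ => h + Real.sqrt (1 + esq y)) x :=
    ((contDiff_const.add sq_cd : ContDiff ℝ 1 fun y : Fin n → ℝ => h + Real.sqrt (1 + esq y)
      ).differentiable (by norm_num)) x
  have hne := (wh_den_pos hh x).ne'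
  have h1 := pd_comp (i := i) (h := fun t : ℝ => 1 / t)
    (f := fun y : Fin n → ℝ => h + Real.sqrt (1 + esq y)) (x := x)
    (by simp only [one_div]; exact differentiableAt_inv hne) h0
  have h2 : (fun y : Fin n → ℝ => (fun t : ℝ => 1 / t) (h + Real.sqrt (1 + esq y))) = wh h := rfl
  rw [h2] at h1
  rw [h1]
  have h3 : pd i (fun y : Fin n → ℝ => h + Real.sqrt (1 + esq y)) x
      = x i / Real.sqrt (1 + esq x) := by
    have h4 : DifferentiableAt ℝ (fun y : Fin n → ℝ => Real.sqrt (1 + esq y)) x :=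
      ((sq_cd : ContDiff ℝ 1 fun y : Fin n → ℝ => Real.sqrt (1 + esq y)).differentiable
        (by norm_num)) x
    have h5 : pd i (fun y : Fin n → ℝ => h + Real.sqrt (1 + esq y)) x
        = pd i (fun _ : Fin n → ℝ => h) x + pd i (fun y : Fin n → ℝ => Real.sqrt (1 + esq y)) x := by
      unfold pd
      rw [fderiv_fun_add (by fun_prop) h4]
      rfl
    rw [h5, pd_const, pd_sq', zero_add]
  rw [h3]
  have h6 : deriv (fun t : ℝ => 1 / t) (h + Real.sqrt (1 + esq x)) = - wh h x ^ 2 := by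
    simp only [one_div]
    rw [deriv_inv]
    unfold wh
    simp
  rw [h6]
  ring

lemma sum_pd_wh (hh : 0 ≤ h) (x : Fin n → ℝ) :
    ∑ i, pd i (wh h) x ^ 2 = wh h x ^ 4 * (esq x / (1 + esq x)) := by
  simp_rw [pd_wh hh]
  have h1 : ∀ i, (- (wh h x ^ 2 * (x i / Real.sqrt (1 + esq x)))) ^ 2
      = wh h x ^ 4 / (1 + esq x) * x i ^ 2 := by
    intro i
    have h2 : Real.sqrt (1 + esq x) ^ 2 = 1 + esq x := Real.sq_sqrt (one_esq_pos x).le
    calc (- (wh h x ^ 2 * (x i / Real.sqrt (1 + esq x)))) ^ 2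
        = wh h x ^ 4 * x i ^ 2 / (Real.sqrt (1 + esq x) ^ 2) := by ring
      _ = wh h x ^ 4 / (1 + esq x) * x i ^ 2 := by rw [h2]; ring
  simp_rw [h1]
  rw [← Finset.mul_sum]
  change wh h x ^ 4 / (1 + esq x) * esq x = _
  ring

lemma abs_pd_wh_le (hh : 0 ≤ h) (i : Fin n) (x : Fin n → ℝ) : |pd i (wh h) x| ≤ wh h x ^ 2 := by
  rw [pd_wh hh, abs_neg, abs_mul, abs_of_nonneg (sq_nonneg _)]
  apply mul_le_of_le_one_right (sq_nonneg _)
  rw [abs_div, abs_of_pos (sq_pos' x), div_le_one (sq_pos' x)]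
  apply Real.abs_le_sqrt
  have := Finset.single_le_sum (f := fun j => x j ^ 2) (fun i _ => sq_nonneg _) (Finset.mem_univ i)
  unfold esq
  linarith

lemma cutb_zero_box {R : ℝ} (hR : 0 < R) (hx : x ∉ box n (2 * R)) :
    cutb Finset.univ R x = 0 := by
  rw [mem_box] at hx
  push Not at hx
  obtain ⟨i, hi⟩ := hx
  apply cutb_eq_zero hR
  refine le_trans ?_ (sq_le_rho (Finset.mem_univ i) x)
  rw [← sq_abs (x i)]
  nlinarith

lemma cutb_hcs {R : ℝ} (hR : 0 < R) : HasCompactSupport (cutb (n := n) Finset.univ R) :=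
  HasCompactSupport.intro (isCompact_box (2 * R)) fun _ hx => cutb_zero_box hR hx

/-- Pointwise bound of the gradient of the test function. -/
theorem exists_grad_bound (n : ℕ) : ∃ C : ℝ, 0 ≤ C ∧ ∀ (h : ℝ), 0 ≤ h → ∀ (R : ℝ), 0 < R →
    ∀ x : Fin n → ℝ, ∑ i, pd i (fun y => wh h y * cutb Finset.univ R y) x ^ 2
      ≤ cutb Finset.univ R x ^ 2 * (wh h x ^ 4 * (esq x / (1 + esq x)))
        + C / R ^ 4 * ind (box n (2 * R)) x := by
  obtain ⟨C, hC1, hC⟩ := exists_th_bound
  refine ⟨n * (9 * C ^ 2 + 6 * C), by positivity, fun h hh R hR x => ?_⟩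
  have hdw : DifferentiableAt ℝ (wh (n := n) h) x :=
    ((wh_cd hh : ContDiff ℝ 1 (wh (n := n) h)).differentiable (by norm_num)) x
  have hdc : DifferentiableAt ℝ (cutb (n := n) Finset.univ R) x :=
    ((cutb_contDiff (n := n) Finset.univ R).differentiable (by norm_num)) x
  have hpd : ∀ i, pd i (fun y => wh h y * cutb Finset.univ R y) x
      = wh h x * pd i (cutb Finset.univ R) x + cutb Finset.univ R x * pd i (wh h) x := fun i =>
    pd_mul hdw hdc
  simp_rw [hpd]
  have hR4 : 0 < R ^ 4 := by positivity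
  have hC0 : 0 ≤ C / R ^ 4 := by positivity
  by_cases h1 : rho Finset.univ x / R ^ 2 < 1
  · have h2 : ∀ i, pd i (cutb Finset.univ R) x = 0 := fun i => by
      rw [pd_cutb, th_deriv_of_lt h1, zero_mul]
    simp_rw [h2, mul_zero, zero_add, mul_pow]
    rw [← Finset.mul_sum, sum_pd_wh hh]
    have h3 : 0 ≤ n * (9 * C ^ 2 + 6 * C) / R ^ 4 * ind (box n (2 * R)) x :=
      mul_nonneg (by positivity) (ind_nonneg _ _)
    linarith
  by_cases h2 : 2 < rho Finset.univ x / R ^ 2
  · have h3 : ∀ i, pd i (cutb Finset.univ R) x = 0 := fun i => by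
      rw [pd_cutb, th_deriv_of_gt h2, zero_mul]
    have h4 : cutb Finset.univ R x = 0 := th_zero h2.le
    simp_rw [h3, h4]
    simp only [mul_zero, zero_mul, add_zero, ne_eq, OfNat.ofNat_ne_zero, not_false_eq_true,
      zero_pow, Finset.sum_const_zero, zero_add]
    exact mul_nonneg (by positivity) (ind_nonneg _ _)
  rw [not_lt] at h1 h2
  have hR2 : 0 < R ^ 2 := by positivity
  rw [le_div_iff₀ hR2, one_mul] at h1
  rw [div_le_iff₀ hR2] at h2
  -- the point lies in the box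
  have hbox : x ∈ box n (2 * R) := by
    rw [mem_box]
    intro i
    apply abs_le_of_sq_le_sq _ (by positivity)
    have := sq_le_rho (Finset.mem_univ i) x
    nlinarith
  rw [ind_mem hbox, mul_one]
  have hwR : wh h x ≤ 1 / R := by
    refine (wh_le hh x).trans ?_
    apply one_div_le_one_div_of_le hR
    apply Real.le_sqrt_of_sq_le
    change R ^ 2 ≤ 1 + rho Finset.univ x
    linarith
  have hw0 := (wh_pos hh x).le
  have hw2 : wh h x ^ 2 ≤ 1 / R ^ 2 := by
    calc wh h x ^ 2 ≤ (1 / R) ^ 2 := pow_le_pow_left₀ hw0 hwR 2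
      _ = 1 / R ^ 2 := by ring
  have hχ0 := cutb_nonneg Finset.univ R x
  have hχ1 := cutb_le_one Finset.univ R x
  have hterm : ∀ i, (wh h x * pd i (cutb Finset.univ R) x + cutb Finset.univ R x * pd i (wh h) x) ^ 2
      ≤ cutb Finset.univ R x ^ 2 * pd i (wh h) x ^ 2 + (9 * C ^ 2 + 6 * C) / R ^ 4 := by
    intro i
    have ha : |pd i (cutb Finset.univ R) x| ≤ 3 * C / R := pd_cutb_bound hC Finset.univ hR
    have hb : |pd i (wh h) x| ≤ 1 / R ^ 2 := (abs_pd_wh_le hh i x).trans hw2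
    have e1 : (wh h x * pd i (cutb Finset.univ R) x) ^ 2 ≤ 9 * C ^ 2 / R ^ 4 := by
      rw [mul_pow]
      calc wh h x ^ 2 * pd i (cutb Finset.univ R) x ^ 2
          ≤ (1 / R ^ 2) * (3 * C / R) ^ 2 := by
            apply mul_le_mul hw2 _ (sq_nonneg _) (by positivity)
            rw [← sq_abs]
            exact pow_le_pow_left₀ (abs_nonneg _) ha 2
        _ = 9 * C ^ 2 / R ^ 4 := by ring
    have e2 : 2 * (wh h x * pd i (cutb Finset.univ R) x) * (cutb Finset.univ R x * pd i (wh h) x)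
        ≤ 6 * C / R ^ 4 := by
      calc 2 * (wh h x * pd i (cutb Finset.univ R) x) * (cutb Finset.univ R x * pd i (wh h) x)
          ≤ |2 * (wh h x * pd i (cutb Finset.univ R) x) * (cutb Finset.univ R x * pd i (wh h) x)| :=
            le_abs_self _
        _ = 2 * (wh h x * |pd i (cutb Finset.univ R) x|) * (cutb Finset.univ R x * |pd i (wh h) x|) := by
            rw [abs_mul, abs_mul, abs_mul, abs_mul, abs_two, abs_of_nonneg hw0, abs_of_nonneg hχ0]
        _ ≤ 2 * ((1 / R) * (3 * C / R)) * (1 * (1 / R ^ 2)) := by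
            gcongr
        _ = 6 * C / R ^ 4 := by ring
    calc (wh h x * pd i (cutb Finset.univ R) x + cutb Finset.univ R x * pd i (wh h) x) ^ 2
        = (wh h x * pd i (cutb Finset.univ R) x) ^ 2
          + 2 * (wh h x * pd i (cutb Finset.univ R) x) * (cutb Finset.univ R x * pd i (wh h) x)
          + cutb Finset.univ R x ^ 2 * pd i (wh h) x ^ 2 := by ring
      _ ≤ 9 * C ^ 2 / R ^ 4 + 6 * C / R ^ 4 + cutb Finset.univ R x ^ 2 * pd i (wh h) x ^ 2 := by
          linarith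
      _ = _ := by ring
  calc ∑ i, (wh h x * pd i (cutb Finset.univ R) x + cutb Finset.univ R x * pd i (wh h) x) ^ 2
      ≤ ∑ i : Fin n, (cutb Finset.univ R x ^ 2 * pd i (wh h) x ^ 2 + (9 * C ^ 2 + 6 * C) / R ^ 4) :=
        Finset.sum_le_sum fun i _ => hterm i
    _ = cutb Finset.univ R x ^ 2 * (wh h x ^ 4 * (esq x / (1 + esq x)))
        + n * (9 * C ^ 2 + 6 * C) / R ^ 4 := by
        rw [Finset.sum_add_distrib, ← Finset.mul_sum, sum_pd_wh hh]
        simp only [Finset.sum_const, Finset.card_univ, Fintype.card_fin, nsmul_eq_mul]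
        ring

end Vale.Agent.P134.B331.M
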