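import Vale.Agent.P134.H765.Stab
import Vale.Agent.P134.H765.Final4
import Vale.Agent.P134.H147.Base

/-! Closed form of one-dimensional monotone solutions, Euclidean form. -/

set_option linter.all false

open MeasureTheory Filter Topology Module
open scoped InnerProductSpace Laplacian

namespace Vale.Agent.P134.B331.M

open Vale.Agent.P134 Vale.Agent.P134.H765

variable {n : ℕ}

/-- An orthonormal basis containing a prescribed unit vector. -/
lemma exists_basis_unit {a : EuclideanSpace ℝ (Fin n)} (q : Fin n) (ha : ‖a‖ = 1) :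
    ∃ b : OrthonormalBasis (Fin n) ℝ (EuclideanSpace ℝ (Fin n)), b q = a := by
  classical
  set V : Fin n → EuclideanSpace ℝ (Fin n) := fun _ => a with hV
  have hVo : Orthonormal ℝ (({q} : Set (Fin n)).restrict V) := by
    constructor
    · rintro ⟨i, hi⟩
      exact ha
    · rintro ⟨i, hi⟩ ⟨j, hj⟩ hij
      have hi' : i = q := hi
      have hj' : j = q := hj
      exact absurd (Subtype.ext (hi'.trans hj'.symm)) hij
  obtain ⟨b, hb⟩ := hVo.exists_orthonormalBasis_extension_of_card_eq (by simp)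
  exact ⟨b, hb q (by simp)⟩

/-- A one-dimensional monotone solution is a hyperbolic tangent. -/
theorem tanh_of_one_dim {u : EuclideanSpace ℝ (Fin n) → ℝ} (hu : ContDiff ℝ 2 u)
    (heq : ∀ x, Δ u x = u x ^ 3 - u x) (hb : ∀ x, |u x| ≤ 1)
    {a : EuclideanSpace ℝ (Fin n)} (ha : ∀ x, 0 < fderiv ℝ u x a)
    (h1 : ∃ (e : EuclideanSpace ℝ (Fin n)) (h : ℝ → ℝ), ‖e‖ = 1 ∧ ∀ x, u x = h ⟪e, x⟫_ℝ) :
    ∃ (e : EuclideanSpace ℝ (Fin n)) (c : ℝ), ‖e‖ = 1 ∧ 0 < ⟪e, a⟫_ℝ ∧
      ∀ x, u x = Real.tanh ((⟪e, x⟫_ℝ - c) / √2) := by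
  obtain ⟨e, h, he, hue⟩ := h1
  have du : Differentiable ℝ u := hu.differentiable (by norm_num)
  have ha0 : a ≠ 0 := by
    intro h0
    have := ha 0
    rw [h0, map_zero] at this
    exact lt_irrefl _ this
  have hna : 0 < ‖a‖ := norm_pos_iff.mpr ha0
  have hn : 0 < n := by
    rcases Nat.eq_zero_or_pos n with h0 | h0
    · subst h0
      exact absurd (Subsingleton.elim a 0) ha0
    · exact h0
  obtain ⟨b, hbq⟩ := exists_basis_unit (a := ‖a‖⁻¹ • a) ⟨0, hn⟩ (by
    rw [norm_smul, norm_inv, norm_norm, inv_mul_cancel₀ hna.ne'])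
  have hsol := sol_of_euclidean hu heq hb b 0
  have hpos : ∀ y, 0 < pd (⟨0, hn⟩ : Fin n) (fun y => u (0 + coordMap b y)) y := by
    intro y
    rw [pd_coord_comp du b 0, hbq, map_smul, smul_eq_mul]
    exact mul_pos (inv_pos.mpr hna) (ha _)
  have hν : ∑ i, (fun i => ⟪b i, e⟫_ℝ) i ^ 2 = 1 := by
    have h2 := b.sum_sq_norm_inner_right e
    rw [he] at h2
    simpa using h2
  have h3 : ∀ y, (fun y => u (0 + coordMap b y)) y = h (∑ i, (fun i => ⟪b i, e⟫_ℝ) i * y i) := by
    intro y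
    simp only [zero_add]
    rw [hue]
    congr 1
    rw [coordMap_apply, inner_sum]
    refine Finset.sum_congr rfl fun i _ => ?_
    rw [inner_smul_right, real_inner_comm]
    ring
  obtain ⟨ν, hν1, c, hc⟩ := closed_form hn hν hsol hpos h3
  have hrep : ∀ x, u x = Real.tanh ((⟪∑ i, ν i • b i, x⟫_ℝ - c) / √2) := by
    intro x
    have h4 := hc (fun i => ⟪b i, x - 0⟫_ℝ)
    simp only [coordMap_repr b 0 x] at h4
    rw [h4]
    congr 2
    rw [sum_inner]
    congr 1
    refine Finset.sum_congr rfl fun i _ => ?_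
    rw [inner_smul_left, sub_zero]
    simp
  refine ⟨∑ i, ν i • b i, c, ?_, ?_, hrep⟩
  · have h4 : ‖∑ i, ν i • b i‖ ^ 2 = 1 := by
      rw [← real_inner_self_eq_norm_sq, sum_inner]
      simp_rw [inner_sum, inner_smul_left, inner_smul_right, b.inner_eq_ite]
      simp only [mul_ite, mul_one, mul_zero, Finset.sum_ite_eq, Finset.mem_univ, if_true,
        conj_trivial]
      rw [← hν1]
      refine Finset.sum_congr rfl fun i _ => by ring
    have h5 : 0 ≤ ‖∑ i, ν i • b i‖ := norm_nonneg _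
    nlinarith
  · have h4 : StrictMono fun t : ℝ => u (t • a) := by
      refine strictMono_of_deriv_pos fun t => ?_
      have h2 : HasDerivAt (fun t : ℝ => u (t • a)) (fderiv ℝ u (t • a) a) t := by
        have h3 : HasDerivAt (fun t : ℝ => t • a) a t := by
          simpa using (hasDerivAt_id t).smul_const a
        exact (du (t • a)).hasFDerivAt.comp_hasDerivAt t h3
      rw [h2.deriv]
      exact ha _
    have h5 : u ((0:ℝ) • a) < u ((1:ℝ) • a) := h4 one_pos
    rw [hrep, hrep] at h5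
    have h6 : ⟪∑ i, ν i • b i, (0:ℝ) • a⟫_ℝ - c < ⟪∑ i, ν i • b i, (1:ℝ) • a⟫_ℝ - c :=
      H147.g0_strictMono.lt_iff_lt.mp h5
    rw [zero_smul, one_smul, inner_zero_right] at h6
    linarith

end Vale.Agent.P134.B331.M

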