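import Vale.Agent.P134.B331.RowC

/-! Row B. -/

set_option linter.all false

open MeasureTheory Filter Topology
open scoped InnerProductSpace

namespace Vale.Agent.P134.B331.M

open Vale.Agent.P134 Vale.Agent.P134.H765 Vale.Agent.P134.B331

variable {n : ℕ} {h : ℝ} {x : Fin n → ℝ} {p q : Fin n} {u : (Fin n → ℝ) → ℝ}

/-- A bounded monotone family of integrals has small tails. -/
lemma tail_small {F : (Fin n → ℝ) → ℝ} (hF : Continuous F) (hF0 : ∀ x, 0 ≤ F x) {M : ℝ}
    (h : ∀ r : ℝ, 1 ≤ r → ∫ x, cutb Finset.univ r x ^ 2 * F x ≤ M) {ε : ℝ} (hε : 0 < ε) :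
    ∃ ρ : ℝ, 1 ≤ ρ ∧ ∀ r, ρ ≤ r →
      ∫ x, (cutb Finset.univ r x ^ 2 - cutb Finset.univ ρ x ^ 2) * F x ≤ ε := by
  have hcs2 : ∀ s : ℝ, 0 < s → HasCompactSupport (fun x : Fin n → ℝ => cutb Finset.univ s x ^ 2) :=
    fun s hs => hcs_pow (cutb_hcs (n := n) hs)
  have hi : ∀ s : ℝ, 0 < s → Integrable (fun x => cutb Finset.univ s x ^ 2 * F x) := fun s hs =>
    int_cc (cutb_cont.pow 2) hF (hcs2 s hs)
  set S : Set ℝ := (fun r : ℝ => ∫ x, cutb Finset.univ r x ^ 2 * F x) '' Set.Ici 1 with hS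
  have hb : BddAbove S := ⟨M, by rintro _ ⟨r, hr, rfl⟩; exact h r hr⟩
  have hne : S.Nonempty := ⟨_, 1, Set.mem_Ici.mpr le_rfl, rfl⟩
  obtain ⟨_, ⟨ρ, hρ, rfl⟩, hρ2⟩ := exists_lt_of_lt_csSup hne (show sSup S - ε < sSup S by linarith)
  have hρ1 : (1:ℝ) ≤ ρ := hρ
  refine ⟨ρ, hρ1, fun r hr => ?_⟩
  have h1 : ∫ x, cutb Finset.univ r x ^ 2 * F x ≤ sSup S :=
    le_csSup hb ⟨r, hρ1.trans hr, rfl⟩
  have h2 : ∫ x, (cutb Finset.univ r x ^ 2 - cutb Finset.univ ρ x ^ 2) * F x
      = (∫ x, cutb Finset.univ r x ^ 2 * F x) - ∫ x, cutb Finset.univ ρ x ^ 2 * F x := by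
    rw [← integral_sub (hi r (by linarith)) (hi ρ (by linarith))]
    congr 1
    ext x; ring
  rw [h2]
  simp only at hρ2
  linarith

/-- ROW B. -/
theorem stB (hK : StK) : StB := by
  intro n C u hu p q h K g hh hg hgain hwg hgr δ ε hδ hε
  obtain ⟨C2, hC2, hgi⟩ := gain_int hK n
  have hn : 1 ≤ n := Fin.pos p
  have hn' : (1:ℝ) ≤ n := by exact_mod_cast hn
  have hwc : Continuous (wh (n := n) h) := (wh_cd hh : ContDiff ℝ 1 (wh (n := n) h)).continuous
  have hQ := Q2_cont hu.toSol p q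
  have hgg := hgi C u hu p q h g hh hg hgain
  have hfac : ∀ x : Fin n → ℝ, 0 ≤ g x - wh h x ^ 2 * (esq x / (1 + esq x)) := by
    intro x
    have h1 : esq x / (1 + esq x) ≤ 1 := by
      rw [div_le_one (one_esq_pos x)]; linarith
    have h2 : wh h x ^ 2 * (esq x / (1 + esq x)) ≤ wh h x ^ 2 :=
      mul_le_of_le_one_right (sq_nonneg _) h1
    linarith [hwg x]
  set F : (Fin n → ℝ) → ℝ := fun x =>
    wh h x ^ 2 * ((g x - wh h x ^ 2 * (esq x / (1 + esq x))) * Q2 p q u x) with hF
  have hFc : Continuous F :=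
    (hwc.pow 2).mul ((hg.sub ((hwc.pow 2).mul esq_div_cont)).mul hQ)
  have hF0 : ∀ x, 0 ≤ F x := fun x =>
    mul_nonneg (sq_nonneg _) (mul_nonneg (hfac x) (Q2_nonneg p q u x))
  have hM : ∀ r : ℝ, 1 ≤ r → ∫ x, cutb Finset.univ r x ^ 2 * F x ≤ 16 * C2 * K := by
    intro r hr
    have h1 := hgg r (by linarith)
    have h2 := hgr (2 * r) (by linarith)
    have hr4 : 0 < r ^ 4 := by positivity
    calc ∫ x, cutb Finset.univ r x ^ 2 * F x ≤ C2 / r ^ 4 * ∫ x in box n (2 * r), Q2 p q u x := h1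
      _ ≤ C2 / r ^ 4 * (K * (2 * r) ^ 4) := by gcongr
      _ = 16 * C2 * K := by field_simp; ring
  set κ : ℝ := δ / ((h + 1 + n) ^ 2 * (n + 1)) with hκ
  have hκ0 : 0 < κ := by positivity
  obtain ⟨ρ, hρ1, hρ⟩ := tail_small hFc hF0 hM (show 0 < κ * ε / 2 by positivity)
  set M : ℝ := ∫ x, cutb Finset.univ ρ x ^ 2 * Q2 p q u x with hMdef
  have hM0 : 0 ≤ M := integral_nonneg fun x => mul_nonneg (sq_nonneg _) (Q2_nonneg p q u x)
  refine ⟨ρ + 2 * M / ε, fun R hR => ?_⟩
  have hMε : 0 ≤ 2 * M / ε := by positivity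
  have hρR : ρ ≤ R := by linarith
  have hR1 : 1 ≤ R := by linarith
  have hR0 : 0 < R := by linarith
  have hMR : M ≤ ε / 2 * R ^ 4 := by
    have h1 : 2 * M / ε ≤ R := by linarith
    rw [div_le_iff₀ hε] at h1
    have h2 : R ≤ R ^ 4 := le_self_pow₀ hR1 (by norm_num)
    nlinarith
  have hnR : R ≤ n * R := le_mul_of_one_le_left hR0.le hn'
  set E : Set (Fin n → ℝ) := {x | x ∈ box n R ∧ 1 + δ ≤ g x * esq x} with hE
  have hEm : MeasurableSet E :=
    ((isCompact_box R).isClosed.inter (isClosed_le continuous_const (hg.mul continuous_esq))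
      ).measurableSet
  have hlow : ∀ x ∈ E, κ / R ^ 4 * Q2 p q u x ≤ F x := by
    intro x hx
    have hxb := hx.1
    rw [mem_box] at hxb
    have hesq : esq x ≤ n * R ^ 2 := by
      unfold esq
      calc ∑ i, x i ^ 2 ≤ ∑ _i : Fin n, R ^ 2 := by
            refine Finset.sum_le_sum fun i _ => ?_
            rw [← sq_abs]
            exact pow_le_pow_left₀ (abs_nonneg _) (hxb i) 2
        _ = n * R ^ 2 := by simp
    have he0 := esq_nonneg x
    have hepos : 0 < esq x := by
      rcases he0.lt_or_eq with h0 | h0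
      · exact h0
      · exfalso
        have := hx.2
        rw [← h0, mul_zero] at this
        linarith
    -- lower bound of the weight
    have hw1 : 1 / ((h + 1 + n) * R) ≤ wh h x := by
      unfold wh
      apply one_div_le_one_div_of_le (wh_den_pos hh x)
      have h2 : Real.sqrt (1 + esq x) ≤ (1 + n) * R := by
        rw [Real.sqrt_le_left (by positivity)]
        have h3 : 1 ≤ R ^ 2 := one_le_pow₀ hR1
        nlinarith
      have h4 : h ≤ h * R := le_mul_of_one_le_right hh hR1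
      nlinarith
    have hw2 : 1 / ((h + 1 + n) ^ 2 * R ^ 2) ≤ wh h x ^ 2 := by
      calc 1 / ((h + 1 + n) ^ 2 * R ^ 2) = (1 / ((h + 1 + n) * R)) ^ 2 := by
            rw [div_pow, mul_pow]; norm_num
        _ ≤ wh h x ^ 2 := pow_le_pow_left₀ (by positivity) hw1 2
    -- lower bound of the gain
    have hg1 : δ / ((n + 1) * R ^ 2) ≤ g x - wh h x ^ 2 * (esq x / (1 + esq x)) := by
      have h1 : (1 + δ) / esq x ≤ g x := by
        rw [div_le_iff₀ hepos]; exact hx.2
      have h2 : wh h x ^ 2 ≤ 1 / esq x := by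
        have h3 : wh h x ^ 2 ≤ (1 / Real.sqrt (1 + esq x)) ^ 2 :=
          pow_le_pow_left₀ (wh_pos hh x).le (wh_le hh x) 2
        rw [div_pow, Real.sq_sqrt (one_esq_pos x).le, one_pow] at h3
        refine h3.trans (one_div_le_one_div_of_le hepos (by linarith))
      have h4 : wh h x ^ 2 * (esq x / (1 + esq x)) ≤ 1 / esq x := by
        have h5 : esq x / (1 + esq x) ≤ 1 := by
          rw [div_le_one (one_esq_pos x)]; linarith
        exact (mul_le_of_le_one_right (sq_nonneg _) h5).trans h2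
      have h6 : δ / ((n + 1) * R ^ 2) ≤ δ / esq x := by
        apply div_le_div_of_nonneg_left hδ.le hepos
        nlinarith [sq_nonneg R]
      have h7 : (1 + δ) / esq x - 1 / esq x = δ / esq x := by ring
      linarith
    have hprod : κ / R ^ 4 ≤ wh h x ^ 2 * (g x - wh h x ^ 2 * (esq x / (1 + esq x))) := by
      calc κ / R ^ 4 = (1 / ((h + 1 + n) ^ 2 * R ^ 2)) * (δ / ((n + 1) * R ^ 2)) := by
            rw [hκ]; field_simp
        _ ≤ _ := by
            apply mul_le_mul hw2 hg1 (by positivity) (sq_nonneg _)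
    calc κ / R ^ 4 * Q2 p q u x
        ≤ (wh h x ^ 2 * (g x - wh h x ^ 2 * (esq x / (1 + esq x)))) * Q2 p q u x :=
          mul_le_mul_of_nonneg_right hprod (Q2_nonneg p q u x)
      _ = F x := by rw [hF]; ring
  have hc1 : ∀ x ∈ E, cutb Finset.univ (n * R) x = 1 := by
    intro x hx
    have hxb := hx.1
    rw [mem_box] at hxb
    apply th_one
    have hpos : 0 < (n * R) ^ 2 := by positivity
    rw [div_le_one hpos]
    calc rho Finset.univ x = ∑ i, x i ^ 2 := rfl
      _ ≤ ∑ _i : Fin n, R ^ 2 := by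
            refine Finset.sum_le_sum fun i _ => ?_
            rw [← sq_abs]
            exact pow_le_pow_left₀ (abs_nonneg _) (hxb i) 2
      _ = n * R ^ 2 := by simp
      _ ≤ (n * R) ^ 2 := by
          rw [mul_pow]
          apply mul_le_mul_of_nonneg_right _ (sq_nonneg R)
          nlinarith
  have hcs2 : ∀ s : ℝ, 0 < s → HasCompactSupport (fun x : Fin n → ℝ => cutb Finset.univ s x ^ 2) :=
    fun s hs => hcs_pow (cutb_hcs (n := n) hs)
  have hnR0 : 0 < n * R := by positivity
  have i1 : Integrable (fun x => cutb Finset.univ ρ x ^ 2 * Q2 p q u x) :=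
    int_cc (cutb_cont.pow 2) hQ (hcs2 ρ (by linarith))
  have i2 : Integrable (fun x => (cutb Finset.univ (n * R) x ^ 2 - cutb Finset.univ ρ x ^ 2) * F x) := by
    have h1 := (int_cc (cutb_cont.pow 2) hFc (hcs2 (n * R) hnR0)).sub
      (int_cc (cutb_cont.pow 2) hFc (hcs2 ρ (by linarith)))
    refine h1.congr (Eventually.of_forall fun x => ?_)
    simp only [Pi.sub_apply, Pi.pow_apply]
    ring
  have i3 : Integrable (fun x => Q2 p q u x * ind E x) := by
    have : (fun x => Q2 p q u x * ind E x) = E.indicator (Q2 p q u) := by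
      ext x
      by_cases hx : x ∈ E
      · rw [ind_mem hx, Set.indicator_of_mem hx, mul_one]
      · rw [ind_notMem hx, Set.indicator_of_notMem hx, mul_zero]
    rw [this]
    exact ((hQ.continuousOn.integrableOn_compact (isCompact_box R)).mono_set
      (fun x hx => hx.1)).integrable_indicator hEm
  rw [← integral_mul_ind hEm]
  calc ∫ x, Q2 p q u x * ind E x
      ≤ ∫ x, (cutb Finset.univ ρ x ^ 2 * Q2 p q u x
        + R ^ 4 / κ * ((cutb Finset.univ (n * R) x ^ 2 - cutb Finset.univ ρ x ^ 2) * F x)) := by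
        apply integral_mono i3 (i1.add (i2.const_mul _))
        intro x
        simp only [Pi.add_apply]
        have hm : cutb Finset.univ ρ x ^ 2 ≤ cutb Finset.univ (n * R) x ^ 2 :=
          pow_le_pow_left₀ (cutb_nonneg _ _ _) (cutb_mono (by linarith) (by linarith) x) 2
        by_cases hx : x ∈ E
        · rw [ind_mem hx, mul_one, hc1 x hx]
          have h1 := hlow x hx
          have h2 : Q2 p q u x ≤ R ^ 4 / κ * F x := by
            have h3 : R ^ 4 / κ * (κ / R ^ 4 * Q2 p q u x) ≤ R ^ 4 / κ * F x := by gcongr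
            have h4 : R ^ 4 / κ * (κ / R ^ 4 * Q2 p q u x) = Q2 p q u x := by
              field_simp
            linarith
          rw [hc1 x hx] at hm
          have h5 : 0 ≤ (1:ℝ) ^ 2 - cutb Finset.univ ρ x ^ 2 := by linarith
          have h6 := mul_le_mul_of_nonneg_left h2 h5
          calc Q2 p q u x = cutb Finset.univ ρ x ^ 2 * Q2 p q u x
                + (1 ^ 2 - cutb Finset.univ ρ x ^ 2) * Q2 p q u x := by ring
            _ ≤ cutb Finset.univ ρ x ^ 2 * Q2 p q u x
                + (1 ^ 2 - cutb Finset.univ ρ x ^ 2) * (R ^ 4 / κ * F x) := by linarith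
            _ = _ := by ring
        · rw [ind_notMem hx, mul_zero]
          have h1 : 0 ≤ cutb Finset.univ ρ x ^ 2 * Q2 p q u x :=
            mul_nonneg (sq_nonneg _) (Q2_nonneg p q u x)
          have h2 : 0 ≤ (cutb Finset.univ (n * R) x ^ 2 - cutb Finset.univ ρ x ^ 2) * F x :=
            mul_nonneg (by linarith) (hF0 x)
          have h3 : 0 ≤ R ^ 4 / κ := by positivity
          have h4 := mul_nonneg h3 h2
          linarith
    _ = M + R ^ 4 / κ * ∫ x, (cutb Finset.univ (n * R) x ^ 2 - cutb Finset.univ ρ x ^ 2) * F x := by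
        rw [integral_add i1 (i2.const_mul _), integral_const_mul]
    _ ≤ ε / 2 * R ^ 4 + R ^ 4 / κ * (κ * ε / 2) := by
        have h1 := hρ (n * R) (by linarith)
        have h3 : 0 ≤ R ^ 4 / κ := by positivity
        have h4 := mul_le_mul_of_nonneg_left h1 h3
        linarith
    _ = ε * R ^ 4 := by field_simp; ring

end Vale.Agent.P134.B331.M
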