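import Vale.Agent.P134.B331.Gain

/-! Rows C and B. -/

set_option linter.all false

open MeasureTheory Filter Topology
open scoped InnerProductSpace

namespace Vale.Agent.P134.B331.M

open Vale.Agent.P134 Vale.Agent.P134.H765 Vale.Agent.P134.B331

variable {n : ℕ} {h : ℝ} {x : Fin n → ℝ} {p q : Fin n} {u : (Fin n → ℝ) → ℝ}

lemma Q2_nonneg (p q : Fin n) (u : (Fin n → ℝ) → ℝ) (x : Fin n → ℝ) : 0 ≤ Q2 p q u x := by
  unfold Q2; positivity

lemma Q2_cont (hu : Sol u) (p q : Fin n) : Continuous (Q2 p q u) := by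
  unfold Q2
  exact ((contDiff_pd_one hu.c2).continuous.pow 2).add ((contDiff_pd_one hu.c2).continuous.pow 2)

lemma esq_div_cont : Continuous (fun x : Fin n → ℝ => esq x / (1 + esq x)) :=
  continuous_esq.div (continuous_const.add continuous_esq) fun x => (one_esq_pos x).ne'

lemma cutb_cont {R : ℝ} : Continuous (cutb (n := n) Finset.univ R) :=
  (cutb_contDiff Finset.univ R).continuous

lemma int_cc {f g : (Fin n → ℝ) → ℝ} (hf : Continuous f) (hg : Continuous g)
    (hc : HasCompactSupport f) : Integrable (fun x => f x * g x) :=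
  (hf.mul hg).integrable_of_hasCompactSupport hc.mul_right

lemma hcs_pow {f : (Fin n → ℝ) → ℝ} (hc : HasCompactSupport f) :
    HasCompactSupport (fun x => f x ^ 2) := hc.comp_left (g := fun t => t ^ 2) (by simp)

lemma int_gs {f φ : (Fin n → ℝ) → ℝ} (hf : Continuous f) (hφ : ContDiff ℝ 1 φ)
    (hc : HasCompactSupport φ) : Integrable (fun x => f x * ∑ j, pd j φ x ^ 2) := by
  have h1 : HasCompactSupport (fun x => ∑ j, pd j φ x ^ 2) := by
    apply HasCompactSupport.intro' hc.isCompact (isClosed_tsupport φ)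
    intro x hx
    apply Finset.sum_eq_zero
    intro j _
    have : pd j φ x = 0 := by
      unfold pd
      rw [fderiv_of_notMem_tsupport ℝ hx]; rfl
    rw [this]; ring
  exact (hf.mul (continuous_finsetSum _ fun j _ => (continuous_pd hφ).pow 2)
      ).integrable_of_hasCompactSupport h1.mul_left

/-- The gain inequality. -/
theorem gain_int (hK : StK) (n : ℕ) : ∃ C2 : ℝ, 0 ≤ C2 ∧ ∀ (C : ℝ) (u : (Fin n → ℝ) → ℝ),
    SS C u → ∀ (p q : Fin n) (h : ℝ) (g : (Fin n → ℝ) → ℝ), 0 ≤ h → Continuous g →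
    (∀ x, g x * Q2 p q u x ^ 2 ≤ RR p q u x) → ∀ R : ℝ, 0 < R →
    ∫ x, cutb Finset.univ R x ^ 2
        * (wh h x ^ 2 * ((g x - wh h x ^ 2 * (esq x / (1 + esq x))) * Q2 p q u x))
      ≤ C2 / R ^ 4 * ∫ x in box n (2 * R), Q2 p q u x := by
  obtain ⟨C2, hC2, hb⟩ := exists_grad_bound n
  refine ⟨C2, hC2, fun C u hu p q h g hh hg hgain R hR => ?_⟩
  have hwc : Continuous (wh (n := n) h) := (wh_cd hh : ContDiff ℝ 1 (wh (n := n) h)).continuous
  have hQ := Q2_cont hu.toSol p q
  have hcs := cutb_hcs (n := n) hR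
  have hcs2 : HasCompactSupport (fun x : Fin n → ℝ => cutb Finset.univ R x ^ 2) := hcs_pow hcs
  have hcc2 : Continuous (fun x : Fin n → ℝ => cutb Finset.univ R x ^ 2) := cutb_cont.pow 2
  have hφ1 : ContDiff ℝ 1 (fun y : Fin n → ℝ => wh h y * cutb Finset.univ R y) :=
    (wh_cd hh).mul (cutb_contDiff Finset.univ R)
  have hφc : HasCompactSupport (fun y : Fin n → ℝ => wh h y * cutb Finset.univ R y) := hcs.mul_left
  have h1 := hK C u hu p q g hg hgain _ hφ1 hφc
  have c1 : Continuous (fun x => wh h x ^ 4 * (esq x / (1 + esq x)) * Q2 p q u x) :=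
    ((hwc.pow 4).mul esq_div_cont).mul hQ
  have i1 : Integrable (fun x => cutb Finset.univ R x ^ 2
      * (wh h x ^ 4 * (esq x / (1 + esq x)) * Q2 p q u x)) := int_cc hcc2 c1 hcs2
  have i2 : Integrable (fun x => Q2 p q u x * ind (box n (2 * R)) x) :=
    integrable_mul_ind hQ (isCompact_box _)
  have c3 : Continuous (fun x => g x * Q2 p q u x) := hg.mul hQ
  have i3 : Integrable (fun x => (wh h x * cutb Finset.univ R x) ^ 2 * (g x * Q2 p q u x)) :=
    int_cc (hφ1.continuous.pow 2) c3 (hcs_pow hφc)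
  have i4 := int_gs hQ hφ1 hφc
  have i5 : Integrable (fun x => cutb Finset.univ R x ^ 2
      * (wh h x ^ 4 * (esq x / (1 + esq x)) * Q2 p q u x)
      + C2 / R ^ 4 * (Q2 p q u x * ind (box n (2 * R)) x)) := i1.add (i2.const_mul _)
  have h2 : ∫ x, Q2 p q u x * ∑ j, pd j (fun y => wh h y * cutb Finset.univ R y) x ^ 2
      ≤ (∫ x, cutb Finset.univ R x ^ 2 * (wh h x ^ 4 * (esq x / (1 + esq x)) * Q2 p q u x))
        + C2 / R ^ 4 * ∫ x, Q2 p q u x * ind (box n (2 * R)) x := by
    rw [← integral_const_mul, ← integral_add i1 (i2.const_mul _)]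
    apply integral_mono i4 i5
    intro x
    have h3 := hb h hh R hR x
    have h4 := mul_le_mul_of_nonneg_left h3 (Q2_nonneg p q u x)
    refine h4.trans (le_of_eq ?_)
    simp only
    ring
  rw [integral_mul_ind (isCompact_box _).measurableSet] at h2
  have h5 : ∫ x, cutb Finset.univ R x ^ 2
        * (wh h x ^ 2 * ((g x - wh h x ^ 2 * (esq x / (1 + esq x))) * Q2 p q u x))
      = (∫ x, (wh h x * cutb Finset.univ R x) ^ 2 * (g x * Q2 p q u x))
        - ∫ x, cutb Finset.univ R x ^ 2 * (wh h x ^ 4 * (esq x / (1 + esq x)) * Q2 p q u x) := by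
    rw [← integral_sub i3 i1]
    congr 1
    ext x
    ring
  rw [h5]
  linarith

/-- a continuous nonnegative function with small integrals vanishes. -/
lemma zero_of_small {F : (Fin n → ℝ) → ℝ} (hF : Continuous F) (hF0 : ∀ x, 0 ≤ F x)
    (h : ∀ r : ℝ, 0 < r → ∀ ε : ℝ, 0 < ε → ∫ x, cutb Finset.univ r x ^ 2 * F x ≤ ε)
    (x : Fin n → ℝ) : F x = 0 := by
  by_contra hne
  set r : ℝ := Real.sqrt (1 + esq x) with hr
  have hr0 : 0 < r := sq_pos' x
  have hc1 : cutb Finset.univ r x = 1 := by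
    apply th_one
    rw [div_le_one (by positivity), hr, Real.sq_sqrt (one_esq_pos x).le]
    change rho Finset.univ x ≤ 1 + rho Finset.univ x
    linarith
  have hcs2 : HasCompactSupport (fun x : Fin n → ℝ => cutb Finset.univ r x ^ 2) :=
    (cutb_hcs (n := n) hr0).comp_left (g := fun t => t ^ 2) (by simp)
  have hpos : 0 < ∫ x, cutb Finset.univ r x ^ 2 * F x := by
    have hcc2 : Continuous (fun x : Fin n → ℝ => cutb Finset.univ r x ^ 2) := cutb_cont.pow 2
    have hcc3 : Continuous (fun x : Fin n → ℝ => cutb Finset.univ r x ^ 2 * F x) := hcc2.mul hF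
    have hcc4 : HasCompactSupport (fun x : Fin n → ℝ => cutb Finset.univ r x ^ 2 * F x) :=
      hcs2.mul_right
    apply hcc3.integral_pos_of_hasCompactSupport_nonneg_nonzero (x := x) hcc4
    · intro y; exact mul_nonneg (sq_nonneg _) (hF0 y)
    · simp only [hc1]; simpa using hne
  have := h r hr0 ((∫ x, cutb Finset.univ r x ^ 2 * F x) / 2) (by linarith)
  linarith

lemma cutb_mono {r R : ℝ} (hr : 0 < r) (h : r ≤ R) (x : Fin n → ℝ) :
    cutb Finset.univ r x ≤ cutb Finset.univ R x := by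
  unfold cutb th
  apply Real.smoothTransition.monotone
  have h1 : rho Finset.univ x / R ^ 2 ≤ rho Finset.univ x / r ^ 2 := by
    apply div_le_div_of_nonneg_left (rho_nonneg _ x) (by positivity)
    exact pow_le_pow_left₀ hr.le h 2
  linarith

/-- ROW C. -/
theorem stC (hK : StK) : StC := by
  intro n C u hu p q h hh hgain hd x
  obtain ⟨C2, hC2, hg⟩ := gain_int hK n
  have hwc : Continuous (wh (n := n) h) := (wh_cd hh : ContDiff ℝ 1 (wh (n := n) h)).continuous
  have hQ := Q2_cont hu.toSol p q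
  have hgg := hg C u hu p q h (fun x => wh h x ^ 2) hh (hwc.pow 2) hgain
  have hid : ∀ x : Fin n → ℝ, wh h x ^ 2 * ((wh h x ^ 2 - wh h x ^ 2 * (esq x / (1 + esq x))) * Q2 p q u x)
      = wh h x ^ 4 / (1 + esq x) * Q2 p q u x := by
    intro x
    have := (one_esq_pos x).ne'
    field_simp
    ring
  set F : (Fin n → ℝ) → ℝ := fun x => wh h x ^ 4 / (1 + esq x) * Q2 p q u x with hF
  have hFc : Continuous F :=
    ((hwc.pow 4).div (continuous_const.add continuous_esq) fun x => (one_esq_pos x).ne').mul hQ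
  have hF0 : ∀ x, 0 ≤ F x := fun x =>
    mul_nonneg (div_nonneg (by have := wh_pos hh x; positivity) (one_esq_pos x).le) (Q2_nonneg p q u x)
  simp only [hid] at hgg
  have hz : F x = 0 := by
    refine zero_of_small hFc hF0 (fun r hr ε hε => ?_) x
    obtain ⟨R', hR', hI⟩ := hd (ε / (16 * C2 + 1)) (2 * r + 1) (by positivity)
    set R : ℝ := R' / 2 with hRdef
    have hrR : r ≤ R := by rw [hRdef]; linarith
    have hR0 : 0 < R := by linarith
    have hcs2 : ∀ s : ℝ, 0 < s → HasCompactSupport (fun x : Fin n → ℝ => cutb Finset.univ s x ^ 2) :=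
      fun s hs => (cutb_hcs (n := n) hs).comp_left (g := fun t => t ^ 2) (by simp)
    have h1 : ∫ x, cutb Finset.univ r x ^ 2 * F x ≤ ∫ x, cutb Finset.univ R x ^ 2 * F x := by
      apply integral_mono
      · exact int_cc (cutb_cont.pow 2) hFc (hcs2 r hr)
      · exact int_cc (cutb_cont.pow 2) hFc (hcs2 R hR0)
      · intro x
        apply mul_le_mul_of_nonneg_right _ (hF0 x)
        exact pow_le_pow_left₀ (cutb_nonneg _ _ _) (cutb_mono hr hrR x) 2
    have h2 := hgg R hR0
    have e1 : 2 * R = R' := by rw [hRdef]; ring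
    rw [e1] at h2
    have hRp : 0 < R' := by linarith
    calc ∫ x, cutb Finset.univ r x ^ 2 * F x ≤ C2 / R ^ 4 * ∫ x in box n R', Q2 p q u x :=
          h1.trans h2
      _ ≤ C2 / R ^ 4 * (ε / (16 * C2 + 1) * R' ^ 4) := by gcongr
      _ = 16 * C2 * ε / (16 * C2 + 1) := by
          rw [hRdef]; field_simp; ring
      _ ≤ ε := by
          rw [div_le_iff₀ (by positivity)]
          nlinarith
  have hne : wh h x ^ 4 / (1 + esq x) ≠ 0 := by
    have := wh_pos hh x
    have := one_esq_pos x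
    positivity
  exact (mul_eq_zero.mp hz).resolve_left hne

end Vale.Agent.P134.B331.M
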