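import Vale.Agent.P134.B331.RowP5
import Vale.Agent.P134.H765.Stab

/-! Final assembly, dimension five. -/

set_option linter.all false

open MeasureTheory Filter Topology
open scoped InnerProductSpace Laplacian

namespace Vale.Agent.P134.B331.M

open Vale.Agent.P134 Vale.Agent.P134.H765 Vale.Agent.P134.B331

variable {n : ℕ}

/-- Reduction: translation invariant solutions on `ℝ⁵`. -/
def Red : Prop := ∀ (u : EuclideanSpace ℝ (Fin 5) → ℝ), ContDiff ℝ 2 u →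
  (∀ x, Δ u x = u x ^ 3 - u x) → (∃ M : ℝ, ∀ x, |u x| ≤ M) →
  ∀ a : EuclideanSpace ℝ (Fin 5), (∀ x, 0 < fderiv ℝ u x a) →
  ∀ w : EuclideanSpace ℝ (Fin 5), w ≠ 0 → (∀ x, fderiv ℝ u x w = 0) →
  ∃ (e : EuclideanSpace ℝ (Fin 5)) (c : ℝ), ‖e‖ = 1 ∧ 0 < ⟪e, a⟫_ℝ ∧
    ∀ x, u x = Real.tanh ((⟪e, x⟫_ℝ - c) / √2)

/-- Monotone solutions are stable. -/
theorem mono_SS (hH : StH) {u : (Fin 5 → ℝ) → ℝ} {e : Fin 5 → ℝ} (hu : Sol u)
    (hpos : ∀ x, 0 < dd e u x) : ∃ C, SS C u := by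
  have du : Differentiable ℝ u := hu.c2.differentiable (by norm_num)
  have he0 : e ≠ 0 := by
    intro h
    have := hpos 0
    rw [h] at this
    unfold dd at this
    simp at this
  have hen := eno_pos he0
  set a : Fin 5 → ℝ := (eno e)⁻¹ • e with ha
  have ha1 : ∑ i, a i ^ 2 = 1 := by
    have h2 : ∀ i, a i ^ 2 = ((eno e)⁻¹) ^ 2 * e i ^ 2 := by
      intro i; rw [ha]; simp only [Pi.smul_apply, smul_eq_mul]; ring
    simp_rw [h2]
    rw [← Finset.mul_sum]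
    change ((eno e)⁻¹) ^ 2 * esq e = 1
    rw [← eno_sq]
    field_simp
  obtain ⟨b, hb⟩ := exists_basis_one (Fin.last 4) ha1
  have hba : (fun k => (b (Fin.last 4)) k) = a := funext hb
  set v : (Fin 5 → ℝ) → ℝ := fun y => u (rot b y + 0) with hv
  have hvs : Sol v := Sol.rot hu b 0
  have hvpos : ∀ y, 0 < pd (Fin.last 4) v y := by
    intro y
    rw [hv, pd_rot du b 0, hba]
    have h2 : dd a u (rot b y + 0) = (eno e)⁻¹ * dd e u (rot b y + 0) := by
      unfold dd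
      rw [Finset.mul_sum]
      refine Finset.sum_congr rfl fun i _ => ?_
      rw [ha]; simp only [Pi.smul_apply, smul_eq_mul]; ring
    rw [h2]
    exact mul_pos (inv_pos.mpr hen) (hpos _)
  have hvS : SS _ v := ⟨hvs, H491.HypN.of_mono hvs hvpos⟩
  obtain ⟨b', hb'⟩ := exists_inv_basis b
  have h3 := hH _ v hvS b' 0
  have h4 : (fun y => v (rot b' y + 0)) = u := by
    funext y
    rw [hv]
    simp only [add_zero]
    rw [hb', rot_rti]
  rw [h4] at h3
  exact ⟨_, h3⟩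

/-- The normal form on `ℝ⁵` as a linear map. -/
noncomputable def AN (l m : ℝ) : (Fin 5 → ℝ) →L[ℝ] (Fin 5 → ℝ) :=
  ContinuousLinearMap.pi ![-(l • ContinuousLinearMap.proj (R := ℝ) (φ := fun _ : Fin 5 => ℝ) 1),
    l • ContinuousLinearMap.proj (R := ℝ) (φ := fun _ : Fin 5 => ℝ) 0,
    -(m • ContinuousLinearMap.proj (R := ℝ) (φ := fun _ : Fin 5 => ℝ) 3),
    m • ContinuousLinearMap.proj (R := ℝ) (φ := fun _ : Fin 5 => ℝ) 2, 0]

lemma AN_apply (l m : ℝ) (x : Fin 5 → ℝ) :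
    AN l m x = ![-(l * x 1), l * x 0, -(m * x 3), m * x 2, 0] := by
  funext i
  fin_cases i <;> simp [AN]

lemma AN_skew (l m : ℝ) (z w : Fin 5 → ℝ) :
    ∑ i, z i * AN l m w i = - ∑ i, AN l m z i * w i := by
  rw [AN_apply, AN_apply]
  simp only [Fin.sum_univ_five]
  simp
  ring

/-- The main theorem in dimension five: a Killing field. -/
theorem five_killing (hH : StH) (h5 : StP5) (hG : StG) (hN : StN5) (hV : StV) (hRed : Red)
    {u : EuclideanSpace ℝ (Fin 5) → ℝ} (hu : ContDiff ℝ 2 u)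
    (heq : ∀ x, Δ u x = u x ^ 3 - u x) (hb : ∃ M : ℝ, ∀ x, |u x| ≤ M)
    {a : EuclideanSpace ℝ (Fin 5)} (ha : ∀ x, 0 < fderiv ℝ u x a)
    {B : EuclideanSpace ℝ (Fin 5) →L[ℝ] EuclideanSpace ℝ (Fin 5)} {c : EuclideanSpace ℝ (Fin 5)}
    (hBc : B ≠ 0 ∨ c ≠ 0) (hB : ∀ x, ⟪x, B x⟫_ℝ = 0) (hgen : ∀ x, fderiv ℝ u x (B x + c) = 0) :
    ∃ (e : EuclideanSpace ℝ (Fin 5)) (c' : ℝ), ‖e‖ = 1 ∧ 0 < ⟪e, a⟫_ℝ ∧
      ∀ x, u x = Real.tanh ((⟪e, x⟫_ℝ - c') / √2) := by
  have du : Differentiable ℝ u := hu.differentiable (by norm_num)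
  by_cases hB0 : B = 0
  · have hc : c ≠ 0 := by
      rcases hBc with h | h
      · exact absurd hB0 h
      · exact h
    refine hRed u hu heq hb a ha c hc fun x => ?_
    have := hgen x
    rw [hB0] at this
    simpa using this
  have hb1 := abs_le_one_of_bdd hu heq hb
  obtain ⟨b, l, m, hl, hm, hml, e0, e1, e2, e3, e4⟩ := hN B hB hB0
  set w : (Fin 5 → ℝ) → ℝ := fun y => u (0 + coordMap b y) with hw
  have hws : Sol w := sol_of_euclidean hu heq hb1 b 0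
  set e : Fin 5 → ℝ := fun i => ⟪b i, a⟫_ℝ with he
  have hpos : ∀ y, 0 < dd e w y := fun y => by
    rw [he, hw, dd_coord du]; exact ha _
  set c0 : Fin 5 → ℝ := fun i => ⟪b i, c⟫_ℝ with hc0
  have hfield : ∀ y, coordMap b (AN l m y + c0) = B (coordMap b y) + c := by
    intro y
    rw [map_add, hc0, coordMap_inner]
    congr 1
    rw [coordMap_apply, coordMap_apply, AN_apply, map_sum]
    simp only [Fin.sum_univ_five, map_smul, e0, e1, e2, e3, e4]
    simp only [Matrix.cons_val_zero, Matrix.cons_val_one, Matrix.cons_val, smul_zero, zero_smul]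
    simp only [smul_neg, smul_smul, neg_smul]
    rw [mul_comm (y 0) l, mul_comm (y 1) l, mul_comm (y 2) m, mul_comm (y 3) m]
    abel
  have hinv : ∀ y, dd (AN l m y + c0) w y = 0 := by
    intro y
    have h1 : (AN l m y + c0) = fun i => ⟪b i, coordMap b (AN l m y + c0)⟫_ℝ := by
      funext i
      rw [inner_coordMap]
    rw [h1, hw, dd_coord du, hfield, zero_add]
    exact hgen _
  have hI : Inv (AN l m) c0 w := ⟨AN_skew l m, hinv⟩
  have hAN : AN l m ≠ 0 := by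
    intro h
    have h1 : AN l m (Pi.single 0 1) 1 = 0 := by rw [h]; rfl
    rw [AN_apply] at h1
    simp at h1
    exact hl.ne' h1
  obtain ⟨U, hU, hlim, hdef⟩ := h5 w e hws hpos (AN l m) c0 hI (Or.inl hAN)
  obtain ⟨K, hK⟩ := hG w U e hws hpos hU hlim hdef
  obtain ⟨C, hC⟩ := mono_SS hH hws hpos
  have hz : ∀ y, pd 0 w y = 0 := by
    refine hV C w hC l m c0 hl hm hml (fun y => ?_) K hK
    have h1 := hinv y
    rwa [AN_apply] at h1
  refine hRed u hu heq hb a ha (b 0) (b.orthonormal.ne_zero 0) fun x => ?_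
  have h2 := hz (fun i => ⟪b i, x - 0⟫_ℝ)
  rw [hw, pd_coord_comp du b 0, coordMap_repr] at h2
  exact h2

/-- Non-discrete groups of symmetries. -/
def NonDiscrete {n : ℕ} (u : EuclideanSpace ℝ (Fin n) → ℝ) : Prop :=
  ∀ δ : ℝ, 0 < δ → ∃ g : EuclideanSpace ℝ (Fin n) ≃ᵢ EuclideanSpace ℝ (Fin n),
    g ≠ 1 ∧ (∀ x, u (g x) = u x) ∧ ∀ x, ‖x‖ ≤ 1 → ‖g x - x‖ < δ

theorem generator_of_nonDiscrete {u : EuclideanSpace ℝ (Fin n) → ℝ} (hu : Differentiable ℝ u)
    (h : NonDiscrete u) :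
    ∃ (B : EuclideanSpace ℝ (Fin n) →L[ℝ] EuclideanSpace ℝ (Fin n))
      (c : EuclideanSpace ℝ (Fin n)), (B ≠ 0 ∨ c ≠ 0) ∧ (∀ x, ⟪x, B x⟫_ℝ = 0) ∧
      ∀ x, fderiv ℝ u x (B x + c) = 0 := by
  refine exists_generator hu fun δ hδ => ?_
  obtain ⟨g, hg1, hg2, hg3⟩ := h (δ / 4) (by positivity)
  refine ⟨g, hg2, hg1, ?_, ?_⟩
  · have h0 : ‖g 0‖ < δ / 4 := by
      have := hg3 0 (by simp)
      simpa using this
    have h1 : ∀ x, ‖x‖ ≤ 1 → ‖lin g x - x‖ ≤ δ / 2 := by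
      intro x hx
      have e1 : lin g x - x = (g x - x) - g 0 := by
        rw [iso_apply g x]; abel
      rw [e1]
      calc ‖(g x - x) - g 0‖ ≤ ‖g x - x‖ + ‖g 0‖ := norm_sub_le _ _
        _ ≤ δ / 2 := by linarith [hg3 x hx]
    have h2 : rh (lin g) ≤ δ / 2 := by
      apply rh_le (by positivity)
      intro x
      by_cases hx : x = 0
      · subst hx; simp
      have hx' : 0 < ‖x‖ := norm_pos_iff.mpr hx
      have h3 := h1 (‖x‖⁻¹ • x) (by
        rw [norm_smul, norm_inv, norm_norm, inv_mul_cancel₀ hx'.ne'])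
      have e2 : lin g (‖x‖⁻¹ • x) - ‖x‖⁻¹ • x = ‖x‖⁻¹ • (lin g x - x) := by
        rw [map_smul, smul_sub]
      rw [e2, norm_smul, norm_inv, norm_norm, inv_mul_le_iff₀ hx'] at h3
      linarith
    linarith
  · have := hg3 0 (by simp)
    have h4 : ‖g 0‖ < δ / 4 := by simpa using this
    linarith

end Vale.Agent.P134.B331.M
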