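import Vale.Agent.P134.B331.Defs

set_option linter.all false

open MeasureTheory Filter Topology
open scoped InnerProductSpace

namespace Vale.Agent.P134.B331.M

open Vale.Agent.P134 Vale.Agent.P134.H765 Vale.Agent.P134.B331

variable {n : ℕ}

lemma abs_basis_le (b : OrthonormalBasis (Fin n) ℝ (EuclideanSpace ℝ (Fin n))) (i k : Fin n) :
    |(b i) k| ≤ 1 := by
  have h1 : ‖b i‖ = 1 := b.orthonormal.1 i
  have h2 := PiLp.norm_apply_le (b i) k
  rw [h1, Real.norm_eq_abs] at h2
  exact h2

lemma sum_sq_rot (b : OrthonormalBasis (Fin n) ℝ (EuclideanSpace ℝ (Fin n))) (v : Fin n → ℝ) :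
    ∑ i, (∑ k, (b i) k * v k) ^ 2 = ∑ k, v k ^ 2 := by
  have h1 : ∀ i, (∑ k, (b i) k * v k) ^ 2 = ∑ k, ∑ l, ((b i) k * (b i) l) * (v k * v l) := by
    intro i
    rw [sq, Finset.sum_mul_sum]
    refine Finset.sum_congr rfl fun k _ => Finset.sum_congr rfl fun l _ => ?_
    ring
  simp_rw [h1]
  rw [Finset.sum_comm]
  refine Finset.sum_congr rfl fun k _ => ?_
  rw [Finset.sum_comm]
  have h2 : ∀ l, ∑ i, ((b i) k * (b i) l) * (v k * v l) = (if k = l then 1 else 0) * (v k * v l) := by
    intro l
    rw [← Finset.sum_mul, sum_basis]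
  simp_rw [h2]
  simp [sq]

theorem stH : StH := by
  intro n C u hu b z
  refine ⟨Sol.rot hu.toSol b z, ?_⟩
  intro R ε hR hε
  set R' : ℝ := n * R + ‖z‖ + 1 with hR'
  have hR'0 : 0 < R' := by positivity
  obtain ⟨X, h1, h2, h3⟩ := hu.hyp R' ε hR'0 hε
  have hb : ∀ y ∈ box n R, rot b y + z ∈ box n R' := by
    intro y hy
    rw [mem_box] at hy ⊢
    intro k
    have e1 : |rot b y k| ≤ n * R := by
      unfold rot
      calc |∑ i, y i * (b i) k| ≤ ∑ i, |y i * (b i) k| := Finset.abs_sum_le_sum_abs _ _
        _ ≤ ∑ _i : Fin n, R := by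
            refine Finset.sum_le_sum fun i _ => ?_
            rw [abs_mul]
            calc |y i| * |(b i) k| ≤ R * 1 :=
                  mul_le_mul (hy i) (abs_basis_le b i k) (abs_nonneg _) hR.le
              _ = R := mul_one R
        _ = n * R := by simp
    have e2 : |z k| ≤ ‖z‖ := by
      rw [← Real.norm_eq_abs]; exact norm_le_pi_norm z k
    calc |(rot b y + z) k| ≤ |rot b y k| + |z k| := abs_add_le _ _
      _ ≤ R' := by rw [hR']; linarith
  refine ⟨fun i y => ∑ k, (b i) k * X k (rot b y + z), fun i => ?_, fun y hy => ?_,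
    fun y hy => ?_⟩
  · exact ContDiff.sum fun k _ => contDiff_const.mul ((h1 k).comp (contDiff_rot b z))
  · rw [sum_sq_rot b fun k => X k (rot b y + z)]
    exact h2 _ (hb y hy)
  · rw [sum_sq_rot b fun k => X k (rot b y + z)]
    have hd : ∀ k, Differentiable ℝ (X k) := fun k => (h1 k).differentiable (by norm_num)
    have hdr : Differentiable ℝ (fun y : Fin n → ℝ => rot b y + z) :=
      (contDiff_rot (k := 1) b z).differentiable (by norm_num)
    have e1 : ∀ i, pd i (fun y => ∑ k, (b i) k * X k (rot b y + z)) y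
        = ∑ k, ∑ l, ((b i) k * (b i) l) * pd l (X k) (rot b y + z) := by
      intro i
      rw [pd_sum Finset.univ (F := fun k y => (b i) k * X k (rot b y + z))
        (fun k _ => (((hd k).comp hdr) y).const_mul _)]
      refine Finset.sum_congr rfl fun k _ => ?_
      have e2 : pd i (fun y => X k (rot b y + z)) y = dd (fun l => (b i) l) (X k) (rot b y + z) :=
        pd_rot (hd k) b z i y
      have e5 : pd i (fun y => (b i) k * X k (rot b y + z)) y
          = (b i) k * pd i (fun y => X k (rot b y + z)) y := by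
        have e6 := pd_mul (i := i) (f := fun _ => (b i) k) (g := fun y => X k (rot b y + z))
          (x := y) (by fun_prop) (((hd k).comp hdr) y)
        rw [e6, pd_const]; ring
      rw [e5, e2]
      unfold dd
      rw [Finset.mul_sum]
      refine Finset.sum_congr rfl fun l _ => by ring
    have e3 : ∑ i, pd i (fun y => ∑ k, (b i) k * X k (rot b y + z)) y
        = ∑ k, pd k (X k) (rot b y + z) := by
      simp_rw [e1]
      rw [Finset.sum_comm]
      refine Finset.sum_congr rfl fun k _ => ?_
      rw [Finset.sum_comm]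
      have e4 : ∀ l, ∑ i, ((b i) k * (b i) l) * pd l (X k) (rot b y + z)
          = (if k = l then 1 else 0) * pd l (X k) (rot b y + z) := by
        intro l
        rw [← Finset.sum_mul, sum_basis]
      simp_rw [e4]
      simp
    rw [e3]
    exact h3 _ (hb y hy)

end Vale.Agent.P134.B331.M
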