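import Vale.Agent.P134.B331.Defs

/-! Row N4: the top eigenplane of a skew map. -/

set_option linter.all false

open MeasureTheory Filter Topology
open scoped InnerProductSpace

namespace Vale.Agent.P134.B331.M

open Vale.Agent.P134 Vale.Agent.P134.H765 Vale.Agent.P134.B331

variable {n : ℕ}

lemma skew_polar {E : Type*} [NormedAddCommGroup E] [InnerProductSpace ℝ E] {A : E →L[ℝ] E}
    (hA : ∀ x, ⟪x, A x⟫_ℝ = 0) (x y : E) : ⟪x, A y⟫_ℝ = - ⟪y, A x⟫_ℝ := by
  have h := hA (x + y)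
  rw [map_add, inner_add_left, inner_add_right, inner_add_right, hA, hA] at h
  linarith

lemma exists_max {A : EuclideanSpace ℝ (Fin n) →L[ℝ] EuclideanSpace ℝ (Fin n)} (hA0 : A ≠ 0) :
    ∃ e : EuclideanSpace ℝ (Fin n), ‖e‖ = 1 ∧ 0 < ‖A e‖ ∧ ∀ x, ‖A x‖ ≤ ‖A e‖ * ‖x‖ := by
  have h1 : ∃ x, A x ≠ 0 := by
    by_contra hcon
    push Not at hcon
    exact hA0 (ContinuousLinearMap.ext hcon)
  obtain ⟨x0, hx0⟩ := h1
  have hx00 : x0 ≠ 0 := fun h => hx0 (by rw [h, map_zero])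
  have hcomp : IsCompact (Metric.sphere (0 : EuclideanSpace ℝ (Fin n)) 1) := isCompact_sphere _ _
  have hne : (Metric.sphere (0 : EuclideanSpace ℝ (Fin n)) 1).Nonempty :=
    ⟨‖x0‖⁻¹ • x0, by
      rw [mem_sphere_zero_iff_norm, norm_smul, norm_inv, norm_norm]
      exact inv_mul_cancel₀ (norm_ne_zero_iff.mpr hx00)⟩
  obtain ⟨e, he, hmax⟩ := hcomp.exists_isMaxOn hne (f := fun x => ‖A x‖)
    (A.continuous.norm.continuousOn)
  have he1 : ‖e‖ = 1 := mem_sphere_zero_iff_norm.mp he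
  have hb : ∀ x, ‖A x‖ ≤ ‖A e‖ * ‖x‖ := by
    intro x
    by_cases hx : x = 0
    · subst hx; simp
    have hx' : 0 < ‖x‖ := norm_pos_iff.mpr hx
    have h2 : ‖A (‖x‖⁻¹ • x)‖ ≤ ‖A e‖ := by
      apply hmax
      rw [mem_sphere_zero_iff_norm, norm_smul, norm_inv, norm_norm]
      exact inv_mul_cancel₀ hx'.ne'
    rw [map_smul, norm_smul, norm_inv, norm_norm, inv_mul_le_iff₀ hx'] at h2
    linarith
  refine ⟨e, he1, ?_, hb⟩
  have h3 := hb x0
  have h4 : 0 < ‖A x0‖ := norm_pos_iff.mpr hx0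
  have h5 : 0 < ‖x0‖ := norm_pos_iff.mpr hx00
  by_contra hcon
  have h6 : ‖A e‖ = 0 := le_antisymm (not_lt.mp hcon) (norm_nonneg _)
  rw [h6, zero_mul] at h3
  linarith

/-- ROW N4. -/
theorem stN4 : StN4 := by
  intro n A hA hA0 p q hpq
  obtain ⟨e, he, hl0, hb⟩ := exists_max hA0
  set l : ℝ := ‖A e‖ with hl
  set f : EuclideanSpace ℝ (Fin n) := l⁻¹ • A e with hf
  have hAe : A e = l • f := by
    rw [hf, smul_smul, mul_inv_cancel₀ hl0.ne', one_smul]
  have hf1 : ‖f‖ = 1 := by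
    rw [hf, norm_smul, norm_inv, Real.norm_eq_abs, abs_of_pos hl0]
    exact inv_mul_cancel₀ hl0.ne'
  have hef : ⟪e, f⟫_ℝ = 0 := by
    rw [hf, inner_smul_right, hA, mul_zero]
  have hAA : A (A e) = - (l ^ 2 • e) := by
    have h1 : ‖A (A e) + l ^ 2 • e‖ ^ 2 ≤ 0 := by
      have h2 : ⟪A (A e), l ^ 2 • e⟫_ℝ = - l ^ 4 := by
        rw [inner_smul_right, real_inner_comm, skew_polar hA, real_inner_self_eq_norm_sq, ← hl]
        ring
      have h3 : ‖A (A e)‖ ≤ l * l := hb (A e)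
      have h4 : ‖A (A e)‖ ^ 2 ≤ l ^ 4 := by
        calc ‖A (A e)‖ ^ 2 ≤ (l * l) ^ 2 := pow_le_pow_left₀ (norm_nonneg _) h3 2
          _ = l ^ 4 := by ring
      rw [@norm_add_sq_real, h2, norm_smul, he, Real.norm_eq_abs, abs_of_nonneg (sq_nonneg l)]
      nlinarith
    have h5 : ‖A (A e) + l ^ 2 • e‖ = 0 := by
      have h6 := norm_nonneg (A (A e) + l ^ 2 • e)
      nlinarith
    exact eq_neg_of_add_eq_zero_left (norm_eq_zero.mp h5)
  have hAf : A f = - (l • e) := by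
    rw [hf, map_smul, hAA, smul_neg, smul_smul]
    congr 2
    field_simp
  have s1 : ∑ i, (fun i => e i) i ^ 2 = 1 := by
    have := EuclideanSpace.norm_sq_eq e
    rw [he] at this
    simp only [Real.norm_eq_abs, sq_abs] at this
    linarith
  have s2 : ∑ i, (fun i => f i) i ^ 2 = 1 := by
    have := EuclideanSpace.norm_sq_eq f
    rw [hf1] at this
    simp only [Real.norm_eq_abs, sq_abs] at this
    linarith
  have s3 : ∑ i, (fun i => e i) i * (fun i => f i) i = 0 := by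
    have h1 : ⟪e, f⟫_ℝ = ∑ i, e i * f i := by
      rw [PiLp.inner_apply]
      refine Finset.sum_congr rfl fun i _ => ?_
      simp [mul_comm]
    rw [← h1, hef]
  obtain ⟨b, hb1, hb2⟩ := exists_basis_two hpq s1 s2 s3
  have hbp : b p = e := by
    ext k; exact hb1 k
  have hbq : b q = f := by
    ext k; exact hb2 k
  refine ⟨b, l, hl0, ?_, ?_, hb⟩
  · rw [hbp, hbq, hAe]
  · rw [hbp, hbq, hAf]

end Vale.Agent.P134.B331.M
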