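import Vale.Agent.P134.B331.Coord
import Vale.Agent.P134.B331.RowC

/-! Row P4: stable solutions on `ℝ⁴` with a continuous symmetry. -/

set_option linter.all false

open MeasureTheory Filter Topology
open scoped InnerProductSpace

namespace Vale.Agent.P134.B331.M

open Vale.Agent.P134 Vale.Agent.P134.H765 Vale.Agent.P134.B331

variable {n : ℕ}

lemma RR_nonneg (p q : Fin n) (u : (Fin n → ℝ) → ℝ) (x : Fin n → ℝ) : 0 ≤ RR p q u x :=
  Finset.sum_nonneg fun _ _ => sq_nonneg _

lemma eno_sqrt (x : Fin n → ℝ) : eno x ≤ Real.sqrt (1 + esq x) := by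
  unfold eno
  exact Real.sqrt_le_sqrt (by linarith)

/-- the gain with the weight `wh` from the gain along the orbits. -/
lemma gain_wh {u : (Fin n → ℝ) → ℝ} {A : (Fin n → ℝ) →L[ℝ] (Fin n → ℝ)} {c : Fin n → ℝ}
    {p q : Fin n} {l : ℝ} (hl : 0 < l)
    (hr : ∀ x, l ^ 2 * Q2 p q u x ^ 2 ≤ esq (A x + c) * RR p q u x)
    (hA : ∀ x, eno (A x) ≤ l * eno x) (x : Fin n → ℝ) :
    wh (eno c / l) x ^ 2 * Q2 p q u x ^ 2 ≤ RR p q u x := by
  have hh : 0 ≤ eno c / l := div_nonneg (eno_nonneg c) hl.le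
  have hden := wh_den_pos hh x
  have h1 : eno (A x + c) ≤ l * (eno c / l + Real.sqrt (1 + esq x)) := by
    calc eno (A x + c) ≤ eno (A x) + eno c := eno_add_le _ _
      _ ≤ l * eno x + eno c := by linarith [hA x]
      _ ≤ l * Real.sqrt (1 + esq x) + eno c := by
          have := eno_sqrt x
          nlinarith
      _ = l * (eno c / l + Real.sqrt (1 + esq x)) := by field_simp; ring
  have h2 : esq (A x + c) ≤ l ^ 2 * (eno c / l + Real.sqrt (1 + esq x)) ^ 2 := by
    rw [← eno_sq, ← mul_pow]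
    exact pow_le_pow_left₀ (eno_nonneg _) h1 2
  have h3 : l ^ 2 * Q2 p q u x ^ 2
      ≤ l ^ 2 * (eno c / l + Real.sqrt (1 + esq x)) ^ 2 * RR p q u x :=
    (hr x).trans (mul_le_mul_of_nonneg_right h2 (RR_nonneg p q u x))
  have h4 : Q2 p q u x ^ 2 ≤ (eno c / l + Real.sqrt (1 + esq x)) ^ 2 * RR p q u x := by
    have hl2 : 0 < l ^ 2 := by positivity
    nlinarith
  unfold wh
  rw [div_pow, one_pow, div_mul_eq_mul_div, one_mul, div_le_iff₀ (by positivity)]
  linarith

lemma Q2_le_psi {u : (Fin n → ℝ) → ℝ} (hu : Sol u) {p q : Fin n} (hpq : p ≠ q) (x : Fin n → ℝ) :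
    Q2 p q u x ≤ psi u x ^ 2 := by
  have h1 := hu.defi_nonneg x
  unfold defi at h1
  have h2 : Q2 p q u x ≤ ∑ i, pd i u x ^ 2 := by
    unfold Q2
    have h3 : ∑ i ∈ ({p, q} : Finset (Fin n)), pd i u x ^ 2 ≤ ∑ i, pd i u x ^ 2 :=
      Finset.sum_le_sum_of_subset_of_nonneg (Finset.subset_univ _) fun _ _ _ => sq_nonneg _
    rw [Finset.sum_pair hpq] at h3
    exact h3
  have h4 : 0 ≤ psi u x ^ 2 := sq_nonneg _
  linarith

lemma dd_single' (u : (Fin n → ℝ) → ℝ) (i : Fin n) (x : Fin n → ℝ) :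
    dd (Pi.single i 1) u x = pd i u x := by
  unfold dd
  simp [Pi.single_apply]

/-- ROW P4. -/
theorem stP4 (hR : StR) (hC : StC) (hH : StH) (hN : StN4) (h1 : StD1) (h2 : StD2) : StP4 := by
  intro C V hV A c hI hAc
  by_cases hA0 : A = 0
  · have hc : c ≠ 0 := by
      rcases hAc with h | h
      · exact absurd hA0 h
      · exact h
    refine h1 C V hV c hc fun x => ?_
    have := hI.inv x
    rw [hA0] at this
    simpa using this
  have dV : Differentiable ℝ V := hV.c2.differentiable (by norm_num)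
  obtain ⟨b, l, hl, hb0, hb1, hbn⟩ := hN 4 (toE A) (toE_skew hI.skew) (toE_ne_zero hA0) 0 1
    (by decide)
  set v : (Fin 4 → ℝ) → ℝ := fun y => V (rot b y + 0) with hv
  have hvS : SS C v := hH C V hV b 0
  have hvI := invRot hI dV b 0
  set A' := conj b A with hA'
  set c' := rti b (A 0 + c) with hc'
  have hvI' : Inv A' c' v := hvI
  have hA'0 : A' ≠ 0 := conj_ne_zero b hA0
  have e0 : A (fun k => (b 0) k) = l • (fun k => (b 1) k : Fin 4 → ℝ) := by
    funext k
    have := congrArg (fun w : EuclideanSpace ℝ (Fin 4) => w k) hb0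
    simp only [toE_apply] at this
    simpa using this
  have e1 : A (fun k => (b 1) k) = - (l • (fun k => (b 0) k : Fin 4 → ℝ)) := by
    funext k
    have := congrArg (fun w : EuclideanSpace ℝ (Fin 4) => w k) hb1
    simp only [toE_apply] at this
    simpa using this
  have f0 : A' (Pi.single 0 1) = l • Pi.single 1 1 := by
    rw [hA', conj_apply, rot_single, e0, ← rtiL_apply, map_smul, rtiL_apply, rti_basis]
  have f1 : A' (Pi.single 1 1) = - (l • Pi.single 0 1) := by
    rw [hA', conj_apply, rot_single, e1, ← rtiL_apply, map_neg, map_smul, rtiL_apply, rti_basis]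
  have hr := hR v hvS.toSol A' c' hvI'.inv 0 1 l f0 f1
  have hAn : ∀ y, eno (A' y) ≤ l * eno y := by
    intro y
    have h3 : eno (A' y) = eno (A (rot b y)) := by
      unfold eno
      rw [hA', conj_apply, esq_rti]
    have h4 : eno y = eno (rot b y) := by
      unfold eno
      rw [esq_rot]
    rw [h3, h4, eno_eq_norm, eno_eq_norm]
    exact hbn (WithLp.toLp 2 (rot b y))
  have hg := gain_wh (u := v) (p := 0) (q := 1) hl hr hAn
  have hh : 0 ≤ eno c' / l := div_nonneg (eno_nonneg _) hl.le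
  have hz : ∀ x, Q2 0 1 v x = 0 := by
    refine hC C v hvS 0 1 (eno c' / l) hh hg fun ε R₀ hε => ?_
    obtain ⟨R1, hR1⟩ := h2 C v hvS A' c' hvI' hA'0 ε hε
    refine ⟨max R₀ R1, le_max_left _ _, ?_⟩
    refine le_trans ?_ (hR1 _ (le_max_right _ _))
    apply setIntegral_mono_on
    · exact (Q2_cont hvS.toSol 0 1).continuousOn.integrableOn_compact (isCompact_box _)
    · exact (hvS.toSol.psi_contDiff.continuous.pow 2).continuousOn.integrableOn_compact
        (isCompact_box _)
    · exact (isCompact_box _).measurableSet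
    · intro x _
      exact Q2_le_psi hvS.toSol (by decide) x
  have hp : ∀ x, dd (Pi.single 0 1) v x = 0 := by
    intro x
    have h3 := hz x
    unfold Q2 at h3
    have h4 : pd 0 v x ^ 2 = 0 := by nlinarith [sq_nonneg (pd 0 v x), sq_nonneg (pd 1 v x)]
    rw [dd_single']
    exact pow_eq_zero_iff (two_ne_zero) |>.mp h4
  have hd := h1 C v hvS (Pi.single 0 1) (by
    intro h
    have := congrFun h 0
    simp at this) hp
  intro x
  have h5 := hd (rti b x)
  rw [hv, defi_rot dV, rot_rti, add_zero] at h5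
  exact h5

end Vale.Agent.P134.B331.M
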