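import Vale.Agent.P134.B331.Defs
import Vale.Agent.P134.H765.Q14

set_option linter.all false

/-! Row D1: stable solutions on `ℝ⁴` with a direction of invariance. -/

open MeasureTheory Filter Topology
open scoped InnerProductSpace

namespace Vale.Agent.P134.B331

open Vale.Agent.P134 Vale.Agent.P134.H765

variable {n : ℕ}

/-- An orthonormal basis with one prescribed member. -/
lemma exists_basis_one {a : Fin n → ℝ} (q : Fin n) (ha : ∑ i, a i ^ 2 = 1) :
    ∃ b : OrthonormalBasis (Fin n) ℝ (EuclideanSpace ℝ (Fin n)), ∀ k, (b q) k = a k := by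
  classical
  set a' : EuclideanSpace ℝ (Fin n) := WithLp.toLp 2 a with ha'
  have hna : ‖a'‖ = 1 := by
    rw [EuclideanSpace.norm_eq]
    simp only [ha', Real.norm_eq_abs, sq_abs, ha, Real.sqrt_one]
  set V : Fin n → EuclideanSpace ℝ (Fin n) := fun _ => a' with hV
  have hVo : Orthonormal ℝ (({q} : Set (Fin n)).restrict V) := by
    constructor
    · rintro ⟨i, hi⟩
      exact hna
    · rintro ⟨i, hi⟩ ⟨j, hj⟩ hij
      have hi' : i = q := hi
      have hj' : j = q := hj
      exact absurd (Subtype.ext (hi'.trans hj'.symm)) hij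
  obtain ⟨b, hb⟩ := hVo.exists_orthonormalBasis_extension_of_card_eq (by simp)
  refine ⟨b, fun k => ?_⟩
  rw [hb q (by simp)]

/-- The deficit is invariant under rotations. -/
lemma defi_rot {v : (Fin n → ℝ) → ℝ} (hv : Differentiable ℝ v)
    (b : OrthonormalBasis (Fin n) ℝ (EuclideanSpace ℝ (Fin n))) (z y : Fin n → ℝ) :
    defi (fun y => v (rot b y + z)) y = defi v (rot b y + z) := by
  have h1 : ∑ i, pd i (fun y => v (rot b y + z)) y ^ 2 = ∑ k, pd k v (rot b y + z) ^ 2 := by
    have e1 : ∀ i, pd i (fun y => v (rot b y + z)) y ^ 2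
        = ∑ k, ∑ l, ((b i) k * (b i) l) * (pd k v (rot b y + z) * pd l v (rot b y + z)) := by
      intro i
      rw [pd_rot hv, sq]
      unfold dd
      rw [Finset.sum_mul_sum]
      refine Finset.sum_congr rfl fun k _ => Finset.sum_congr rfl fun l _ => ?_
      ring
    rw [Finset.sum_congr rfl fun i _ => e1 i, Finset.sum_comm]
    refine Finset.sum_congr rfl fun k _ => ?_
    rw [Finset.sum_comm]
    have e2 : ∀ l, ∑ i, ((b i) k * (b i) l) * (pd k v (rot b y + z) * pd l v (rot b y + z))
        = (if k = l then 1 else 0) * (pd k v (rot b y + z) * pd l v (rot b y + z)) := by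
      intro l
      rw [← Finset.sum_mul, sum_basis]
    rw [Finset.sum_congr rfl fun l _ => e2 l]
    simp only [ite_mul, one_mul, zero_mul, Finset.sum_ite_eq, Finset.mem_univ, if_true]
    ring
  unfold defi psi
  rw [h1]

/-- Rotations are onto. -/
lemma rot_surj (b : OrthonormalBasis (Fin n) ℝ (EuclideanSpace ℝ (Fin n))) (x : Fin n → ℝ) :
    ∃ y, rot b y = x := by
  refine ⟨fun i => ∑ l, (b i) l * x l, ?_⟩
  funext k
  unfold rot
  have e1 : ∀ i, (∑ l, (b i) l * x l) * (b i) k = ∑ l, ((b i) l * (b i) k) * x l := by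
    intro i
    rw [Finset.sum_mul]
    refine Finset.sum_congr rfl fun l _ => by ring
  rw [Finset.sum_congr rfl fun i _ => e1 i, Finset.sum_comm]
  have e2 : ∀ l, ∑ i, ((b i) l * (b i) k) * x l = (if l = k then 1 else 0) * x l := by
    intro l
    rw [← Finset.sum_mul, sum_basis]
  rw [Finset.sum_congr rfl fun l _ => e2 l]
  simp

/-- A function with vanishing last derivative does not depend on the last variable. -/
lemma inv_of_pd_last {U : (Fin (n + 1) → ℝ) → ℝ} (hU : Differentiable ℝ U) {q : Fin (n + 1)}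
    (h : ∀ x, pd q U x = 0) (x : Fin (n + 1) → ℝ) (t : ℝ) :
    U (x + t • Pi.single q 1) = U x := by
  have h1 := abs_sub_le_line (i := q) hU (C := 0) (fun y => by rw [h y, abs_zero]) x t
  rw [zero_mul] at h1
  have h2 := abs_nonpos_iff.mp h1
  linarith

/-- The deficit of a function which does not depend on the last variable. -/
lemma defi_res {U : (Fin (n + 1) → ℝ) → ℝ} (hU : Sol U)
    (hinv' : ∀ x (t : ℝ), U (x + t • Pi.single (Fin.last n) 1) = U x) (x : Fin (n + 1) → ℝ) :
    defi U x = defi (res U) (Fin.init x) := by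
  have dU : Differentiable ℝ U := hU.c2.differentiable (by norm_num)
  have hsnoc : x = Fin.snoc (Fin.init x) 0 + x (Fin.last n) • Pi.single (Fin.last n) 1 := by
    funext k
    refine Fin.lastCases ?_ (fun j => ?_) k
    · simp only [Pi.add_apply, Pi.smul_apply, smul_eq_mul, Pi.single_eq_same, mul_one,
        Fin.snoc_last]
      ring
    · simp only [Pi.add_apply, Pi.smul_apply, smul_eq_mul, Fin.snoc_castSucc, Fin.init,
        Pi.single_apply, if_neg (Fin.castSucc_lt_last j).ne]
      ring
  have htr : (fun z => U (z + x (Fin.last n) • Pi.single (Fin.last n) 1)) = U :=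
    funext fun z => hinv' z _
  have hpdx : ∀ i, pd i U x = pd i U (Fin.snoc (Fin.init x) 0) := by
    intro i
    conv_lhs => rw [hsnoc]
    rw [← pd_translate (f := U) (x (Fin.last n) • Pi.single (Fin.last n) 1), htr]
  have hUx : U x = U (Fin.snoc (Fin.init x) 0) := by
    conv_lhs => rw [hsnoc]
    exact hinv' _ _
  unfold defi psi
  rw [Fin.sum_univ_castSucc, hUx, hpdx (Fin.last n), pd_last_zero dU hinv']
  simp_rw [hpdx, pd_res dU, emb_apply]
  unfold res
  ring

lemma ins_last (s : ℝ) (y : Fin n → ℝ) :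
    H160.ins (Fin.last n) s y = (Fin.snoc y s : Fin (n + 1) → ℝ) := by
  funext k
  refine Fin.lastCases ?_ (fun j => ?_) k
  · rw [H160.ins_same, Fin.snoc_last]
  · have h := H160.ins_succAbove (Fin.last n) s y j
    rw [Fin.succAbove_last] at h
    rw [h, Fin.snoc_castSucc]

/-- Restriction of a stable solution which does not depend on the last variable. -/
theorem SS.res {C : ℝ} {U : (Fin (n + 1) → ℝ) → ℝ} (hU : SS C U)
    (hinv : ∀ x (t : ℝ), U (x + t • Pi.single (Fin.last n) 1) = U x) : SS C (res U) where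
  toSol := Sol.res hU.toSol hinv
  hyp := by
    refine H491.HypN.reduce (p := Fin.last n) hU.hyp (fun s y => ?_)
      ((continuous_const.mul (hU.c2.continuous.pow 2)).sub continuous_const)
    have e : (Fin.snoc y s : Fin (n + 1) → ℝ)
        = Fin.snoc y 0 + s • Pi.single (Fin.last n) 1 := by
      funext k
      refine Fin.lastCases ?_ (fun j => ?_) k
      · simp only [Pi.add_apply, Pi.smul_apply, smul_eq_mul, Pi.single_eq_same, mul_one,
          Fin.snoc_last]
        ring
      · simp only [Pi.add_apply, Pi.smul_apply, smul_eq_mul, Fin.snoc_castSucc,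
          Pi.single_apply, if_neg (Fin.castSucc_lt_last j).ne]
        ring
    have h2 : U (H160.ins (Fin.last n) s y) = H765.res U y := by
      rw [ins_last, e, hinv]
      rfl
    show 3 * U (H160.ins (Fin.last n) s y) ^ 2 - 1 = 3 * H765.res U y ^ 2 - 1
    rw [h2]

/-- Row D1, from the rigidity theorem on `ℝ³`. -/
theorem stD1 (hS : LI.StS3) (hH : StH) : StD1 := by
  intro C V hV w hw hdd x
  -- normalisation
  have hw0 : 0 < eno w := eno_pos hw
  set a : Fin 4 → ℝ := fun i => w i / eno w with ha
  have ha1 : ∑ i, a i ^ 2 = 1 := by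
    simp only [ha, div_pow]
    rw [← Finset.sum_div, eno_sq]
    have : ∑ i, w i ^ 2 = esq w := rfl
    rw [this, div_self]
    rw [← eno_sq]; positivity
  obtain ⟨b, hb⟩ := exists_basis_one (Fin.last 3) ha1
  set W : (Fin 4 → ℝ) → ℝ := fun y => V (rot b y + 0) with hW
  have hWS : SS C W := hH C V hV b 0
  have dV : Differentiable ℝ V := hV.c2.differentiable (by norm_num)
  have dW : Differentiable ℝ W := hWS.c2.differentiable (by norm_num)
  have hpd : ∀ y, pd (Fin.last 3) W y = 0 := by
    intro y
    rw [hW, pd_rot dV]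
    have e : (fun k => (b (Fin.last 3)) k : Fin 4 → ℝ) = a := funext hb
    rw [e]
    have h1 := hdd (rot b y + 0)
    unfold dd at h1 ⊢
    have : ∀ i, a i * pd i V (rot b y + 0) = w i * pd i V (rot b y + 0) / eno w := by
      intro i; rw [ha]; ring
    rw [Finset.sum_congr rfl fun i _ => this i, ← Finset.sum_div, h1, zero_div]
  have hinv : ∀ x (t : ℝ), W (x + t • Pi.single (Fin.last 3) 1) = W x := fun x t =>
    inv_of_pd_last dW hpd x t
  have hR := SS.res hWS hinv
  have h0 : ∀ y, defi (res W) y = 0 := fun y =>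
    defi_zero_of_StS3 hS hR.toSol (H491.hyp_of_hypN hR.hyp) y
  obtain ⟨y, hy⟩ := rot_surj b x
  have h1 := defi_rot dV b 0 y
  rw [hy, add_zero] at h1
  rw [← h1]
  have h2 := defi_res hWS.toSol hinv y
  rw [h0] at h2
  exact h2

end Vale.Agent.P134.B331
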