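import Vale.Agent.P134.B331.Coord
import Vale.Agent.P134.B331.StD1

/-! Row P5: the upper profile of a monotone solution on `ℝ⁵` with a continuous symmetry. -/

set_option linter.all false

open MeasureTheory Filter Topology
open scoped InnerProductSpace

namespace Vale.Agent.P134.B331.M

open Vale.Agent.P134 Vale.Agent.P134.H765 Vale.Agent.P134.B331

variable {n : ℕ}

/-- The inverse of a rotation is a rotation. -/
lemma exists_inv_basis (b : OrthonormalBasis (Fin n) ℝ (EuclideanSpace ℝ (Fin n))) :
    ∃ b' : OrthonormalBasis (Fin n) ℝ (EuclideanSpace ℝ (Fin n)),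
      ∀ x, rot b' x = rti b x := by
  classical
  set v : Fin n → EuclideanSpace ℝ (Fin n) := fun i => WithLp.toLp 2 (fun k => (b k) i) with hv
  have ho : Orthonormal ℝ v := by
    rw [orthonormal_iff_ite]
    intro i j
    have h1 : ⟪v i, v j⟫_ℝ = ∑ k, (b k) i * (b k) j := by
      rw [PiLp.inner_apply]
      refine Finset.sum_congr rfl fun k _ => ?_
      simp [hv, mul_comm]
    rw [h1, sum_basis]
  have ho' : Orthonormal ℝ ((Set.univ : Set (Fin n)).restrict v) :=
    ho.comp _ Subtype.val_injective
  obtain ⟨b', hb'⟩ := ho'.exists_orthonormalBasis_extension_of_card_eq (by simp)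
  refine ⟨b', fun x => ?_⟩
  funext k
  unfold rot rti
  refine Finset.sum_congr rfl fun i _ => ?_
  rw [hb' i (Set.mem_univ i)]
  simp [hv, mul_comm]

/-- The profile is invariant in the direction of monotonicity. -/
lemma profile_inv {u U : (Fin n → ℝ) → ℝ} {e : Fin n → ℝ}
    (hlim : ∀ x, Tendsto (fun t : ℝ => u (x + t • e)) atTop (𝓝 (U x))) (x : Fin n → ℝ) (t : ℝ) :
    U (x + t • e) = U x := by
  have h4 : Tendsto (fun s : ℝ => u (x + (s + t) • e)) atTop (𝓝 (U x)) :=
    (hlim x).comp (tendsto_atTop_add_const_right atTop t tendsto_id)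
  have h5 := hlim (x + t • e)
  have e : (fun s : ℝ => u (x + t • e + s • e)) = fun s : ℝ => u (x + (s + t) • e) := by
    funext s
    congr 1
    rw [add_smul]; abel
  rw [e] at h5
  exact tendsto_nhds_unique h5 h4

/-- Limit of the invariance: general field. -/
lemma lim_dd {u U : (Fin n → ℝ) → ℝ} {e : Fin n → ℝ}
    (hlim' : ∀ x i, Tendsto (fun t : ℝ => pd i u (x + t • e)) atTop (𝓝 (pd i U x)))
    (w x : Fin n → ℝ) : Tendsto (fun t : ℝ => dd w u (x + t • e)) atTop (𝓝 (dd w U x)) := by
  unfold dd
  exact tendsto_finsetSum _ fun i _ => (hlim' x i).const_mul _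

/-- Limit of the invariance. -/
lemma lim_inv {u U : (Fin n → ℝ) → ℝ} {e : Fin n → ℝ}
    (hlim' : ∀ x i, Tendsto (fun t : ℝ => pd i u (x + t • e)) atTop (𝓝 (pd i U x)))
    {A : (Fin n → ℝ) →L[ℝ] (Fin n → ℝ)} {c : Fin n → ℝ} (hI : ∀ x, dd (A x + c) u x = 0)
    (x : Fin n → ℝ) : dd (A e) U x = 0 := by
  have h1 : ∀ᶠ t : ℝ in atTop, dd (A e) u (x + t • e) = - (t⁻¹ * dd (A x + c) u (x + t • e)) := by
    filter_upwards [eventually_gt_atTop 0] with t ht
    have h2 := hI (x + t • e)
    have h3 : dd (A (x + t • e) + c) u (x + t • e)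
        = dd (A x + c) u (x + t • e) + t * dd (A e) u (x + t • e) := by
      unfold dd
      rw [Finset.mul_sum, ← Finset.sum_add_distrib]
      refine Finset.sum_congr rfl fun i _ => ?_
      rw [map_add, map_smul]
      simp only [Pi.add_apply, Pi.smul_apply, smul_eq_mul]
      ring
    rw [h3] at h2
    field_simp
    linarith
  have h4 := lim_dd hlim' (A e) x
  have h5 : Tendsto (fun t : ℝ => - (t⁻¹ * dd (A x + c) u (x + t • e))) atTop
      (𝓝 (-(0 * dd (A x + c) U x))) :=
    (tendsto_inv_atTop_zero.mul (lim_dd hlim' (A x + c) x)).neg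
  have h6 := tendsto_nhds_unique (h4.congr' h1) h5
  rw [h6]; ring

lemma lim_inv' {u U : (Fin n → ℝ) → ℝ} {e : Fin n → ℝ}
    (hlim' : ∀ x i, Tendsto (fun t : ℝ => pd i u (x + t • e)) atTop (𝓝 (pd i U x)))
    {A : (Fin n → ℝ) →L[ℝ] (Fin n → ℝ)} {c : Fin n → ℝ} (hI : ∀ x, dd (A x + c) u x = 0)
    (hAe : A e = 0) (x : Fin n → ℝ) : dd (A x + c) U x = 0 := by
  have h1 : ∀ t : ℝ, dd (A x + c) u (x + t • e) = 0 := by
    intro t
    have h2 := hI (x + t • e)
    rwa [map_add, map_smul, hAe, smul_zero, add_zero] at h2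
  have h3 := lim_dd hlim' (A x + c) x
  simp_rw [h1] at h3
  exact (tendsto_nhds_unique h3 tendsto_const_nhds)

/-- The profile in the last coordinate direction has zero deficit. -/
theorem profile_last (h1 : StD1) (h4 : StP4) {v : (Fin 5 → ℝ) → ℝ} (hv : Sol v)
    (hpos : ∀ x, 0 < pd (Fin.last 4) v x) {A : (Fin 5 → ℝ) →L[ℝ] (Fin 5 → ℝ)} {c : Fin 5 → ℝ}
    (hI : Inv A c v) (hAc : A ≠ 0 ∨ c ≠ 0) :
    ∃ V : (Fin 5 → ℝ) → ℝ, Sol V ∧
      (∀ x, Tendsto (fun t : ℝ => v (x + t • Pi.single (Fin.last 4) 1)) atTop (𝓝 (V x))) ∧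
      ∀ x, defi V x = 0 := by
  obtain ⟨V, hV, hlim, hlim', -, hinv⟩ := hv.exists_profile (Fin.last 4) hpos
  refine ⟨V, hV, hlim, fun x => ?_⟩
  have dV : Differentiable ℝ V := hV.c2.differentiable (by norm_num)
  have dv : Differentiable ℝ v := hv.c2.differentiable (by norm_num)
  have hVS : SS ((4 + 1 : ℕ) * H283.cH (4 + 1) 2) V := by
    refine ⟨hV, ?_⟩
    refine H491.HypN.of_tendsto (L := atTop)
      (F := fun (t : ℝ) x => v (x + t • Pi.single (Fin.last 4) 1)) (fun t => hv.shift _) hV hlim
      fun t => ?_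
    exact (H491.HypN.of_mono hv hpos).translate _
  have hW : SS ((4 + 1 : ℕ) * H283.cH (4 + 1) 2) (res V) := SS.res hVS hinv
  rw [defi_res hV hinv]
  have hlast : ∀ y, pd (Fin.last 4) V y = 0 := pd_last_zero dV hinv
  have hskew0 : ∀ w, (A w) (Fin.last 4) = - ∑ i, A (Pi.single (Fin.last 4) 1) i * w i := by
    intro w
    have := hI.skew (Pi.single (Fin.last 4) 1) w
    rw [← this]
    simp [Pi.single_apply]
  have hres : ∀ (w : Fin 5 → ℝ) (y : Fin 4 → ℝ),
      dd (fun i : Fin 4 => w i.castSucc) (res V) y = dd w V (emb 4 y) := by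
    intro w y
    unfold dd
    rw [Fin.sum_univ_castSucc (f := fun i => w i * pd i V (emb 4 y)), hlast, mul_zero, add_zero]
    refine Finset.sum_congr rfl fun i _ => ?_
    rw [pd_res dV]
  by_cases hAe : A (Pi.single (Fin.last 4) 1) = 0
  · -- the field is tangent to the hyperplane
    have hlastA : ∀ w, (A w) (Fin.last 4) = 0 := by
      intro w
      rw [hskew0, hAe]
      simp
    -- the restricted map
    set A4 : (Fin 4 → ℝ) →L[ℝ] (Fin 4 → ℝ) :=
      ContinuousLinearMap.pi fun i : Fin 4 =>
        (ContinuousLinearMap.proj (R := ℝ) (φ := fun _ : Fin 5 => ℝ) i.castSucc).comp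
          (A.comp (emb 4)) with hA4
    have hA4a : ∀ y i, A4 y i = A (emb 4 y) i.castSucc := fun y i => rfl
    set c4 : Fin 4 → ℝ := fun i => c i.castSucc with hc4
    have hI4 : Inv A4 c4 (res V) := by
      refine ⟨fun z w => ?_, fun y => ?_⟩
      · have h := hI.skew (emb 4 z) (emb 4 w)
        rw [Fin.sum_univ_castSucc (f := fun i => emb 4 z i * A (emb 4 w) i),
          Fin.sum_univ_castSucc (f := fun i => A (emb 4 z) i * emb 4 w i)] at h
        simp only [hlastA, mul_zero, zero_mul, add_zero] at h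
        have e1 : ∀ (z : Fin 4 → ℝ) (i : Fin 4), emb 4 z i.castSucc = z i := by
          intro z i
          rw [emb_apply, Fin.snoc_castSucc]
        simp only [e1] at h
        simp only [hA4a]
        exact h
      · have h := lim_inv' hlim' hI.inv hAe (emb 4 y)
        rw [← hres] at h
        exact h
    have hne : A4 ≠ 0 ∨ c4 ≠ 0 := by
      by_contra hcon
      push Not at hcon
      obtain ⟨hA40, hc40⟩ := hcon
      have hemb : ∀ y, A (emb 4 y) = 0 := by
        intro y
        funext k
        refine Fin.lastCases ?_ (fun j => ?_) k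
        · rw [hlastA]; rfl
        · have := congrFun (congrArg (fun (T : (Fin 4 → ℝ) →L[ℝ] (Fin 4 → ℝ)) => T y) hA40) j
          simpa [hA4a] using this
      have hA0 : A = 0 := by
        ext x : 1
        have hx : x = emb 4 (Fin.init x) + x (Fin.last 4) • Pi.single (Fin.last 4) 1 := by
          rw [emb_apply]
          funext k
          refine Fin.lastCases ?_ (fun j => ?_) k
          · simp only [Pi.add_apply, Pi.smul_apply, smul_eq_mul, Pi.single_eq_same, mul_one,
              Fin.snoc_last]
            ring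
          · simp only [Pi.add_apply, Pi.smul_apply, smul_eq_mul, Fin.snoc_castSucc, Fin.init,
              Pi.single_apply, if_neg (Fin.castSucc_lt_last j).ne]
            ring
        rw [hx, map_add, hemb, map_smul, hAe]
        simp
      have hc0 : c = 0 := by
        have hcl : c = c (Fin.last 4) • Pi.single (Fin.last 4) 1 := by
          funext k
          refine Fin.lastCases ?_ (fun j => ?_) k
          · simp
          · have h7 : c j.castSucc = 0 := congrFun hc40 j
            rw [h7, Pi.smul_apply, Pi.single_eq_of_ne (Fin.castSucc_lt_last j).ne, smul_zero]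
        have h := hI.inv 0
        rw [hA0] at h
        simp only [ContinuousLinearMap.zero_apply, zero_add] at h
        rw [hcl] at h
        have h5 : dd (c (Fin.last 4) • Pi.single (Fin.last 4) (1:ℝ)) v 0
            = c (Fin.last 4) * pd (Fin.last 4) v 0 := by
          unfold dd
          rw [Finset.sum_eq_single (Fin.last 4)]
          · simp
          · intro j _ hj
            rw [Pi.smul_apply, Pi.single_eq_of_ne hj, smul_zero, zero_mul]
          · intro h; exact absurd (Finset.mem_univ _) h
        rw [h5] at h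
        have h6 := (mul_eq_zero.mp h).resolve_right (hpos 0).ne'
        rw [hcl, h6, zero_smul]
      rcases hAc with h | h
      · exact h hA0
      · exact h hc0
    exact h4 _ (res V) hW A4 c4 hI4 hne _
  · -- a second direction of invariance
    set w : Fin 5 → ℝ := A (Pi.single (Fin.last 4) 1) with hw
    have hwlast : w (Fin.last 4) = 0 := by
      have h := hskew0 (Pi.single (Fin.last 4) 1)
      have h5 : ∑ i, A (Pi.single (Fin.last 4) 1) i * (Pi.single (Fin.last 4) (1:ℝ) : Fin 5 → ℝ) i
          = A (Pi.single (Fin.last 4) 1) (Fin.last 4) := by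
        simp [Pi.single_apply]
      rw [h5] at h
      rw [hw]
      linarith
    have hw4 : (fun i : Fin 4 => w i.castSucc) ≠ 0 := by
      intro h
      apply hAe
      funext k
      refine Fin.lastCases ?_ (fun j => ?_) k
      · rw [hwlast]; rfl
      · have := congrFun h j
        simpa using this
    refine h1 _ (res V) hW (fun i : Fin 4 => w i.castSucc) hw4 (fun y => ?_) _
    rw [hres]
    exact lim_inv hlim' hI.inv (emb 4 y)

/-- ROW P5. -/
theorem stP5 (h1 : StD1) (h4 : StP4) : StP5 := by
  intro u e hu hpos A c hI hAc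
  have du : Differentiable ℝ u := hu.c2.differentiable (by norm_num)
  have he0 : e ≠ 0 := by
    intro h
    have := hpos 0
    rw [h] at this
    unfold dd at this
    simp at this
  have hen := eno_pos he0
  set a : Fin 5 → ℝ := (eno e)⁻¹ • e with ha
  have ha1 : ∑ i, a i ^ 2 = 1 := by
    have h2 : ∀ i, a i ^ 2 = ((eno e)⁻¹) ^ 2 * e i ^ 2 := by
      intro i; rw [ha]; simp only [Pi.smul_apply, smul_eq_mul]; ring
    simp_rw [h2]
    rw [← Finset.mul_sum]
    change ((eno e)⁻¹) ^ 2 * esq e = 1
    rw [← eno_sq]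
    field_simp
  obtain ⟨b, hb⟩ := exists_basis_one (Fin.last 4) ha1
  have hba : (fun k => (b (Fin.last 4)) k) = a := funext hb
  set v : (Fin 5 → ℝ) → ℝ := fun y => u (rot b y + 0) with hv
  have hvs : Sol v := Sol.rot hu b 0
  have hvpos : ∀ y, 0 < pd (Fin.last 4) v y := by
    intro y
    rw [hv, pd_rot du b 0, hba]
    have h2 : dd a u (rot b y + 0) = (eno e)⁻¹ * dd e u (rot b y + 0) := by
      unfold dd
      rw [Finset.mul_sum]
      refine Finset.sum_congr rfl fun i _ => ?_
      rw [ha]; simp only [Pi.smul_apply, smul_eq_mul]; ring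
    rw [h2]
    exact mul_pos (inv_pos.mpr hen) (hpos _)
  have hvI := invRot hI du b 0
  have hne : conj b A ≠ 0 ∨ rti b (A 0 + c) ≠ 0 := by
    rcases hAc with h | h
    · exact Or.inl (conj_ne_zero b h)
    · right
      intro h3
      apply h
      have h5 := rot_rti b (A 0 + c)
      rw [h3, map_zero, zero_add] at h5
      rw [← h5, ← rotL_apply, map_zero]
  obtain ⟨V, hV, hlim, hdef⟩ := profile_last h1 h4 hvs hvpos hvI hne
  obtain ⟨b', hb'⟩ := exists_inv_basis b
  have dV : Differentiable ℝ V := hV.c2.differentiable (by norm_num)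
  refine ⟨fun x => V (rot b' x + 0), Sol.rot hV b' 0, fun x => ?_, fun x => ?_⟩
  · have h2 := hlim (rot b' x + 0)
    have h3 : Tendsto (fun t : ℝ => t * eno e) atTop atTop :=
      tendsto_id.atTop_mul_const hen
    have h5 := h2.comp h3
    refine h5.congr fun t => ?_
    simp only [Function.comp_apply, hv, add_zero]
    congr 1
    rw [rot_add, hb', rot_rti]
    congr 1
    rw [rot_smul_single, hba, ha, smul_smul]
    congr 1
    field_simp
  · rw [defi_rot dV]
    exact hdef _

end Vale.Agent.P134.B331.M
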