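import Vale.Agent.P134.B331.RowF
import Vale.Agent.P134.H765.Final4

/-! Stable solutions on `ℝ⁴` with a continuous symmetry, Euclidean form. -/

set_option linter.all false

open MeasureTheory Filter Topology
open scoped InnerProductSpace Laplacian

namespace Vale.Agent.P134.B331.M

open Vale.Agent.P134 Vale.Agent.P134.H765 Vale.Agent.P134.B331

variable {n : ℕ}

/-- A linear map of the Euclidean space in coordinates. -/
noncomputable def ofE (B : EuclideanSpace ℝ (Fin n) →L[ℝ] EuclideanSpace ℝ (Fin n)) :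
    (Fin n → ℝ) →L[ℝ] (Fin n → ℝ) :=
  ((EuclideanSpace.equiv (Fin n) ℝ) : EuclideanSpace ℝ (Fin n) →L[ℝ] (Fin n → ℝ)).comp
    (B.comp ((EuclideanSpace.equiv (Fin n) ℝ).symm : (Fin n → ℝ) →L[ℝ] EuclideanSpace ℝ (Fin n)))

lemma ofE_apply (B : EuclideanSpace ℝ (Fin n) →L[ℝ] EuclideanSpace ℝ (Fin n)) (y : Fin n → ℝ)
    (k : Fin n) : ofE B y k = B (WithLp.toLp 2 y) k := rfl

lemma inner_sum' (x y : EuclideanSpace ℝ (Fin n)) : ⟪x, y⟫_ℝ = ∑ k, x k * y k := by
  rw [PiLp.inner_apply]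
  refine Finset.sum_congr rfl fun k _ => ?_
  simp [mul_comm]

lemma skew_polar' {E : Type*} [NormedAddCommGroup E] [InnerProductSpace ℝ E] {A : E →L[ℝ] E}
    (hA : ∀ x, ⟪x, A x⟫_ℝ = 0) (x y : E) : ⟪x, A y⟫_ℝ = - ⟪y, A x⟫_ℝ := by
  have h := hA (x + y)
  rw [map_add, inner_add_left, inner_add_right, inner_add_right, hA, hA] at h
  linarith

/-- **Stable solutions on `ℝ⁴` with a Killing field.** -/
theorem four_stable_killing (h4 : StP4) {u : EuclideanSpace ℝ (Fin 4) → ℝ}
    (hu : ContDiff ℝ 2 u) (heq : ∀ x, Δ u x = u x ^ 3 - u x) (hb : ∃ M : ℝ, ∀ x, |u x| ≤ M)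
    (hs : StableE u) {B : EuclideanSpace ℝ (Fin 4) →L[ℝ] EuclideanSpace ℝ (Fin 4)}
    {c : EuclideanSpace ℝ (Fin 4)} (hBc : B ≠ 0 ∨ c ≠ 0) (hB : ∀ x, ⟪x, B x⟫_ℝ = 0)
    (hgen : ∀ x, fderiv ℝ u x (B x + c) = 0) :
    (∀ x, u x = 1) ∨ (∀ x, u x = -1) ∨ ∃ (e : EuclideanSpace ℝ (Fin 4)) (c : ℝ), ‖e‖ = 1 ∧
      ∀ x, u x = Real.tanh ((⟪e, x⟫_ℝ - c) / √2) := by
  have hb1 := abs_le_one_of_bdd hu heq hb
  have du : Differentiable ℝ u := hu.differentiable (by norm_num)
  set b := EuclideanSpace.basisFun (Fin 4) ℝ with hbdef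
  have hsol := sol_of_euclidean hu heq hb1 b 0
  have hst := stabV_of_stableE hs
  have hS : SS _ (fun y => u (0 + coordMap b y)) := ⟨hsol, hypN_of_stable hsol hst⟩
  have hrep : ∀ x, u x = (fun y => u (0 + coordMap b y)) (fun i => ⟪b i, x - 0⟫_ℝ) := fun x => by
    simp only [coordMap_repr b 0 x]
  -- the field
  have hI : Inv (ofE B) (fun i => c i) (fun y => u (0 + coordMap b y)) := by
    refine ⟨fun z w => ?_, fun y => ?_⟩
    · have h1 := skew_polar' hB (WithLp.toLp 2 z) (WithLp.toLp 2 w)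
      rw [inner_sum', inner_sum'] at h1
      simp only [ofE_apply]
      have h2 : ∑ k, (WithLp.toLp 2 w : EuclideanSpace ℝ (Fin 4)) k
          * B (WithLp.toLp 2 z) k = ∑ i, B (WithLp.toLp 2 z) i * w i :=
        Finset.sum_congr rfl fun k _ => mul_comm _ _
      rw [h2] at h1
      exact h1
    · have h1 : ofE B y + (fun i => c i) = fun i => ⟪b i, B (coordMap b y) + c⟫_ℝ := by
        funext i
        rw [hbdef, coordMap_std, EuclideanSpace.basisFun_apply, EuclideanSpace.inner_single_left]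
        simp [ofE_apply]
      rw [h1, dd_coord du, zero_add]
      exact hgen _
  have hne : ofE B ≠ 0 ∨ (fun i => c i) ≠ (0 : Fin 4 → ℝ) := by
    rcases hBc with h | h
    · left
      intro h0
      apply h
      ext x k
      have h1 : ofE B (fun i => x i) k = 0 := by rw [h0]; rfl
      rw [ofE_apply] at h1
      exact h1
    · right
      intro h0
      apply h
      ext k
      exact congrFun h0 k
  have hD := h4 _ _ hS (ofE B) (fun i => c i) hI hne
  rcases rigid_form hsol hD with h | h | ⟨ν, hν, -, c', hc'⟩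
  · exact Or.inl fun x => (hrep x).trans (h _)
  · exact Or.inr (Or.inl fun x => (hrep x).trans (h _))
  · refine Or.inr (Or.inr ⟨∑ i, ν i • b i, -c', ?_, fun x => ?_⟩)
    · have h1 : ‖∑ i, ν i • b i‖ ^ 2 = 1 := by
        rw [← real_inner_self_eq_norm_sq, sum_inner]
        simp_rw [inner_sum, inner_smul_left, inner_smul_right, b.inner_eq_ite]
        simp only [mul_ite, mul_one, mul_zero, Finset.sum_ite_eq, Finset.mem_univ, if_true,
          conj_trivial]
        rw [← hν]
        refine Finset.sum_congr rfl fun i _ => by ring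
      have h2 : 0 ≤ ‖∑ i, ν i • b i‖ := norm_nonneg _
      nlinarith
    · refine ((hrep x).trans (hc' _)).trans ?_
      rw [gp_eq_tanh]
      congr 2
      rw [sum_inner, sub_neg_eq_add]
      congr 1
      refine Finset.sum_congr rfl fun i _ => ?_
      rw [inner_smul_left, sub_zero]
      simp

end Vale.Agent.P134.B331.M
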