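import Vale.Agent.P134.B331.D2Loc
import Vale.Agent.P134.B331.D2Geo

/-! Row D2: zero mean density of the energy of a stable solution on `ℝ⁴` with a continuous
symmetry which is not a translation. -/

set_option linter.all false

open MeasureTheory Filter Topology

namespace Vale.Agent.P134.B331

open Vale.Agent.P134

theorem stD2 (h1 : StD1) : StD2 := by
  intro C V hV A c hA hA0
  -- a nonzero row of `A`
  have hrow : ∃ i : Fin 4, (fun j => A (Pi.single j 1) i : Fin 4 → ℝ) ≠ 0 := by
    by_contra hcon
    push Not at hcon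
    apply hA0
    ext1 x
    have hx : x = ∑ j, x j • (Pi.single j 1 : Fin 4 → ℝ) := by
      funext k
      simp [Finset.sum_apply, Pi.single_apply]
    rw [hx, map_sum]
    simp only [map_smul, ContinuousLinearMap.zero_apply]
    funext i
    rw [Finset.sum_apply]
    refine Finset.sum_eq_zero fun j _ => ?_
    have := congrFun (hcon i) j
    simp only [Pi.zero_apply] at this
    rw [Pi.smul_apply, this, smul_zero]
  obtain ⟨i, hi⟩ := hrow
  set a : Fin 4 → ℝ := fun j => A (Pi.single j 1) i with ha
  have haz : ∀ z : Fin 4 → ℝ, ∑ j, a j * z j + c i = (A z + c) i := by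
    intro z
    have hz : z = ∑ j, z j • (Pi.single j 1 : Fin 4 → ℝ) := by
      funext k
      simp [Finset.sum_apply, Pi.single_apply]
    rw [Pi.add_apply]
    congr 1
    conv_rhs => rw [hz, map_sum]
    simp only [map_smul, Finset.sum_apply, Pi.smul_apply, smul_eq_mul, ha]
    refine Finset.sum_congr rfl fun j _ => mul_comm _ _
  refine d2geo (fun x => psi V x ^ 2) (hV.toSol.psi_contDiff.continuous.pow 2)
    (fun x => sq_nonneg _) (fun x => hV.toSol.psi_sq_le x) a hi (c i) fun ε hε => ?_
  obtain ⟨L, r0, hL, h2⟩ := d2loc h1 hV hA.inv ε hε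
  refine ⟨L, r0, hL, fun z hz => h2 z (hz.trans ?_)⟩
  rw [haz, ← Real.norm_eq_abs]
  exact norm_le_pi_norm _ i

end Vale.Agent.P134.B331
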