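import Vale.Agent.P134.B331.Defs
import Vale.Agent.P134.H919.MonoY

/-! ROW I: horizontal smallness from the stress tensor and the monotonicity formula. -/

set_option linter.all false

open MeasureTheory Filter Topology

namespace Vale.Agent.P134.B331

open Vale.Agent.P134 Vale.Agent.P134.H919

namespace RowI

variable {n : ℕ} {u f g : (Fin n → ℝ) → ℝ}

lemma en_split (u : (Fin n → ℝ) → ℝ) (x : Fin n → ℝ) :
    en u x = ∑ j, pd j u x ^ 2 + defi u x / 2 := by
  unfold en defi psi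
  ring

lemma sum_le_psi (hu : Sol u) (x : Fin n → ℝ) : ∑ j, pd j u x ^ 2 ≤ psi u x ^ 2 / 2 := by
  have := hu.defi_nonneg x
  unfold defi at this
  linarith

lemma en_le_psi (hu : Sol u) (x : Fin n → ℝ) : en u x ≤ psi u x ^ 2 / 2 := by
  have h1 := sum_le_psi hu x
  unfold en
  unfold psi at *
  linarith

lemma defi_le_psi (hu : Sol u) (x : Fin n → ℝ) : defi u x ≤ psi u x ^ 2 / 2 := by
  have : 0 ≤ ∑ j, pd j u x ^ 2 := Finset.sum_nonneg fun _ _ => sq_nonneg _
  unfold defi
  linarith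

lemma intOn (hf : Continuous f) (r : ℝ) : IntegrableOn f (box n r) :=
  hf.continuousOn.integrableOn_compact (isCompact_box r)

lemma meas_box (r : ℝ) : MeasurableSet (box n r) := (isCompact_box r).isClosed.measurableSet

lemma cr_supp {R : ℝ} (hR : 0 < R) {x : Fin n → ℝ} (hx : cr th R x ≠ 0) : x ∈ box n (2 * R) := by
  rw [mem_box]
  intro i
  by_contra hc
  push Not at hc
  apply hx
  apply cr_eq_zero (fun t ht => th_zero ht) hR
  have h1 := sq_le_rho (Finset.mem_univ i) x
  have h2 : (2 * R) ^ 2 ≤ |x i| ^ 2 := pow_le_pow_left₀ (by positivity) hc.le 2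
  rw [sq_abs] at h2
  nlinarith [sq_nonneg R]

lemma dcr_supp {R : ℝ} (hR : 0 < R) {x : Fin n → ℝ}
    (hx : deriv th (rho Finset.univ x / R ^ 2) ≠ 0) : x ∈ box n (2 * R) := by
  rw [mem_box]
  intro i
  by_contra hc
  push Not at hc
  apply hx
  apply dcr_eq_zero th_contDiff (fun t ht => th_zero ht) hR
  have h1 := sq_le_rho (Finset.mem_univ i) x
  have h2 : (2 * R) ^ 2 ≤ |x i| ^ 2 := pow_le_pow_left₀ (by positivity) hc.le 2
  rw [sq_abs] at h2
  nlinarith [sq_nonneg R]

/-- Radial integrals are bounded by integrals over boxes. -/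
lemma cr_le_box {R : ℝ} (hR : 0 < R) (hf : Continuous f) (h0 : ∀ x, 0 ≤ f x) :
    ∫ x, cr th R x * f x ≤ ∫ x in box n (2 * R), f x := by
  rw [← integral_indicator (meas_box _)]
  apply integral_mono
  · have := integrable_crY (g := f) th_contDiff (fun t ht => th_zero ht) hR (0 : Fin n → ℝ) hf
    simpa using this
  · exact (integrable_indicator_iff (meas_box _)).mpr (intOn hf _)
  · intro x
    simp only
    by_cases hx : x ∈ box n (2 * R)
    · rw [Set.indicator_of_mem hx]
      have := cr_le_one prof_th R x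
      nlinarith [h0 x]
    · rw [Set.indicator_of_notMem hx]
      have : cr th R x = 0 := by
        by_contra hc
        exact hx (cr_supp hR hc)
      rw [this, zero_mul]

/-- Integrals over boxes are bounded by radial integrals. -/
lemma box_le_cr {f : (Fin 5 → ℝ) → ℝ} {r : ℝ} (hr : 0 < r) (hf : Continuous f)
    (h0 : ∀ x, 0 ≤ f x) :
    ∫ x in box 5 r, f x ≤ ∫ x, cr th (3 * r) x * f x := by
  rw [← integral_indicator (meas_box _)]
  apply integral_mono
  · exact (integrable_indicator_iff (meas_box _)).mpr (intOn hf _)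
  · have := integrable_crY (g := f) th_contDiff (fun t ht => th_zero ht)
      (show (0:ℝ) < 3 * r by positivity) (0 : Fin 5 → ℝ) hf
    simpa using this
  · intro x
    simp only
    by_cases hx : x ∈ box 5 r
    · rw [Set.indicator_of_mem hx]
      have h1 : cr th (3 * r) x = 1 := by
        apply th_one
        rw [div_le_one (by positivity)]
        have h2 : ∀ i, x i ^ 2 ≤ r ^ 2 := by
          intro i
          have := mem_box.mp hx i
          rw [← sq_abs]
          exact pow_le_pow_left₀ (abs_nonneg _) this 2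
        have h3 : rho Finset.univ x ≤ ∑ _i : Fin 5, r ^ 2 := Finset.sum_le_sum fun i _ => h2 i
        simp only [Finset.sum_const, Finset.card_univ, Fintype.card_fin, nsmul_eq_mul] at h3
        push_cast at h3
        nlinarith [sq_nonneg r]
      rw [h1, one_mul]
    · rw [Set.indicator_of_notMem hx]
      exact mul_nonneg (cr_nonneg prof_th _ _) (h0 x)


section five

variable {u f : (Fin 5 → ℝ) → ℝ} {K : ℝ}

lemma psi_cont (hu : Sol u) : Continuous (fun x => psi u x ^ 2) :=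
  hu.psi_contDiff.continuous.pow 2

lemma int_psi_nonneg (hu : Sol u) (R : ℝ) : 0 ≤ ∫ x in box 5 R, psi u x ^ 2 :=
  setIntegral_nonneg (meas_box _) fun x _ => sq_nonneg _

/-- The scale invariant energy is bounded. -/
lemma Th_le (hu : Sol u) (hK : ∀ R : ℝ, 1 ≤ R → ∫ x in box 5 R, psi u x ^ 2 ≤ K * R ^ 4)
    {R : ℝ} (hR : 1 ≤ R) : Th u th 0 R ≤ 8 * K := by
  have hR0 : 0 < R := by linarith
  unfold Th
  rw [div_le_iff₀ (by positivity)]
  have h1 : ∫ x, cr th R (x - 0) * en u x ≤ ∫ x in box 5 (2 * R), en u x := by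
    simp only [sub_zero]
    exact cr_le_box hR0 (en_contDiff hu.c2).continuous (en_nonneg u)
  have h2 : ∫ x in box 5 (2 * R), en u x ≤ ∫ x in box 5 (2 * R), psi u x ^ 2 / 2 := by
    apply setIntegral_mono_on (intOn (en_contDiff hu.c2).continuous _)
      (intOn ((psi_cont hu).div_const 2) _) (meas_box _)
    intro x _
    exact en_le_psi hu x
  have h3 := hK (2 * R) (by linarith)
  rw [integral_div] at h2
  have h4 : (2 * R) ^ 4 = 16 * R ^ 4 := by ring
  rw [h4] at h3
  have h5 : R ^ (5 - 1) = R ^ 4 := rfl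
  rw [h5]
  linarith

/-- Eventually the scale invariant energy is almost constant. -/
lemma Th_cauchy (hu : Sol u) (hK : ∀ R : ℝ, 1 ≤ R → ∫ x in box 5 R, psi u x ^ 2 ≤ K * R ^ 4)
    {ε : ℝ} (hε : 0 < ε) : ∃ r : ℝ, 1 ≤ r ∧ ∀ R, r ≤ R → Th u th 0 R - Th u th 0 r ≤ ε := by
  have hne : (Th u th 0 '' Set.Ici 1).Nonempty := ⟨_, 1, by simp, rfl⟩
  have hbdd : BddAbove (Th u th 0 '' Set.Ici 1) := by
    refine ⟨8 * K, ?_⟩
    rintro _ ⟨R, hR, rfl⟩
    exact Th_le hu hK hR
  obtain ⟨_, ⟨r, hr, rfl⟩, h1⟩ := exists_lt_of_lt_csSup hne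
    (show sSup (Th u th 0 '' Set.Ici 1) - ε < sSup (Th u th 0 '' Set.Ici 1) by linarith)
  refine ⟨r, hr, fun R hR => ?_⟩
  have h2 : Th u th 0 R ≤ sSup (Th u th 0 '' Set.Ici 1) :=
    le_csSup hbdd ⟨R, (show (1:ℝ) ≤ R from le_trans hr hR), rfl⟩
  linarith

/-- The radial derivative is small in the mean. -/
lemma sx_small (hu : Sol u) (hK : ∀ R : ℝ, 1 ≤ R → ∫ x in box 5 R, psi u x ^ 2 ≤ K * R ^ 4)
    {ε : ℝ} (hε : 0 < ε) : ∃ R₀ : ℝ, ∀ R, R₀ ≤ R → ∫ x in box 5 R, sx u x ^ 2 ≤ ε * R ^ 6 := by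
  have hε' : 0 < ε / (3 * 729) := by positivity
  obtain ⟨r, hr, h1⟩ := Th_cauchy hu hK hε'
  have hr0 : 0 < r := by linarith
  set G := Gs u th 0 r with hG
  have hG0 : 0 ≤ G := integral_nonneg fun x => mul_nonneg (cr_nonneg prof_th _ _) (sq_nonneg _)
  refine ⟨max r (G / (ε / (3 * 729)) + 1), fun R hR => ?_⟩
  have hRr : r ≤ R := le_trans (le_max_left _ _) hR
  have hR1 : 1 ≤ R := le_trans hr hRr
  have hR0 : 0 < R := by linarith
  have h2 := Gs_le (y := (0 : Fin 5 → ℝ)) (by norm_num : 0 < 5) hu prof_th hr0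
    (show r ≤ 3 * R by linarith)
  have h3 := h1 (3 * R) (by linarith)
  have h4 : ∫ x in box 5 R, sx u x ^ 2 ≤ Gs u th 0 (3 * R) := by
    have h5 := box_le_cr (f := fun x => sx u x ^ 2) hR0
      ((sx_continuous (hu.c2.of_le (by norm_num))).pow 2) (fun x => sq_nonneg _)
    refine h5.trans (le_of_eq ?_)
    unfold Gs
    congr 1
    funext x
    simp [sx, sY]
  have h6 : G ≤ ε / (3 * 729) * R := by
    have := le_trans (le_max_right _ _) hR
    rw [div_add_one (ne_of_gt hε'), div_le_iff₀ hε'] at this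
    linarith
  have h7 : G / (3 * R) ^ 6 ≤ ε / (3 * 729) := by
    rw [div_le_iff₀ (by positivity)]
    have h8 : R ≤ (3 * R) ^ 6 := by
      have : R ≤ R ^ 6 := le_self_pow₀ hR1 (by norm_num)
      have h9 : (3 * R) ^ 6 = 729 * R ^ 6 := by ring
      rw [h9]
      nlinarith
    exact h6.trans (mul_le_mul_of_nonneg_left h8 hε'.le)
  have h10 : Gs u th 0 (3 * R) / (3 * R) ^ 6 ≤ ε / 729 := by
    have : (5 + 1 : ℕ) = 6 := rfl
    have h2' : Gs u th 0 (3 * R) / (3 * R) ^ 6 ≤ 2 * (Th u th 0 (3 * R) - Th u th 0 r)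
        + G / (3 * R) ^ 6 := h2
    have h11 : ε / 729 = 3 * (ε / (3 * 729)) := by ring
    rw [h11]
    linarith
  rw [div_le_iff₀ (by positivity)] at h10
  have h12 : ε / 729 * (3 * R) ^ 6 = ε * R ^ 6 := by ring
  linarith

/-- The Modica deficit is small in the mean. -/
lemma defi_small (hu : Sol u) (hK : ∀ R : ℝ, 1 ≤ R → ∫ x in box 5 R, psi u x ^ 2 ≤ K * R ^ 4)
    {ε : ℝ} (hε : 0 < ε) : ∃ R₀ : ℝ, ∀ R, R₀ ≤ R → ∫ x in box 5 R, defi u x ≤ ε * R ^ 4 := by
  have hε' : 0 < ε / (64 * 81) := by positivity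
  obtain ⟨r, hr, h1⟩ := Th_cauchy hu hK hε'
  refine ⟨r, fun R hR => ?_⟩
  have hR1 : 1 ≤ R := le_trans hr hR
  have hR0 : 0 < R := by linarith
  set ρ₀ := 3 * R with hρ₀
  have hρp : 0 < ρ₀ := by positivity
  set D : ℝ → ℝ := fun ρ => ∫ x, cr th ρ (x - 0) * defi u x with hD
  have hD0 : ∀ ρ, 0 ≤ D ρ := fun ρ => integral_nonneg fun x =>
    mul_nonneg (cr_nonneg prof_th _ _) (hu.defi_nonneg x)
  have hDm : ∀ ρ, ρ₀ ≤ ρ → D ρ₀ ≤ D ρ := by
    intro ρ hρ
    apply integral_mono
    · exact integrable_crY th_contDiff (fun t ht => th_zero ht) hρp 0 hu.defi_continuous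
    · exact integrable_crY th_contDiff (fun t ht => th_zero ht) (by linarith) 0 hu.defi_continuous
    · intro x
      simp only
      apply mul_le_mul_of_nonneg_right _ (hu.defi_nonneg x)
      unfold cr
      apply th_antitone
      apply div_le_div_of_nonneg_left (rho_nonneg _ _) (by positivity)
      exact pow_le_pow_left₀ hρp.le hρ 2
  set F : ℝ → ℝ := fun ρ => Th u th 0 ρ - D ρ₀ / (2 * (2 * ρ₀) ^ 5) * ρ with hF
  have hder : ∀ ρ, 0 < ρ → HasDerivAt F (dTh u th 0 ρ / ρ ^ 5 - D ρ₀ / (2 * (2 * ρ₀) ^ 5)) ρ := by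
    intro ρ hρ
    have := ((hasDerivAt_id ρ).const_mul (D ρ₀ / (2 * (2 * ρ₀) ^ 5)))
    simp only [mul_one] at this
    exact (hasDerivAt_Th (by norm_num) hu th_contDiff (fun t ht => th_zero ht) 0 hρ).sub this
  have hmono : MonotoneOn F (Set.Icc ρ₀ (2 * ρ₀)) := by
    apply monotoneOn_of_deriv_nonneg (convex_Icc _ _)
    · intro ρ hρ
      exact (hder ρ (lt_of_lt_of_le hρp hρ.1)).continuousAt.continuousWithinAt
    · intro ρ hρ
      rw [interior_Icc] at hρ
      exact (hder ρ (hρp.trans hρ.1)).differentiableAt.differentiableWithinAt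
    · intro ρ hρ
      rw [interior_Icc] at hρ
      have hρ0 : 0 < ρ := hρp.trans hρ.1
      rw [(hder ρ hρ0).deriv, dTh_split hu prof_th 0 hρ0]
      have h2 : 0 ≤ ∫ x, (- deriv th (rho Finset.univ (x - 0) / ρ ^ 2)) * sY u 0 x ^ 2 :=
        integral_nonneg fun x => mul_nonneg (neg_nonneg.mpr (prof_th.anti _)) (sq_nonneg _)
      have h3 : D ρ₀ / (2 * (2 * ρ₀) ^ 5) ≤ 1 / 2 * D ρ / ρ ^ 5 := by
        have h4 : D ρ₀ / (2 * (2 * ρ₀) ^ 5) = 1 / 2 * D ρ₀ / (2 * ρ₀) ^ 5 := by ring
        rw [h4]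
        apply div_le_div₀
        · have := hD0 ρ; positivity
        · have := hDm ρ hρ.1.le; linarith
        · positivity
        · exact pow_le_pow_left₀ hρ0.le hρ.2.le 5
      have h5 : (1 / 2 * D ρ) / ρ ^ 5 ≤ (1 / 2 * (∫ x, cr th ρ (x - 0) * defi u x) + 2 / ρ ^ 2
          * ∫ x, (- deriv th (rho Finset.univ (x - 0) / ρ ^ 2)) * sY u 0 x ^ 2) / ρ ^ 5 := by
        apply div_le_div_of_nonneg_right _ (by positivity)
        have : 0 ≤ 2 / ρ ^ 2
          * ∫ x, (- deriv th (rho Finset.univ (x - 0) / ρ ^ 2)) * sY u 0 x ^ 2 := by positivity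
        simp only [hD]
        linarith
      linarith
  have hm := hmono ⟨le_refl _, by linarith⟩ ⟨by linarith, le_refl _⟩ (show ρ₀ ≤ 2 * ρ₀ by linarith)
  simp only [hF] at hm
  have h6 := h1 (2 * ρ₀) (by linarith)
  have h7 : Th u th 0 r ≤ Th u th 0 ρ₀ := by
    apply Th_mono (by norm_num) hu prof_th 0
    · exact (show (0:ℝ) < r by linarith)
    · exact hρp
    · linarith
  have h8 : D ρ₀ / (2 * (2 * ρ₀) ^ 5) * ρ₀ ≤ ε / (64 * 81) := by linarith
  have h9 : D ρ₀ / (2 * (2 * ρ₀) ^ 5) * ρ₀ = D ρ₀ / (64 * ρ₀ ^ 4) := by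
    field_simp
    ring
  rw [h9, div_le_iff₀ (by positivity)] at h8
  have h10 : ∫ x in box 5 R, defi u x ≤ D ρ₀ := by
    have := box_le_cr (f := defi u) hR0 hu.defi_continuous hu.defi_nonneg
    simpa [hD] using this
  have h11 : ε / (64 * 81) * (64 * ρ₀ ^ 4) = ε * R ^ 4 := by
    rw [hρ₀]; ring
  linarith


/-- The horizontal part of the energy. -/
noncomputable def QH (u : (Fin 5 → ℝ) → ℝ) (x : Fin 5 → ℝ) : ℝ := Q2 0 1 u x + Q2 2 3 u x

lemma QH_nonneg (u : (Fin 5 → ℝ) → ℝ) (x) : 0 ≤ QH u x := by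
  unfold QH Q2; positivity

lemma QH_cont (hu : Sol u) : Continuous (QH u) := by
  have h : ∀ j, Continuous (pd j u) := fun j => (contDiff_pd_one hu.c2).continuous
  unfold QH Q2
  exact (((h 0).pow 2).add ((h 1).pow 2)).add (((h 2).pow 2).add ((h 3).pow 2))

lemma sum_pd (u : (Fin 5 → ℝ) → ℝ) (x) : ∑ j, pd j u x ^ 2 = QH u x + pd 4 u x ^ 2 := by
  rw [Fin.sum_univ_five]
  unfold QH Q2
  ring

/-- The stress identity for the field `x₄ cr e₄`. -/
lemma stress_id (hu : Sol u) {R : ℝ} (hR : 0 < R) :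
    ∫ x, cr th R x * (QH u x + defi u x / 2)
      = ∫ x, (-deriv th (rho Finset.univ x / R ^ 2)) * (2 / R ^ 2) *
          (x 4 ^ 2 * en u x - x 4 * pd 4 u x * sx u x) := by
  have cw : ContDiff ℝ 1 (cr (n := 5) th R) := cr_contDiff th_contDiff R
  have sw : HasCompactSupport (cr (n := 5) th R) :=
    cr_hasCompactSupport (fun t ht => th_zero ht) hR
  have c4 : ContDiff ℝ 1 (fun x : Fin 5 → ℝ => x 4) := by fun_prop
  have hX : ContDiff ℝ 1 (fun x : Fin 5 → ℝ => x 4 * cr th R x) := c4.mul cw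
  have hc : HasCompactSupport (fun x : Fin 5 → ℝ => x 4 * cr th R x) := sw.mul_left
  have h := stress_comp hu 4 hX hc
  have hpd : ∀ (i : Fin 5) (x : Fin 5 → ℝ), pd i (fun x : Fin 5 → ℝ => x 4 * cr th R x) x
      = x 4 * (deriv th (rho Finset.univ x / R ^ 2) * (2 * x i / R ^ 2))
        + cr th R x * (if (4 : Fin 5) = i then 1 else 0) := by
    intro i x
    rw [pd_mul (c4.differentiable (by norm_num) x) (cw.differentiable (by norm_num) x),
      pd_cr th_contDiff, pd_coord]
  have cpu : ∀ j, Continuous (pd j u) := fun j => (contDiff_pd_one hu.c2).continuous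
  have cen := (en_contDiff hu.c2).continuous
  have csx : Continuous (sx u) := sx_continuous (hu.c2.of_le (by norm_num))
  have e1 : ∀ x, pd 4 u x * ∑ i, pd i u x * pd i (fun x : Fin 5 → ℝ => x 4 * cr th R x) x
      = cr th R x * pd 4 u x ^ 2
        + deriv th (rho Finset.univ x / R ^ 2) * (2 / R ^ 2 * (x 4 * pd 4 u x * sx u x)) := by
    intro x
    simp_rw [hpd]
    unfold sx
    simp only [Fin.sum_univ_five]
    simp
    ring
  have e2 : ∀ x, en u x * pd 4 (fun x : Fin 5 → ℝ => x 4 * cr th R x) x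
      = cr th R x * en u x
        + deriv th (rho Finset.univ x / R ^ 2) * (2 / R ^ 2 * (x 4 ^ 2 * en u x)) := by
    intro x
    rw [hpd]
    simp
    ring
  simp_rw [e1, e2] at h
  have ic : ∀ {g : (Fin 5 → ℝ) → ℝ}, Continuous g → Integrable (fun x => cr th R x * g x) := by
    intro g hg
    have := integrable_crY (g := g) th_contDiff (fun t ht => th_zero ht) hR (0 : Fin 5 → ℝ) hg
    simpa using this
  have id : ∀ {g : (Fin 5 → ℝ) → ℝ}, Continuous g →
      Integrable (fun x => deriv th (rho Finset.univ x / R ^ 2) * g x) := by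
    intro g hg
    have := integrable_dcrY (g := g) th_contDiff (fun t ht => th_zero ht) hR (0 : Fin 5 → ℝ) hg
    simpa using this
  have cx4 : Continuous (fun x : Fin 5 → ℝ => x 4) := continuous_apply 4
  have i1 : Integrable (fun x => cr th R x * pd 4 u x ^ 2) := ic ((cpu 4).pow 2)
  have i2 : Integrable (fun x : Fin 5 → ℝ => deriv th (rho Finset.univ x / R ^ 2)
      * (2 / R ^ 2 * (x 4 * pd 4 u x * sx u x))) :=
    id (continuous_const.mul ((cx4.mul (cpu 4)).mul csx))
  have i3 : Integrable (fun x => cr th R x * en u x) := ic cen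
  have i4 : Integrable (fun x : Fin 5 → ℝ => deriv th (rho Finset.univ x / R ^ 2)
      * (2 / R ^ 2 * (x 4 ^ 2 * en u x))) := id (continuous_const.mul ((cx4.pow 2).mul cen))
  rw [integral_add i1 i2, integral_add i3 i4] at h
  have e3 : ∀ x, cr th R x * (QH u x + defi u x / 2)
      = cr th R x * en u x - cr th R x * pd 4 u x ^ 2 := by
    intro x
    rw [en_split, sum_pd]
    ring
  have e4 : ∀ x, (-deriv th (rho Finset.univ x / R ^ 2)) * (2 / R ^ 2) *
          (x 4 ^ 2 * en u x - x 4 * pd 4 u x * sx u x)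
      = deriv th (rho Finset.univ x / R ^ 2) * (2 / R ^ 2 * (x 4 * pd 4 u x * sx u x))
        - deriv th (rho Finset.univ x / R ^ 2) * (2 / R ^ 2 * (x 4 ^ 2 * en u x)) := by
    intro x; ring
  simp_rw [e3, e4]
  rw [integral_sub i3 i1, integral_sub i2 i4]
  linarith


lemma box_sq {L : ℝ} {x : Fin 5 → ℝ} (hx : x ∈ box 5 L) (i : Fin 5) : x i ^ 2 ≤ L ^ 2 := by
  have := mem_box.mp hx i
  rw [← sq_abs]
  exact pow_le_pow_left₀ (abs_nonneg _) this 2

/-- The part of the box away from the hyperplane `x₄ = 0`. -/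
def AA (s L : ℝ) : Set (Fin 5 → ℝ) := {x | x ∈ box 5 L ∧ Real.sqrt s * L ≤ |x 4|}

lemma meas_AA (s L : ℝ) : MeasurableSet (AA s L) := by
  apply MeasurableSet.inter (meas_box L)
  exact (isClosed_le continuous_const (continuous_apply (4 : Fin 5)).abs).measurableSet

lemma key_pt (hu : Sol u) {L s : ℝ} (hL : 0 < L) (hs : 0 < s) {x : Fin 5 → ℝ}
    (hx : x ∈ box 5 L) :
    x 4 ^ 2 * en u x + |x 4 * pd 4 u x * sx u x| ≤ 2 * s * L ^ 2 * en u x
      + (AA s L).indicator (fun x => 9 * L ^ 2 * QH u x) x + (2 + 1 / (2 * s)) * sx u x ^ 2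
      + L ^ 2 / 2 * defi u x := by
  have hen := en_nonneg u x
  have hQ := QH_nonneg u x
  have hde := hu.defi_nonneg x
  have hes : en u x = QH u x + pd 4 u x ^ 2 + defi u x / 2 := by rw [en_split, sum_pd]
  have h4 := box_sq hx 4
  have hp : pd 4 u x ^ 2 ≤ en u x := by rw [hes]; linarith
  -- Young
  have hy : |x 4 * pd 4 u x * sx u x| ≤ s * L ^ 2 * en u x + 1 / (2 * s) * sx u x ^ 2 := by
    have h1 : |x 4 * pd 4 u x * sx u x| ≤ s / 2 * (x 4 * pd 4 u x) ^ 2
        + 1 / (2 * s) * sx u x ^ 2 := by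
      have h2 : s / 2 * (x 4 * pd 4 u x) ^ 2 + 1 / (2 * s) * sx u x ^ 2
          = 1 / (2 * s) * ((s * (x 4 * pd 4 u x)) ^ 2 + sx u x ^ 2) := by
        field_simp
      rw [h2, abs_le]
      have h3 : x 4 * pd 4 u x * sx u x = 1 / (2 * s) * (2 * (s * (x 4 * pd 4 u x)) * sx u x) := by
        field_simp
      rw [h3]
      have h5 : 0 < 1 / (2 * s) := by positivity
      constructor
      · rw [← mul_neg]
        apply mul_le_mul_of_nonneg_left _ h5.le
        nlinarith [sq_nonneg (s * (x 4 * pd 4 u x) + sx u x)]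
      · apply mul_le_mul_of_nonneg_left _ h5.le
        nlinarith [sq_nonneg (s * (x 4 * pd 4 u x) - sx u x)]
    have h6 : (x 4 * pd 4 u x) ^ 2 ≤ L ^ 2 * en u x := by
      rw [mul_pow]
      exact mul_le_mul h4 hp (sq_nonneg _) (sq_nonneg _)
    have h7 : s / 2 * (x 4 * pd 4 u x) ^ 2 ≤ s * L ^ 2 * en u x := by
      have h8 := mul_le_mul_of_nonneg_left h6 (show 0 ≤ s / 2 by positivity)
      have h9 : 0 ≤ s / 2 * (L ^ 2 * en u x) := by positivity
      linarith
    linarith
  -- the main term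
  have hm : x 4 ^ 2 * en u x ≤ s * L ^ 2 * en u x
      + (AA s L).indicator (fun x => 9 * L ^ 2 * QH u x) x + 2 * sx u x ^ 2
      + L ^ 2 / 2 * defi u x := by
    by_cases hA : x ∈ AA s L
    · rw [Set.indicator_of_mem hA]
      have h1 : (x 4 * pd 4 u x) ^ 2 ≤ 2 * sx u x ^ 2 + 8 * L ^ 2 * QH u x := by
        set y := x 0 * pd 0 u x + x 1 * pd 1 u x + x 2 * pd 2 u x + x 3 * pd 3 u x with hy'
        have h2 : x 4 * pd 4 u x = sx u x - y := by
          unfold sx
          rw [Fin.sum_univ_five, hy']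
          ring
        have h3 : y ^ 2 ≤ 4 * L ^ 2 * QH u x := by
          have h0 := box_sq hx 0
          have h1 := box_sq hx 1
          have h2 := box_sq hx 2
          have h3 := box_sq hx 3
          have h5 : y ^ 2 ≤ (x 0 ^ 2 + x 1 ^ 2 + x 2 ^ 2 + x 3 ^ 2) * QH u x := by
            rw [hy']
            unfold QH Q2
            nlinarith [sq_nonneg (x 0 * pd 1 u x - x 1 * pd 0 u x),
              sq_nonneg (x 0 * pd 2 u x - x 2 * pd 0 u x),
              sq_nonneg (x 0 * pd 3 u x - x 3 * pd 0 u x),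
              sq_nonneg (x 1 * pd 2 u x - x 2 * pd 1 u x),
              sq_nonneg (x 1 * pd 3 u x - x 3 * pd 1 u x),
              sq_nonneg (x 2 * pd 3 u x - x 3 * pd 2 u x)]
          have h6 : x 0 ^ 2 + x 1 ^ 2 + x 2 ^ 2 + x 3 ^ 2 ≤ 4 * L ^ 2 := by linarith
          exact h5.trans (mul_le_mul_of_nonneg_right h6 hQ)
        rw [h2]
        nlinarith [sq_nonneg (sx u x + y)]
      have h10 : x 4 ^ 2 * en u x ≤ L ^ 2 * QH u x + (x 4 * pd 4 u x) ^ 2 + L ^ 2 / 2 * defi u x := by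
        rw [hes, mul_pow]
        have h11 := mul_le_mul_of_nonneg_right h4 hQ
        have h12 := mul_le_mul_of_nonneg_right h4 hde
        linarith
      have h13 : 0 ≤ s * L ^ 2 * en u x := by positivity
      linarith
    · rw [Set.indicator_of_notMem hA]
      have h1 : |x 4| < Real.sqrt s * L := by
        by_contra hc
        exact hA ⟨hx, not_lt.mp hc⟩
      have h2 : x 4 ^ 2 ≤ s * L ^ 2 := by
        rw [← sq_abs]
        have h3 := pow_le_pow_left₀ (abs_nonneg _) h1.le 2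
        rw [mul_pow, Real.sq_sqrt hs.le] at h3
        exact h3
      have h3 := mul_le_mul_of_nonneg_right h2 hen
      have h4 : 0 ≤ L ^ 2 / 2 * defi u x := by positivity
      have h5 : 0 ≤ 2 * sx u x ^ 2 := by positivity
      linarith
  have e : (2 + 1 / (2 * s)) * sx u x ^ 2 = 2 * sx u x ^ 2 + 1 / (2 * s) * sx u x ^ 2 := by ring
  rw [e]
  linarith


lemma int_key (hu : Sol u) {C : ℝ} (hC : ∀ t, |deriv th t| ≤ C) {R s : ℝ} (hR : 0 < R)
    (hs : 0 < s) :
    ∫ x, cr th R x * QH u x ≤ 2 * C / R ^ 2 * (2 * s * (2 * R) ^ 2 * (∫ x in box 5 (2 * R), en u x)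
      + 9 * (2 * R) ^ 2 * (∫ x in AA s (2 * R), QH u x)
      + (2 + 1 / (2 * s)) * (∫ x in box 5 (2 * R), sx u x ^ 2)
      + (2 * R) ^ 2 / 2 * (∫ x in box 5 (2 * R), defi u x)) := by
  have hC0 : 0 ≤ C := (abs_nonneg _).trans (hC 0)
  have hL : 0 < 2 * R := by positivity
  have cpu : ∀ j, Continuous (pd j u) := fun j => (contDiff_pd_one hu.c2).continuous
  have cen := (en_contDiff hu.c2).continuous
  have csx : Continuous (sx u) := sx_continuous (hu.c2.of_le (by norm_num))
  have cx4 : Continuous (fun x : Fin 5 → ℝ => x 4) := continuous_apply 4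
  have cQ := QH_cont hu
  have cde := hu.defi_continuous
  have ic : ∀ {g : (Fin 5 → ℝ) → ℝ}, Continuous g → Integrable (fun x => cr th R x * g x) := by
    intro g hg
    have := integrable_crY (g := g) th_contDiff (fun t ht => th_zero ht) hR (0 : Fin 5 → ℝ) hg
    simpa using this
  have id : ∀ {g : (Fin 5 → ℝ) → ℝ}, Continuous g →
      Integrable (fun x => deriv th (rho Finset.univ x / R ^ 2) * g x) := by
    intro g hg
    have := integrable_dcrY (g := g) th_contDiff (fun t ht => th_zero ht) hR (0 : Fin 5 → ℝ) hg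
    simpa using this
  -- first step
  have h1 : ∫ x, cr th R x * QH u x ≤ ∫ x, cr th R x * (QH u x + defi u x / 2) := by
    have j1 : Integrable (fun x => cr th R x * QH u x) := ic cQ
    have j2 : Integrable (fun x => cr th R x * (QH u x + defi u x / 2)) :=
      ic (cQ.add (cde.div_const 2))
    apply integral_mono j1 j2
    intro x
    simp only
    apply mul_le_mul_of_nonneg_left _ (cr_nonneg prof_th _ _)
    have := hu.defi_nonneg x
    linarith
  rw [stress_id hu hR] at h1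
  -- second step
  set G : (Fin 5 → ℝ) → ℝ := fun x => x 4 ^ 2 * en u x + |x 4 * pd 4 u x * sx u x| with hG
  have cG : Continuous G := ((cx4.pow 2).mul cen).add (((cx4.mul (cpu 4)).mul csx).abs)
  have hG0 : ∀ x, 0 ≤ G x := fun x =>
    add_nonneg (mul_nonneg (sq_nonneg _) (en_nonneg _ _)) (abs_nonneg _)
  have h2 : ∫ x, (-deriv th (rho Finset.univ x / R ^ 2)) * (2 / R ^ 2) *
          (x 4 ^ 2 * en u x - x 4 * pd 4 u x * sx u x)
      ≤ ∫ x in box 5 (2 * R), 2 * C / R ^ 2 * G x := by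
    rw [← integral_indicator (meas_box _)]
    apply integral_mono
    · have := (id ((continuous_const (y := (2 / R ^ 2 : ℝ))).mul
        (((cx4.pow 2).mul cen).sub ((cx4.mul (cpu 4)).mul csx)))).neg
      refine this.congr (Eventually.of_forall fun x => ?_)
      simp only [Pi.neg_apply, Pi.mul_apply, Pi.sub_apply, Pi.pow_apply]
      ring
    · exact (integrable_indicator_iff (meas_box _)).mpr (intOn (continuous_const.mul cG) _)
    · intro x
      simp only
      by_cases hx : x ∈ box 5 (2 * R)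
      · rw [Set.indicator_of_mem hx]
        have h3 : x 4 ^ 2 * en u x - x 4 * pd 4 u x * sx u x ≤ G x := by
          simp only [hG]
          have := neg_abs_le (x 4 * pd 4 u x * sx u x)
          linarith
        have h4 : 0 ≤ -deriv th (rho Finset.univ x / R ^ 2) := neg_nonneg.mpr (prof_th.anti _)
        have h5 : -deriv th (rho Finset.univ x / R ^ 2) ≤ C :=
          (neg_le_abs _).trans (hC _)
        calc (-deriv th (rho Finset.univ x / R ^ 2)) * (2 / R ^ 2) *
              (x 4 ^ 2 * en u x - x 4 * pd 4 u x * sx u x)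
            ≤ (-deriv th (rho Finset.univ x / R ^ 2)) * (2 / R ^ 2) * G x :=
              mul_le_mul_of_nonneg_left h3 (by positivity)
          _ ≤ C * (2 / R ^ 2) * G x := by
              apply mul_le_mul_of_nonneg_right _ (hG0 x)
              exact mul_le_mul_of_nonneg_right h5 (by positivity)
          _ = 2 * C / R ^ 2 * G x := by ring
      · rw [Set.indicator_of_notMem hx]
        have : deriv th (rho Finset.univ x / R ^ 2) = 0 := by
          by_contra hc
          exact hx (dcr_supp hR hc)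
        rw [this]
        simp
  rw [integral_const_mul] at h2
  -- third step
  have i1 : IntegrableOn (fun x => 2 * s * (2 * R) ^ 2 * en u x) (box 5 (2 * R)) :=
    intOn (continuous_const.mul cen) _
  have i2 : IntegrableOn (fun x => (AA s (2 * R)).indicator (fun x => 9 * (2 * R) ^ 2 * QH u x) x)
      (box 5 (2 * R)) := (intOn (continuous_const.mul cQ) _).indicator (meas_AA _ _)
  have i3 : IntegrableOn (fun x => (2 + 1 / (2 * s)) * sx u x ^ 2) (box 5 (2 * R)) :=
    intOn (continuous_const.mul (csx.pow 2)) _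
  have i4 : IntegrableOn (fun x => (2 * R) ^ 2 / 2 * defi u x) (box 5 (2 * R)) :=
    intOn (continuous_const.mul cde) _
  have i12 : IntegrableOn (fun x => 2 * s * (2 * R) ^ 2 * en u x
      + (AA s (2 * R)).indicator (fun x => 9 * (2 * R) ^ 2 * QH u x) x) (box 5 (2 * R)) := i1.add i2
  have i123 : IntegrableOn (fun x => 2 * s * (2 * R) ^ 2 * en u x
      + (AA s (2 * R)).indicator (fun x => 9 * (2 * R) ^ 2 * QH u x) x
      + (2 + 1 / (2 * s)) * sx u x ^ 2) (box 5 (2 * R)) := i12.add i3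
  have h3 : ∫ x in box 5 (2 * R), G x ≤ ∫ x in box 5 (2 * R), (2 * s * (2 * R) ^ 2 * en u x
      + (AA s (2 * R)).indicator (fun x => 9 * (2 * R) ^ 2 * QH u x) x
      + (2 + 1 / (2 * s)) * sx u x ^ 2 + (2 * R) ^ 2 / 2 * defi u x) := by
    apply setIntegral_mono_on (intOn cG _) (i123.add i4) (meas_box _)
    intro x hx
    exact key_pt hu hL hs hx
  have h4 : ∫ x in box 5 (2 * R), (2 * s * (2 * R) ^ 2 * en u x
      + (AA s (2 * R)).indicator (fun x => 9 * (2 * R) ^ 2 * QH u x) x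
      + (2 + 1 / (2 * s)) * sx u x ^ 2 + (2 * R) ^ 2 / 2 * defi u x)
      = 2 * s * (2 * R) ^ 2 * (∫ x in box 5 (2 * R), en u x)
      + 9 * (2 * R) ^ 2 * (∫ x in AA s (2 * R), QH u x)
      + (2 + 1 / (2 * s)) * (∫ x in box 5 (2 * R), sx u x ^ 2)
      + (2 * R) ^ 2 / 2 * (∫ x in box 5 (2 * R), defi u x) := by
    rw [integral_add i123 i4, integral_add i12 i3, integral_add i1 i2,
      integral_const_mul, integral_const_mul, integral_const_mul,
      setIntegral_indicator (meas_AA _ _), integral_const_mul]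
    have : box 5 (2 * R) ∩ AA s (2 * R) = AA s (2 * R) := by
      apply Set.inter_eq_right.mpr
      exact fun x hx => hx.1
    rw [this]
  rw [h4] at h3
  calc ∫ x, cr th R x * QH u x ≤ 2 * C / R ^ 2 * ∫ x in box 5 (2 * R), G x := h1.trans h2
    _ ≤ _ := mul_le_mul_of_nonneg_left h3 (by positivity)

end five

end RowI


open RowI in
/-- ROW I. -/
theorem stI : StI := by
  intro u K hu hK hA ε hε
  obtain ⟨C, hC1, hC⟩ := exists_th_bound
  have hC0 : 0 < C := by linarith
  set K' : ℝ := |K| + 1 with hK'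
  have hK'0 : 0 < K' := by positivity
  have hKK : K ≤ K' := (le_abs_self K).trans (by linarith)
  set θ : ℝ := ε / (1296 * (8 * C)) with hθ
  have hθ0 : 0 < θ := by positivity
  set s : ℝ := θ / (4 * K') with hs
  have hs0 : 0 < s := by positivity
  have hδ : 0 < Real.sqrt s := Real.sqrt_pos.mpr hs0
  obtain ⟨R₁, h1⟩ := hA (Real.sqrt s) (θ / 36) hδ (by positivity)
  obtain ⟨R₂, h2⟩ := sx_small hu hK (show 0 < θ / (4 * (2 + 1 / (2 * s))) by positivity)
  obtain ⟨R₃, h3⟩ := defi_small hu hK (show 0 < θ / 2 by positivity)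
  refine ⟨max 1 (max R₁ (max R₂ R₃)), fun r hr => ?_⟩
  have hr1 : 1 ≤ r := le_trans (le_max_left _ _) hr
  have hrR1 : R₁ ≤ r := le_trans ((le_max_left _ _).trans (le_max_right _ _)) hr
  have hrR2 : R₂ ≤ r := le_trans (((le_max_left _ _).trans (le_max_right _ _)).trans
    (le_max_right _ _)) hr
  have hrR3 : R₃ ≤ r := le_trans (((le_max_right _ _).trans (le_max_right _ _)).trans
    (le_max_right _ _)) hr
  have hr0 : 0 < r := by linarith
  have hb : ∫ x in box 5 r, (Q2 0 1 u x + Q2 2 3 u x) ≤ ∫ x, cr th (3 * r) x * QH u x :=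
    box_le_cr (f := QH u) hr0 (QH_cont hu) (QH_nonneg u)
  have hk := int_key hu hC (show 0 < 3 * r by positivity) hs0
  set L : ℝ := 2 * (3 * r) with hL
  have hL1 : r ≤ L := by rw [hL]; linarith
  have hL0 : 0 < L := by linarith
  have e1 : ∫ x in box 5 L, en u x ≤ K' * L ^ 4 / 2 := by
    have h4 : ∫ x in box 5 L, en u x ≤ ∫ x in box 5 L, psi u x ^ 2 / 2 := by
      apply setIntegral_mono_on (intOn (en_contDiff hu.c2).continuous _)
        (intOn ((psi_cont hu).div_const 2) _) (meas_box _)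
      intro x _
      exact en_le_psi hu x
    rw [integral_div] at h4
    have h5 := hK L (by linarith)
    have h6 : K * L ^ 4 ≤ K' * L ^ 4 := mul_le_mul_of_nonneg_right hKK (by positivity)
    linarith
  have e2 : ∫ x in AA s L, QH u x ≤ θ / 36 * L ^ 4 := h1 L (by linarith)
  have e3 : ∫ x in box 5 L, sx u x ^ 2 ≤ θ / (4 * (2 + 1 / (2 * s))) * L ^ 6 :=
    h2 L (by linarith)
  have e4 : ∫ x in box 5 L, defi u x ≤ θ / 2 * L ^ 4 := h3 L (by linarith)
  have f1 : 2 * s * L ^ 2 * (∫ x in box 5 L, en u x) ≤ θ / 4 * L ^ 6 := by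
    have := mul_le_mul_of_nonneg_left e1 (show 0 ≤ 2 * s * L ^ 2 by positivity)
    refine this.trans (le_of_eq ?_)
    rw [hs]; field_simp
  have f2 : 9 * L ^ 2 * (∫ x in AA s L, QH u x) ≤ θ / 4 * L ^ 6 := by
    have := mul_le_mul_of_nonneg_left e2 (show 0 ≤ 9 * L ^ 2 by positivity)
    refine this.trans (le_of_eq ?_)
    ring
  have f3 : (2 + 1 / (2 * s)) * (∫ x in box 5 L, sx u x ^ 2) ≤ θ / 4 * L ^ 6 := by
    have h7 : 0 < 2 + 1 / (2 * s) := by positivity
    have := mul_le_mul_of_nonneg_left e3 h7.le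
    refine this.trans (le_of_eq ?_)
    field_simp
  have f4 : L ^ 2 / 2 * (∫ x in box 5 L, defi u x) ≤ θ / 4 * L ^ 6 := by
    have := mul_le_mul_of_nonneg_left e4 (show 0 ≤ L ^ 2 / 2 by positivity)
    refine this.trans (le_of_eq ?_)
    ring
  have g1 : 0 ≤ 2 * C / (3 * r) ^ 2 := by positivity
  have g2 := mul_le_mul_of_nonneg_left (add_le_add (add_le_add (add_le_add f1 f2) f3) f4) g1
  have g3 : 2 * C / (3 * r) ^ 2 * (θ / 4 * L ^ 6 + θ / 4 * L ^ 6 + θ / 4 * L ^ 6
      + θ / 4 * L ^ 6) = ε * r ^ 4 := by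
    rw [hθ, hL]; field_simp; ring
  calc ∫ x in box 5 r, (Q2 0 1 u x + Q2 2 3 u x) ≤ ∫ x, cr th (3 * r) x * QH u x := hb
    _ ≤ _ := hk
    _ ≤ _ := g2
    _ = ε * r ^ 4 := g3

end Vale.Agent.P134.B331
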