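import Vale.Agent.P134.B331.Defs
import Vale.Agent.P134.H775.K

set_option linter.all false

/-! Row K. -/

open MeasureTheory Filter Topology

namespace Vale.Agent.P134.B331

open Vale.Agent.P134 Vale.Agent.P134.SM

/-- Row K: stability tested with `φ √(|∂_p u|²+|∂_q u|²)`. -/
theorem stK : StK := by
  intro n C u hu p q g hg hle φ hφ hc
  obtain ⟨K0, hC0, hC1, hC2, -⟩ := hu.toSol.exists_bound
  have hVc : Continuous (fun x => 3 * u x ^ 2 - 1) :=
    (continuous_const.mul (hu.c2.continuous.pow 2)).sub continuous_const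
  have hs := H775.stb_of_hypN hVc hu.hyp
  have hcp : Continuous (pd p u) := (contDiff_pd_one hu.c2).continuous
  have hcq : Continuous (pd q u) := (contDiff_pd_one hu.c2).continuous
  have hQc : Continuous (Q2 p q u) := (hcp.pow 2).add (hcq.pow 2)
  have hQ0 : ∀ x, 0 ≤ Q2 p q u x := fun x => by unfold Q2; positivity
  have hc2 : HasCompactSupport (fun x => φ x ^ 2) := hcs_sq hc
  have h1 := H775.K_ineq (contDiff_pd_one hu.c2) (contDiff_pd_one hu.c2) hVc
    (hu.toSol.weakLin hC1 hC2 p) (hu.toSol.weakLin hC1 hC2 q) hs hφ hc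
    (P := fun x => max (g x) 0) (hg.max continuous_const) (fun x => le_max_right _ _) ?_
  · refine le_trans ?_ h1
    refine integral_mono ?_ ?_ fun x => ?_
    · exact ((hφ.continuous.pow 2).mul (hg.mul hQc)).integrable_of_hasCompactSupport hc2.mul_right
    · exact (hQc.mul ((hg.max continuous_const).mul
        (hφ.continuous.pow 2))).integrable_of_hasCompactSupport (hc2.mul_left.mul_left)
    · show φ x ^ 2 * (g x * Q2 p q u x) ≤ (pd p u x ^ 2 + pd q u x ^ 2) * (max (g x) 0 * φ x ^ 2)
      have h2 : φ x ^ 2 * Q2 p q u x * g x ≤ φ x ^ 2 * Q2 p q u x * max (g x) 0 :=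
        mul_le_mul_of_nonneg_left (le_max_left _ _) (mul_nonneg (sq_nonneg _) (hQ0 x))
      have h3 : Q2 p q u x = pd p u x ^ 2 + pd q u x ^ 2 := rfl
      rw [h3] at h2 ⊢
      linarith
  · intro x
    show max (g x) 0 * (pd p u x ^ 2 + pd q u x ^ 2) ^ 2 ≤ _
    rcases le_total (g x) 0 with h | h
    · rw [max_eq_right h, zero_mul]
      exact Finset.sum_nonneg fun _ _ => sq_nonneg _
    · rw [max_eq_left h]
      exact hle x

end Vale.Agent.P134.B331
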