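import Vale.Agent.P134.B331.Defs

set_option linter.all false

/-! Row N4: the top eigenplane of a skew map. -/

open MeasureTheory Filter Topology Module
open scoped InnerProductSpace

namespace Vale.Agent.P134.B331

open Vale.Agent.P134 Vale.Agent.P134.H765

theorem stN4 : StN4 := by
  intro n A hA hA0 p q hpq
  set E := EuclideanSpace ℝ (Fin n) with hE
  set T : E →ₗ[ℝ] E := (A : E →ₗ[ℝ] E) ∘ₗ (A : E →ₗ[ℝ] E) with hT
  have hTa : ∀ x, T x = A (A x) := fun x => rfl
  have hsym : T.IsSymmetric := by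
    intro x y
    rw [hTa, hTa, skew_swap hA x, ← neg_neg ⟪A (A x), y⟫_ℝ, ← skew_swap hA (A x) y]
  have hn : finrank ℝ E = n := finrank_euclideanSpace_fin
  haveI : Nonempty (Fin n) := ⟨p⟩
  obtain ⟨i, hi⟩ := Finite.exists_min (hsym.eigenvalues hn)
  set m : ℝ := hsym.eigenvalues hn i with hm
  -- the norm of `A x`
  have hnorm : ∀ x, ‖A x‖ ^ 2 ≤ (-m) * ‖x‖ ^ 2 := by
    intro x
    have h1 : ⟪x, T x⟫_ℝ = ∑ j, hsym.eigenvalues hn j * ⟪hsym.eigenvectorBasis hn j, x⟫_ℝ ^ 2 := by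
      rw [← (hsym.eigenvectorBasis hn).sum_inner_mul_inner x (T x)]
      refine Finset.sum_congr rfl fun j _ => ?_
      rw [← hsym, hsym.apply_eigenvectorBasis, inner_smul_left, real_inner_comm x]
      simp only [RCLike.ofReal_real_eq_id, id_eq, conj_trivial]
      ring
    have h2 : ‖A x‖ ^ 2 = - ⟪x, T x⟫_ℝ := by
      rw [hTa, skew_swap hA, neg_neg, real_inner_self_eq_norm_sq]
    have h3 : ‖x‖ ^ 2 = ∑ j, ⟪hsym.eigenvectorBasis hn j, x⟫_ℝ ^ 2 := by
      have := (hsym.eigenvectorBasis hn).sum_sq_norm_inner_right x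
      rw [← this]
      refine Finset.sum_congr rfl fun j _ => ?_
      rw [Real.norm_eq_abs, sq_abs]
    rw [h2, h1, h3, Finset.mul_sum, ← Finset.sum_neg_distrib]
    refine Finset.sum_le_sum fun j _ => ?_
    rw [← neg_mul]
    exact mul_le_mul_of_nonneg_right (neg_le_neg (hi j)) (sq_nonneg _)
  have hm0 : 0 < -m := by
    by_contra hcon
    push Not at hcon
    apply hA0
    ext1 x
    have h1 := hnorm x
    have h2 : (-m) * ‖x‖ ^ 2 ≤ 0 := mul_nonpos_of_nonpos_of_nonneg hcon (sq_nonneg _)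
    have h3 : ‖A x‖ ^ 2 = 0 := le_antisymm (h1.trans h2) (sq_nonneg _)
    have h4 : ‖A x‖ = 0 := pow_eq_zero_iff (two_ne_zero) |>.mp h3
    simpa using h4
  set l : ℝ := Real.sqrt (-m) with hl
  have hl0 : 0 < l := Real.sqrt_pos.mpr hm0
  have hl2 : l ^ 2 = -m := Real.sq_sqrt hm0.le
  set e1 : E := hsym.eigenvectorBasis hn i with he1
  have hn1 : ‖e1‖ = 1 := (hsym.eigenvectorBasis hn).orthonormal.1 i
  have hTe : A (A e1) = m • e1 := hsym.apply_eigenvectorBasis hn i
  set e2 : E := l⁻¹ • A e1 with he2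
  have hAn : ‖A e1‖ = l := by
    have h1 := skew_swap hA e1 (A e1)
    rw [hTe, inner_smul_right, real_inner_self_eq_norm_sq, real_inner_self_eq_norm_sq, hn1] at h1
    have h2 : ‖A e1‖ ^ 2 = l ^ 2 := by rw [hl2]; linarith
    exact (pow_left_inj₀ (norm_nonneg _) hl0.le two_ne_zero).mp h2
  have hn2 : ‖e2‖ = 1 := by
    rw [he2, norm_smul, norm_inv, Real.norm_eq_abs, abs_of_pos hl0, hAn]
    exact inv_mul_cancel₀ hl0.ne'
  have hB1 : A e1 = l • e2 := by
    rw [he2, smul_smul, mul_inv_cancel₀ hl0.ne', one_smul]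
  have hB2 : A e2 = -(l • e1) := by
    rw [he2, map_smul, hTe, smul_smul, ← neg_smul]
    congr 1
    have : m = -(l ^ 2) := by rw [hl2]; ring
    rw [this]
    field_simp
  have h12 : ⟪e1, e2⟫_ℝ = 0 := by
    rw [he2, inner_smul_right, hA e1, mul_zero]
  have s1 : ∑ k, (e1 k) ^ 2 = 1 := by
    have := EuclideanSpace.real_norm_sq_eq e1
    rw [hn1] at this
    rw [← this]; norm_num
  have s2 : ∑ k, (e2 k) ^ 2 = 1 := by
    have := EuclideanSpace.real_norm_sq_eq e2
    rw [hn2] at this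
    rw [← this]; norm_num
  have s3 : ∑ k, e1 k * e2 k = 0 := by
    have h := h12
    rw [PiLp.inner_apply] at h
    simp only [RCLike.inner_apply, conj_trivial] at h
    rw [← h]
    refine Finset.sum_congr rfl fun k _ => by ring
  obtain ⟨b, hb1, hb2⟩ := exists_basis_two hpq s1 s2 s3
  have hbp : b p = e1 := by ext k; exact hb1 k
  have hbq : b q = e2 := by ext k; exact hb2 k
  refine ⟨b, l, hl0, ?_, ?_, fun x => ?_⟩
  · rw [hbp, hbq]; exact hB1
  · rw [hbp, hbq]; exact hB2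
  · have h1 := hnorm x
    rw [← hl2, ← mul_pow] at h1
    exact (pow_le_pow_iff_left₀ (norm_nonneg _) (mul_nonneg hl0.le (norm_nonneg _))
      two_ne_zero).mp h1

end Vale.Agent.P134.B331
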