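import Vale.Agent.P134.B331.StN4

set_option linter.all false

/-! Row N5: normal form of skew maps of `ℝ⁵`. -/

open MeasureTheory Filter Topology Module
open scoped InnerProductSpace

namespace Vale.Agent.P134.B331

open Vale.Agent.P134 Vale.Agent.P134.H765

theorem stN5 : StN5 := by
  intro A hA hA0
  obtain ⟨b, l, hl, hb0, hb1, hbl⟩ := stN4 5 A hA hA0 0 1 (by decide)
  have ort : ∀ i j, ⟪b i, b j⟫_ℝ = if i = j then 1 else 0 := orthonormal_iff_ite.mp b.orthonormal
  have n0 : ⟪b 0, b 0⟫_ℝ = 1 := by rw [ort]; simp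
  have n1 : ⟪b 1, b 1⟫_ℝ = 1 := by rw [ort]; simp
  have n01 : ⟪b 0, b 1⟫_ℝ = 0 := by rw [ort]; simp
  have n10 : ⟪b 1, b 0⟫_ℝ = 0 := by rw [ort]; simp
  -- the part of `A` on the orthogonal complement of the top plane
  set A2 : EuclideanSpace ℝ (Fin 5) →L[ℝ] EuclideanSpace ℝ (Fin 5) :=
    A - (innerSL ℝ (b 0)).smulRight (A (b 0)) - (innerSL ℝ (b 1)).smulRight (A (b 1)) with hA2
  have hA2a : ∀ x, A2 x = A x - ⟪b 0, x⟫_ℝ • A (b 0) - ⟪b 1, x⟫_ℝ • A (b 1) := by
    intro x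
    simp only [hA2, sub_apply, ContinuousLinearMap.smulRight_apply, innerSL_apply_apply]
  have r0 : ∀ x, ⟪b 0, A2 x⟫_ℝ = 0 := by
    intro x
    rw [hA2a, inner_sub_right, inner_sub_right, inner_smul_right, inner_smul_right,
      skew_swap hA, hb0, hb1, inner_smul_left, inner_smul_right, inner_neg_right,
      inner_smul_right, n01, n0]
    simp only [conj_trivial]
    ring
  have r1 : ∀ x, ⟪b 1, A2 x⟫_ℝ = 0 := by
    intro x
    rw [hA2a, inner_sub_right, inner_sub_right, inner_smul_right, inner_smul_right,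
      skew_swap hA, hb0, hb1, inner_neg_left, inner_smul_left, inner_smul_right, inner_neg_right,
      inner_smul_right, n10, n1]
    simp only [conj_trivial]
    ring
  have hA2s : ∀ x, ⟪x, A2 x⟫_ℝ = 0 := by
    intro x
    have h1 : A2 x = A (x - ⟪b 0, x⟫_ℝ • b 0 - ⟪b 1, x⟫_ℝ • b 1) := by
      rw [hA2a, map_sub, map_sub, map_smul, map_smul]
    have h2 : ⟪x, A2 x⟫_ℝ = ⟪x - ⟪b 0, x⟫_ℝ • b 0 - ⟪b 1, x⟫_ℝ • b 1, A2 x⟫_ℝ := by
      rw [inner_sub_left, inner_sub_left, inner_smul_left, inner_smul_left, r0, r1]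
      simp
    rw [h2, h1]
    exact hA _
  by_cases h20 : A2 = 0
  · -- rank two
    have hz : ∀ x, ⟪b 0, x⟫_ℝ = 0 → ⟪b 1, x⟫_ℝ = 0 → A x = 0 := by
      intro x h1 h2
      have h3 := hA2a x
      rw [h20, h1, h2] at h3
      simpa using h3.symm
    refine ⟨b, l, 0, hl, le_rfl, hl.le, hb0, hb1, ?_, ?_, ?_⟩
    · rw [hz (b 2) (by rw [ort]; simp) (by rw [ort]; simp)]; simp
    · rw [hz (b 3) (by rw [ort]; simp) (by rw [ort]; simp)]; simp
    · exact hz (b 4) (by rw [ort]; simp) (by rw [ort]; simp)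
  · obtain ⟨b', m, hm, hb2, hb3, -⟩ := stN4 5 A2 hA2s h20 2 3 (by decide)
    have ort' : ∀ i j, ⟪b' i, b' j⟫_ℝ = if i = j then 1 else 0 :=
      orthonormal_iff_ite.mp b'.orthonormal
    -- the plane of `A2` is orthogonal to the top plane
    have o3 : ∀ y, (∀ x, ⟪y, A2 x⟫_ℝ = 0) → ⟪y, b' 3⟫_ℝ = 0 := by
      intro y hy
      have h1 := hy (b' 2)
      rw [hb2, inner_smul_right] at h1
      exact (mul_eq_zero.mp h1).resolve_left hm.ne'
    have o2 : ∀ y, (∀ x, ⟪y, A2 x⟫_ℝ = 0) → ⟪y, b' 2⟫_ℝ = 0 := by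
      intro y hy
      have h1 := hy (b' 3)
      rw [hb3, inner_neg_right, inner_smul_right, neg_eq_zero] at h1
      exact (mul_eq_zero.mp h1).resolve_left hm.ne'
    have p02 := o2 _ r0
    have p03 := o3 _ r0
    have p12 := o2 _ r1
    have p13 := o3 _ r1
    have hA2' : A (b' 2) = m • b' 3 := by
      have h1 := hA2a (b' 2)
      rw [hb2, p02, p12] at h1
      rw [h1]; simp
    have hA3' : A (b' 3) = -(m • b' 2) := by
      have h1 := hA2a (b' 3)
      rw [hb3, p03, p13] at h1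
      rw [h1]; simp
    have hml : m ≤ l := by
      have h1 := hbl (b' 2)
      rw [hA2', norm_smul, b'.orthonormal.1, b'.orthonormal.1, Real.norm_eq_abs,
        abs_of_pos hm, mul_one, mul_one] at h1
      exact h1
    have n2 : ⟪b' 2, b' 2⟫_ℝ = 1 := by rw [ort']; simp
    have n3 : ⟪b' 3, b' 3⟫_ℝ = 1 := by rw [ort']; simp
    have n23 : ⟪b' 2, b' 3⟫_ℝ = 0 := by rw [ort']; simp
    have n32 : ⟪b' 3, b' 2⟫_ℝ = 0 := by rw [ort']; simp
    have p20 : ⟪b' 2, b 0⟫_ℝ = 0 := by rw [real_inner_comm]; exact p02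
    have p30 : ⟪b' 3, b 0⟫_ℝ = 0 := by rw [real_inner_comm]; exact p03
    have p21 : ⟪b' 2, b 1⟫_ℝ = 0 := by rw [real_inner_comm]; exact p12
    have p31 : ⟪b' 3, b 1⟫_ℝ = 0 := by rw [real_inner_comm]; exact p13
    set w : Fin 5 → EuclideanSpace ℝ (Fin 5) := ![b 0, b 1, b' 2, b' 3, 0] with hw
    have w0 : w 0 = b 0 := rfl
    have w1 : w 1 = b 1 := rfl
    have w2 : w 2 = b' 2 := rfl
    have w3 : w 3 = b' 3 := rfl
    have cases4 : ∀ i : Fin 5, i ≠ 4 → i = 0 ∨ i = 1 ∨ i = 2 ∨ i = 3 := by decide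
    have key : ∀ i j : Fin 5, i ≠ 4 → j ≠ 4 → ⟪w i, w j⟫_ℝ = if i = j then 1 else 0 := by
      intro i j hi hj
      rcases cases4 i hi with rfl | rfl | rfl | rfl
      · rcases cases4 j hj with rfl | rfl | rfl | rfl
        · rw [w0, n0, if_pos rfl]
        · rw [w0, w1, n01, if_neg (by decide)]
        · rw [w0, w2, p02, if_neg (by decide)]
        · rw [w0, w3, p03, if_neg (by decide)]
      · rcases cases4 j hj with rfl | rfl | rfl | rfl
        · rw [w1, w0, n10, if_neg (by decide)]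
        · rw [w1, n1, if_pos rfl]
        · rw [w1, w2, p12, if_neg (by decide)]
        · rw [w1, w3, p13, if_neg (by decide)]
      · rcases cases4 j hj with rfl | rfl | rfl | rfl
        · rw [w2, w0, p20, if_neg (by decide)]
        · rw [w2, w1, p21, if_neg (by decide)]
        · rw [w2, n2, if_pos rfl]
        · rw [w2, w3, n23, if_neg (by decide)]
      · rcases cases4 j hj with rfl | rfl | rfl | rfl
        · rw [w3, w0, p30, if_neg (by decide)]
        · rw [w3, w1, p31, if_neg (by decide)]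
        · rw [w3, w2, n32, if_neg (by decide)]
        · rw [w3, n3, if_pos rfl]
    have hwo : Orthonormal ℝ (({4}ᶜ : Set (Fin 5)).restrict w) := by
      rw [orthonormal_iff_ite]
      rintro ⟨i, hi⟩ ⟨j, hj⟩
      have h1 := key i j hi hj
      simp only [Set.restrict_apply, Subtype.mk.injEq]
      exact h1
    obtain ⟨B, hB⟩ := hwo.exists_orthonormalBasis_extension_of_card_eq (by simp)
    have B0 : B 0 = b 0 := by rw [hB 0 (by decide)]; rfl
    have B1 : B 1 = b 1 := by rw [hB 1 (by decide)]; rfl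
    have B2 : B 2 = b' 2 := by rw [hB 2 (by decide)]; rfl
    have B3 : B 3 = b' 3 := by rw [hB 3 (by decide)]; rfl
    have ortB : ∀ i j, ⟪B i, B j⟫_ℝ = if i = j then 1 else 0 :=
      orthonormal_iff_ite.mp B.orthonormal
    have h04 : A (B 4) = 0 := by
      rw [← B.sum_repr' (A (B 4))]
      refine Finset.sum_eq_zero fun i _ => ?_
      suffices h : ⟪B i, A (B 4)⟫_ℝ = 0 by rw [h, zero_smul]
      have hi : i = 0 ∨ i = 1 ∨ i = 2 ∨ i = 3 ∨ i = 4 := by
        revert i; decide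
      rcases hi with rfl | rfl | rfl | rfl | rfl
      · rw [skew_swap hA, B0, hb0, ← B1, inner_smul_left, ortB]; simp
      · rw [skew_swap hA, B1, hb1, ← B0, inner_neg_left, inner_smul_left, ortB]; simp
      · rw [skew_swap hA, B2, hA2', ← B3, inner_smul_left, ortB]; simp
      · rw [skew_swap hA, B3, hA3', ← B2, inner_neg_left, inner_smul_left, ortB]; simp
      · exact hA _
    refine ⟨B, l, m, hl, hm.le, hml, ?_, ?_, ?_, ?_, h04⟩
    · rw [B0, B1]; exact hb0
    · rw [B0, B1]; exact hb1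
    · rw [B2, B3]; exact hA2'
    · rw [B2, B3]; exact hA3'

end Vale.Agent.P134.B331
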