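import Vale.Agent.P134.B331.Defs

set_option linter.all false

/-! Row R. -/

open MeasureTheory Filter Topology

namespace Vale.Agent.P134.B331

open Vale.Agent.P134

variable {n : ℕ}

lemma dd_add (a b : Fin n → ℝ) (u : (Fin n → ℝ) → ℝ) (x : Fin n → ℝ) :
    dd (a + b) u x = dd a u x + dd b u x := by
  unfold dd
  simp only [Pi.add_apply, add_mul, Finset.sum_add_distrib]

lemma dd_smul (l : ℝ) (a : Fin n → ℝ) (u : (Fin n → ℝ) → ℝ) (x : Fin n → ℝ) :
    dd (l • a) u x = l * dd a u x := by
  unfold dd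
  rw [Finset.mul_sum]
  refine Finset.sum_congr rfl fun i _ => ?_
  simp only [Pi.smul_apply, smul_eq_mul]; ring

lemma dd_neg (a : Fin n → ℝ) (u : (Fin n → ℝ) → ℝ) (x : Fin n → ℝ) :
    dd (-a) u x = - dd a u x := by
  have h := dd_smul (-1) a u x
  rw [neg_one_smul] at h
  rw [h]; ring

lemma dd_single (p : Fin n) (u : (Fin n → ℝ) → ℝ) (x : Fin n → ℝ) :
    dd (Pi.single p 1) u x = pd p u x := by
  unfold dd
  simp [Pi.single_apply]

/-- The derivative of `∂_k u` along the Killing field. -/
lemma dd_killing {u : (Fin n → ℝ) → ℝ} (hu : ContDiff ℝ 2 u)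
    (A : (Fin n → ℝ) →L[ℝ] (Fin n → ℝ)) (c : Fin n → ℝ) (h : ∀ x, dd (A x + c) u x = 0)
    (k : Fin n) (x : Fin n → ℝ) :
    dd (A x + c) (pd k u) x = - dd (A (Pi.single k 1)) u x := by
  have hd : ∀ i, Differentiable ℝ (pd i u) := fun i =>
    (contDiff_pd_one hu).differentiable (by norm_num)
  have hK : ∀ i, HasFDerivAt (fun y : Fin n → ℝ => (A y + c) i)
      ((ContinuousLinearMap.proj (R := ℝ) (φ := fun _ : Fin n => ℝ) i).comp A) x := by
    intro i
    have h1 : HasFDerivAt (fun y : Fin n → ℝ => A y + c) A x := A.hasFDerivAt.add_const c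
    exact (ContinuousLinearMap.proj (R := ℝ) (φ := fun _ : Fin n => ℝ) i).hasFDerivAt.comp x h1
  have hKp : ∀ i, pd k (fun y : Fin n → ℝ => (A y + c) i) x = A (Pi.single k 1) i := by
    intro i
    unfold pd
    rw [(hK i).fderiv]
    rfl
  have h2 : pd k (fun x => ∑ i, (A x + c) i * pd i u x) x = 0 := by
    have : (fun x => ∑ i, (A x + c) i * pd i u x) = fun _ => 0 := funext h
    rw [this, pd_const]
  rw [pd_sum Finset.univ (F := fun i x => (A x + c) i * pd i u x)
    fun i _ => (hK i).differentiableAt.mul (hd i x)] at h2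
  have h3 : ∀ i, pd k (fun x => (A x + c) i * pd i u x) x
      = (A x + c) i * pd i (pd k u) x + A (Pi.single k 1) i * pd i u x := by
    intro i
    rw [pd_mul (f := fun x => (A x + c) i) (hK i).differentiableAt (hd i x), hKp, pd_comm hu]
    ring
  rw [Finset.sum_congr rfl fun i _ => h3 i, Finset.sum_add_distrib] at h2
  unfold dd
  linarith

/-- Row R: rotation of the gradient along the orbits. -/
theorem stR : StR := by
  intro n u hu A c h p q l hp hq x
  have h1 := dd_killing hu.c2 A c h p x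
  have h2 := dd_killing hu.c2 A c h q x
  rw [hp, dd_smul, dd_single] at h1
  rw [hq, dd_neg, dd_smul, dd_single, neg_neg] at h2
  have h3 : ∑ j, (A x + c) j * (pd p u x * pd j (pd q u) x - pd q u x * pd j (pd p u) x)
      = l * Q2 p q u x := by
    have : ∀ j, (A x + c) j * (pd p u x * pd j (pd q u) x - pd q u x * pd j (pd p u) x)
        = pd p u x * ((A x + c) j * pd j (pd q u) x)
          - pd q u x * ((A x + c) j * pd j (pd p u) x) := fun j => by ring
    rw [Finset.sum_congr rfl fun j _ => this j, Finset.sum_sub_distrib, ← Finset.mul_sum,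
      ← Finset.mul_sum]
    have e1 : ∑ j, (A x + c) j * pd j (pd p u) x = -(l * pd q u x) := h1
    have e2 : ∑ j, (A x + c) j * pd j (pd q u) x = l * pd p u x := h2
    rw [e1, e2]
    unfold Q2; ring
  have h4 := Finset.sum_mul_sq_le_sq_mul_sq Finset.univ (fun j => (A x + c) j)
    (fun j => pd p u x * pd j (pd q u) x - pd q u x * pd j (pd p u) x)
  rw [h3] at h4
  rw [← mul_pow]
  exact h4

end Vale.Agent.P134.B331
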