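import Vale.Agent.P134.B331.StD1
import Vale.Agent.P134.H765.Stab

set_option linter.all false

/-! Row Rd: reduction of the dimension for solutions with a direction of invariance. -/

open MeasureTheory Filter Topology Module
open scoped InnerProductSpace Laplacian

namespace Vale.Agent.P134.B331

open Vale.Agent.P134 Vale.Agent.P134.H765

/-- Q1 in dimension `n`, for all bounded solutions. -/
def Mono (n : ℕ) : Prop := ∀ u : EuclideanSpace ℝ (Fin n) → ℝ, ContDiff ℝ 2 u →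
  (∀ x, Δ u x = u x ^ 3 - u x) → (∃ M : ℝ, ∀ x, |u x| ≤ M) →
  ∀ a : EuclideanSpace ℝ (Fin n), (∀ x, 0 < fderiv ℝ u x a) →
  ∃ (e : EuclideanSpace ℝ (Fin n)) (c : ℝ), ‖e‖ = 1 ∧ 0 < ⟪e, a⟫_ℝ ∧
    ∀ x, u x = Real.tanh ((⟪e, x⟫_ℝ - c) / √2)

/-- ROW Rd. -/
def StRd : Prop := ∀ n : ℕ, Mono n → ∀ u : EuclideanSpace ℝ (Fin (n + 1)) → ℝ, ContDiff ℝ 2 u →
  (∀ x, Δ u x = u x ^ 3 - u x) → (∃ M : ℝ, ∀ x, |u x| ≤ M) →
  ∀ a : EuclideanSpace ℝ (Fin (n + 1)), (∀ x, 0 < fderiv ℝ u x a) →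
  ∀ w : EuclideanSpace ℝ (Fin (n + 1)), w ≠ 0 → (∀ x, fderiv ℝ u x w = 0) →
  ∃ (e : EuclideanSpace ℝ (Fin (n + 1))) (c : ℝ), ‖e‖ = 1 ∧ 0 < ⟪e, a⟫_ℝ ∧
    ∀ x, u x = Real.tanh ((⟪e, x⟫_ℝ - c) / √2)

variable {n : ℕ}

lemma eq_res {U : (Fin (n + 1) → ℝ) → ℝ}
    (hinv' : ∀ x (t : ℝ), U (x + t • Pi.single (Fin.last n) 1) = U x) (x : Fin (n + 1) → ℝ) :
    U x = res U (Fin.init x) := by
  unfold res
  rw [← hinv' x (-(x (Fin.last n)))]
  congr 1
  funext k
  refine Fin.lastCases ?_ (fun j => ?_) k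
  · simp only [Pi.add_apply, Pi.smul_apply, smul_eq_mul, Pi.single_eq_same, mul_one,
      Fin.snoc_last]
    ring
  · simp only [Pi.add_apply, Pi.smul_apply, smul_eq_mul, Fin.snoc_castSucc, Fin.init,
      Pi.single_apply, if_neg (Fin.castSucc_lt_last j).ne]
    ring

theorem stRd : StRd := by
  intro n hM u hu heq hbdd a ha w hw hdw
  have du : Differentiable ℝ u := hu.differentiable (by norm_num)
  have hb1 := abs_le_one_of_bdd hu heq hbdd
  have hw0 : 0 < ‖w‖ := norm_pos_iff.mpr hw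
  -- a basis with last member `w / ‖w‖`
  have hs1 : ∑ i, (w i / ‖w‖) ^ 2 = 1 := by
    simp_rw [div_pow]
    rw [← Finset.sum_div, ← EuclideanSpace.real_norm_sq_eq, div_self (by positivity)]
  obtain ⟨b, hb⟩ := exists_basis_one (Fin.last n) hs1
  have hbl : b (Fin.last n) = ‖w‖⁻¹ • w := by
    ext k
    rw [hb]
    simp [div_eq_inv_mul]
  have hdl : ∀ x, fderiv ℝ u x (b (Fin.last n)) = 0 := by
    intro x
    rw [hbl, map_smul, hdw, smul_zero]
  set U : (Fin (n + 1) → ℝ) → ℝ := fun y => u (0 + coordMap b y) with hU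
  have hUS : Sol U := sol_of_euclidean hu heq hb1 b 0
  have dU : Differentiable ℝ U := hUS.c2.differentiable (by norm_num)
  have hpd : ∀ i y, pd i U y = fderiv ℝ u (0 + coordMap b y) (b i) := fun i y =>
    pd_coord_comp du b 0 i y
  have hinv : ∀ x (t : ℝ), U (x + t • Pi.single (Fin.last n) 1) = U x := fun x t =>
    inv_of_pd_last dU (fun y => by rw [hpd, hdl]) x t
  set V : (Fin n → ℝ) → ℝ := res U with hV
  have hVS : Sol V := Sol.res hUS hinv
  have dV : Differentiable ℝ V := hVS.c2.differentiable (by norm_num)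
  set v : EuclideanSpace ℝ (Fin n) → ℝ := fun y => V (EuclideanSpace.equiv (Fin n) ℝ y) with hv
  have hvc : ContDiff ℝ 2 v := hVS.c2.comp (EuclideanSpace.equiv (Fin n) ℝ).contDiff
  have hveq : ∀ x, Δ v x = v x ^ 3 - v x := by
    intro x
    have h1 := lap_of_euclidean hvc (EuclideanSpace.basisFun (Fin n) ℝ) 0
      (EuclideanSpace.equiv (Fin n) ℝ x)
    have h2 : (fun y => v (0 + coordMap (EuclideanSpace.basisFun (Fin n) ℝ) y)) = V := by
      funext y
      rw [coordMap_std, zero_add]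
      rfl
    have h3 : 0 + coordMap (EuclideanSpace.basisFun (Fin n) ℝ)
        (EuclideanSpace.equiv (Fin n) ℝ x) = x := by
      rw [coordMap_std, zero_add]
      rfl
    rw [h2, h3] at h1
    rw [← h1, hVS.eq]
  have hvb : ∃ M : ℝ, ∀ x, |v x| ≤ M := ⟨1, fun x => hVS.bd _⟩
  set a' : EuclideanSpace ℝ (Fin n) := WithLp.toLp 2 (fun i => ⟪b i.castSucc, a⟫_ℝ) with ha'
  have hva : ∀ y, 0 < fderiv ℝ v y a' := by
    intro y
    have h1 : fderiv ℝ v y = (fderiv ℝ V (EuclideanSpace.equiv (Fin n) ℝ y)).comp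
        ((EuclideanSpace.equiv (Fin n) ℝ) : EuclideanSpace ℝ (Fin n) →L[ℝ] (Fin n → ℝ)) :=
      ((dV _).hasFDerivAt.comp y (EuclideanSpace.equiv (Fin n) ℝ).hasFDerivAt).fderiv
    have h2 : fderiv ℝ v y a' = dd (fun i => ⟪b i.castSucc, a⟫_ℝ) V
        (EuclideanSpace.equiv (Fin n) ℝ y) := by
      rw [h1, dd_eq_fderiv]
      rfl
    set X := emb n (EuclideanSpace.equiv (Fin n) ℝ y) with hX
    have h3 : ∀ i, pd i V (EuclideanSpace.equiv (Fin n) ℝ y)
        = fderiv ℝ u (0 + coordMap b X) (b i.castSucc) := by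
      intro i
      rw [hV, pd_res dU, hpd]
    have h4 : a = (∑ i : Fin n, ⟪b i.castSucc, a⟫_ℝ • b i.castSucc)
        + ⟪b (Fin.last n), a⟫_ℝ • b (Fin.last n) := by
      conv_lhs => rw [← b.sum_repr' a]
      rw [Fin.sum_univ_castSucc]
    rw [h2]
    unfold dd
    simp_rw [h3]
    have h5 := ha (0 + coordMap b X)
    rw [h4, map_add, map_smul, hdl, smul_zero, add_zero, map_sum] at h5
    simp_rw [map_smul, smul_eq_mul] at h5
    exact h5
  obtain ⟨e', c, he1, he2, he3⟩ := hM v hvc hveq hvb a' hva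
  have hin : ∀ x, ⟪∑ i : Fin n, e' i • b i.castSucc, x⟫_ℝ
      = ⟪e', (WithLp.toLp 2 (fun i => ⟪b i.castSucc, x⟫_ℝ) : EuclideanSpace ℝ (Fin n))⟫_ℝ := by
    intro x
    rw [sum_inner, PiLp.inner_apply]
    refine Finset.sum_congr rfl fun i _ => ?_
    rw [inner_smul_left]
    simp only [RCLike.inner_apply, conj_trivial]
    ring
  refine ⟨∑ i : Fin n, e' i • b i.castSucc, c, ?_, ?_, fun x => ?_⟩
  · have h1 : ‖∑ i : Fin n, e' i • b i.castSucc‖ ^ 2 = 1 := by
      rw [← real_inner_self_eq_norm_sq, hin]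
      have h2 : (WithLp.toLp 2 (fun i => ⟪b i.castSucc, ∑ j : Fin n, e' j • b j.castSucc⟫_ℝ) :
          EuclideanSpace ℝ (Fin n)) = e' := by
        ext i
        show ⟪b i.castSucc, ∑ j : Fin n, e' j • b j.castSucc⟫_ℝ = e' i
        rw [inner_sum]
        simp_rw [inner_smul_right, b.inner_eq_ite, Fin.castSucc_inj]
        simp
      rw [h2, real_inner_self_eq_norm_sq, he1]; norm_num
    have h2 : 0 ≤ ‖∑ i : Fin n, e' i • b i.castSucc‖ := norm_nonneg _
    nlinarith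
  · rw [hin]; exact he2
  · have h1 : u x = U (fun i => ⟪b i, x - 0⟫_ℝ) := by
      rw [hU]
      simp only [coordMap_repr b 0 x]
    rw [h1, eq_res hinv, hin, ← he3]
    rw [hv, hV]
    simp only [sub_zero]
    rfl

end Vale.Agent.P134.B331
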