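import Vale.Agent.P134.B331.Defs

/-! ROW T: thin neighbourhoods of a plane carry little energy (grid covering). -/

set_option linter.all false

open MeasureTheory Filter Topology

namespace Vale.Agent.P134.B331

open Vale.Agent.P134

namespace RowT

/-- Centres of the grid. -/
noncomputable def zc (R ρ : ℝ) (i j : ℕ) : Fin 5 → ℝ :=
  ![(2 * i + 1) * ρ - R, (2 * j + 1) * ρ - R, 0, 0, 0]

lemma floor_mem {R ρ t : ℝ} (hρ : 0 < ρ) (ht : |t| ≤ R) :
    |t - ((2 * (⌊(t + R) / (2 * ρ)⌋₊ : ℕ) + 1) * ρ - R)| ≤ ρ := by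
  have h1 := abs_le.mp ht
  have h0 : 0 ≤ (t + R) / (2 * ρ) := div_nonneg (by linarith [h1.1]) (by positivity)
  have h2 := Nat.floor_le h0
  have h3 := Nat.lt_floor_add_one ((t + R) / (2 * ρ))
  rw [le_div_iff₀ (by positivity)] at h2
  rw [div_lt_iff₀ (by positivity)] at h3
  rw [abs_le]
  constructor <;> nlinarith

lemma floor_le {R ρ t : ℝ} {N : ℕ} (hρ : 0 < ρ) (hN : R = N * ρ) (ht : |t| ≤ R) :
    ⌊(t + R) / (2 * ρ)⌋₊ < N + 1 := by
  have h1 := abs_le.mp ht
  rw [Nat.lt_succ_iff]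
  apply Nat.floor_le_of_le
  rw [div_le_iff₀ (by positivity)]
  nlinarith

end RowT

open RowT in
/-- ROW T. -/
theorem stT : StT := by
  intro u K hu hK ε hε
  obtain ⟨N, hN⟩ := exists_nat_gt (max 1 (4 * (|K| + 1) / ε))
  have hN1 : (1:ℝ) < N := lt_of_le_of_lt (le_max_left _ _) hN
  have hN0 : (0:ℝ) < N := by linarith
  have hN2 : 4 * (|K| + 1) ≤ ε * N := by
    have := (le_max_right 1 (4 * (|K| + 1) / ε)).trans hN.le
    rw [div_le_iff₀ hε] at this
    linarith
  refine ⟨1 / N, N, by positivity, fun R hR => ?_⟩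
  have hR0 : 0 < R := by linarith
  set ρ : ℝ := R / N with hρ
  have hρ1 : 1 ≤ ρ := by rw [hρ, le_div_iff₀ hN0]; linarith
  have hρ0 : 0 < ρ := by linarith
  have hNρ : R = N * ρ := by rw [hρ]; field_simp
  have cf : Continuous (fun x => psi u x ^ 2) := hu.psi_contDiff.continuous.pow 2
  have mb : ∀ r : ℝ, MeasurableSet (box 5 r) := fun r => (isCompact_box r).isClosed.measurableSet
  set S : Set (Fin 5 → ℝ) :=
    {x | x ∈ box 5 R ∧ |x 2| ≤ 1 / N * R ∧ |x 3| ≤ 1 / N * R ∧ |x 4| ≤ 1 / N * R} with hS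
  have mS : MeasurableSet S := by
    have m : ∀ i : Fin 5, MeasurableSet {x : Fin 5 → ℝ | |x i| ≤ 1 / N * R} := fun i =>
      (isClosed_le (continuous_apply i).abs continuous_const).measurableSet
    exact (mb R).inter ((m 2).inter ((m 3).inter (m 4)))
  -- translated boxes
  set T : ℕ × ℕ → Set (Fin 5 → ℝ) := fun p => {x | x - zc R ρ p.1 p.2 ∈ box 5 ρ} with hT
  have mT : ∀ p, MeasurableSet (T p) := fun p =>
    (mb ρ).preimage (measurable_id.sub measurable_const)
  have cT : ∀ p, IsCompact (T p) := by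
    intro p
    have h1 := (isCompact_box (n := 5) ρ).image (continuous_id.add continuous_const :
      Continuous (fun x : Fin 5 → ℝ => x + zc R ρ p.1 p.2))
    convert h1 using 1
    ext x
    simp only [hT, Set.mem_setOf_eq, Set.mem_image]
    constructor
    · intro h; exact ⟨x - zc R ρ p.1 p.2, h, by simp⟩
    · rintro ⟨z, hz, rfl⟩; simpa using hz
  have iT : ∀ p, Integrable ((T p).indicator (fun x => psi u x ^ 2)) := fun p =>
    (integrable_indicator_iff (mT p)).mpr (cf.continuousOn.integrableOn_compact (cT p))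
  have vT : ∀ p, ∫ x, (T p).indicator (fun x => psi u x ^ 2) x ≤ K * ρ ^ 4 := by
    intro p
    rw [← integral_add_right_eq_self _ (zc R ρ p.1 p.2)]
    have e : ∀ x, (T p).indicator (fun x => psi u x ^ 2) (x + zc R ρ p.1 p.2)
        = (box 5 ρ).indicator (fun x => psi u (x + zc R ρ p.1 p.2) ^ 2) x := by
      intro x
      by_cases hx : x ∈ box 5 ρ
      · rw [Set.indicator_of_mem hx, Set.indicator_of_mem]
        simpa [hT] using hx
      · rw [Set.indicator_of_notMem hx, Set.indicator_of_notMem]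
        simpa [hT] using hx
    simp_rw [e]
    rw [integral_indicator (mb ρ)]
    exact hK _ ρ hρ1
  set I : Finset (ℕ × ℕ) := Finset.range (N + 1) ×ˢ Finset.range (N + 1) with hI
  have hle : ∀ x, S.indicator (fun x => psi u x ^ 2) x
      ≤ ∑ p ∈ I, (T p).indicator (fun x => psi u x ^ 2) x := by
    intro x
    have h0 : ∀ p ∈ I, 0 ≤ (T p).indicator (fun x => psi u x ^ 2) x := fun p _ =>
      Set.indicator_nonneg (fun _ _ => sq_nonneg _) _
    by_cases hx : x ∈ S
    · rw [Set.indicator_of_mem hx]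
      obtain ⟨hb, h2, h3, h4⟩ := hx
      have hb' := mem_box.mp hb
      set i := ⌊(x 0 + R) / (2 * ρ)⌋₊ with hi
      set j := ⌊(x 1 + R) / (2 * ρ)⌋₊ with hj
      have hp : (i, j) ∈ I := by
        rw [hI, Finset.mem_product, Finset.mem_range, Finset.mem_range]
        exact ⟨floor_le hρ0 hNρ (hb' 0), floor_le hρ0 hNρ (hb' 1)⟩
      refine le_trans (le_of_eq ?_) (Finset.single_le_sum h0 hp)
      rw [Set.indicator_of_mem]
      show x - zc R ρ i j ∈ box 5 ρ
      rw [mem_box]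
      have e : (1:ℝ) / N * R = ρ := by rw [hρ]; ring
      rw [e] at h2 h3 h4
      have q0 := floor_mem hρ0 (hb' 0)
      have q1 := floor_mem hρ0 (hb' 1)
      intro k
      fin_cases k
      · simpa [zc] using q0
      · simpa [zc] using q1
      · simpa [zc] using h2
      · simpa [zc] using h3
      · simpa [zc] using h4
    · rw [Set.indicator_of_notMem hx]
      exact Finset.sum_nonneg h0
  have iS : Integrable (S.indicator (fun x => psi u x ^ 2)) := by
    rw [integrable_indicator_iff mS]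
    exact (cf.continuousOn.integrableOn_compact (isCompact_box R)).mono_set fun x hx => hx.1
  have h1 : ∫ x in S, psi u x ^ 2 ≤ ∑ p ∈ I, K * ρ ^ 4 := by
    rw [← integral_indicator mS]
    calc ∫ x, S.indicator (fun x => psi u x ^ 2) x
        ≤ ∫ x, ∑ p ∈ I, (T p).indicator (fun x => psi u x ^ 2) x :=
          integral_mono iS (integrable_finset_sum _ fun p _ => iT p) hle
      _ = ∑ p ∈ I, ∫ x, (T p).indicator (fun x => psi u x ^ 2) x :=
          integral_finset_sum _ fun p _ => iT p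
      _ ≤ _ := Finset.sum_le_sum fun p _ => vT p
  have h2 : ∑ p ∈ I, K * ρ ^ 4 = ((N:ℝ) + 1) ^ 2 * (K * ρ ^ 4) := by
    rw [Finset.sum_const, hI, Finset.card_product, Finset.card_range, nsmul_eq_mul]
    push_cast
    ring
  rw [h2] at h1
  refine h1.trans ?_
  have h3 : K * ρ ^ 4 ≤ (|K| + 1) * ρ ^ 4 := by
    apply mul_le_mul_of_nonneg_right _ (by positivity)
    linarith [le_abs_self K]
  have h4 : ((N:ℝ) + 1) ^ 2 ≤ 4 * (N:ℝ) ^ 2 := by nlinarith
  have h5 : R ^ 4 = (N:ℝ) ^ 4 * ρ ^ 4 := by rw [hNρ]; ring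
  rw [h5]
  have h6 : (0:ℝ) < |K| + 1 := by positivity
  calc ((N:ℝ) + 1) ^ 2 * (K * ρ ^ 4) ≤ ((N:ℝ) + 1) ^ 2 * ((|K| + 1) * ρ ^ 4) :=
        mul_le_mul_of_nonneg_left h3 (by positivity)
    _ ≤ 4 * (N:ℝ) ^ 2 * ((|K| + 1) * ρ ^ 4) := mul_le_mul_of_nonneg_right h4 (by positivity)
    _ = (4 * (|K| + 1)) * (N:ℝ) ^ 2 * ρ ^ 4 := by ring
    _ ≤ (ε * N) * (N:ℝ) ^ 2 * ρ ^ 4 := by
        apply mul_le_mul_of_nonneg_right _ (by positivity)
        exact mul_le_mul_of_nonneg_right hN2 (by positivity)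
    _ ≤ ε * ((N:ℝ) ^ 4 * ρ ^ 4) := by
        have : (N:ℝ) ^ 3 ≤ (N:ℝ) ^ 4 := pow_le_pow_right₀ hN1.le (by norm_num)
        have h7 : ε * N * (N:ℝ) ^ 2 * ρ ^ 4 = ε * ((N:ℝ) ^ 3 * ρ ^ 4) := by ring
        rw [h7]
        apply mul_le_mul_of_nonneg_left _ hε.le
        exact mul_le_mul_of_nonneg_right this (by positivity)

end Vale.Agent.P134.B331
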