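import Vale.Agent.P134.B331.Defs

/-! ROW V: vanishing of two derivatives in adapted coordinates, from the rows R, B, C, T, I. -/

set_option linter.all false

open MeasureTheory Filter Topology

namespace Vale.Agent.P134.B331

open Vale.Agent.P134 Vale.Agent.P134.H765

namespace RowV

/-- The skew map in adapted coordinates. -/
noncomputable def AV (l m : ℝ) : (Fin 5 → ℝ) →L[ℝ] (Fin 5 → ℝ) :=
  ContinuousLinearMap.pi ![-(l • ContinuousLinearMap.proj 1), l • ContinuousLinearMap.proj 0,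
    -(m • ContinuousLinearMap.proj 3), m • ContinuousLinearMap.proj 2, 0]

lemma AV_apply (l m : ℝ) (x : Fin 5 → ℝ) :
    AV l m x = ![-(l * x 1), l * x 0, -(m * x 3), m * x 2, 0] := by
  ext i
  fin_cases i <;> simp [AV]

lemma esq_AV (l m : ℝ) (x : Fin 5 → ℝ) :
    esq (AV l m x) = l ^ 2 * (x 0 ^ 2 + x 1 ^ 2) + m ^ 2 * (x 2 ^ 2 + x 3 ^ 2) := by
  rw [AV_apply]
  unfold esq
  rw [Fin.sum_univ_five]
  simp
  ring

lemma esq5 (x : Fin 5 → ℝ) : esq x = x 0 ^ 2 + x 1 ^ 2 + x 2 ^ 2 + x 3 ^ 2 + x 4 ^ 2 := by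
  unfold esq
  rw [Fin.sum_univ_five]

lemma esq_cont' : Continuous (esq (n := 5)) := by
  unfold esq
  fun_prop

/-- The weight. -/
noncomputable def gg (l m : ℝ) (c x : Fin 5 → ℝ) : ℝ := l ^ 2 / (l ^ 2 + esq (AV l m x + c))

lemma gg_cont {l m : ℝ} (hl : 0 < l) (c : Fin 5 → ℝ) : Continuous (gg l m c) := by
  unfold gg
  have h1 : Continuous (fun x : Fin 5 → ℝ => esq (AV l m x + c)) :=
    esq_cont'.comp ((AV l m).continuous.add continuous_const)
  refine continuous_const.div (continuous_const.add h1) fun x => ?_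
  have := esq_nonneg (AV l m x + c)
  positivity

lemma esq_add_le {n : ℕ} {κ : ℝ} (hκ : 0 < κ) (a b : Fin n → ℝ) :
    esq (a + b) ≤ (1 + κ) * esq a + (1 + 1 / κ) * esq b := by
  unfold esq
  rw [Finset.mul_sum, Finset.mul_sum, ← Finset.sum_add_distrib]
  apply Finset.sum_le_sum
  intro i _
  simp only [Pi.add_apply]
  have h1 : 0 ≤ 1 / κ * (κ * a i - b i) ^ 2 := by positivity
  have h2 : 1 / κ * (κ * a i - b i) ^ 2 = κ * a i ^ 2 + 1 / κ * b i ^ 2 - 2 * a i * b i := by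
    field_simp
    ring
  nlinarith

/-- Where the gain is strict. -/
lemma geo {l m : ℝ} (hl : 0 < l) (hm : 0 ≤ m) (hml : m ≤ l) (c : Fin 5 → ℝ) {θ : ℝ}
    (hθ : 0 < θ) : ∃ δ R₀ : ℝ, 0 < δ ∧ ∀ R, R₀ ≤ R → ∀ x ∈ box 5 R,
      θ * R ^ 2 ≤ (l ^ 2 - m ^ 2) * (x 2 ^ 2 + x 3 ^ 2) + l ^ 2 * x 4 ^ 2 →
      1 + δ ≤ gg l m c x * esq x := by
  set κ : ℝ := min 1 (θ / (30 * l ^ 2)) with hκ
  have hκ0 : 0 < κ := lt_min one_pos (by positivity)
  have hκ1 : κ ≤ 1 := min_le_left _ _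
  have hκθ : 30 * l ^ 2 * κ ≤ θ := by
    have := min_le_right 1 (θ / (30 * l ^ 2))
    rw [le_div_iff₀ (by positivity)] at this
    linarith
  set M : ℝ := 2 * (l ^ 2 + (1 + 1 / κ) * esq c) with hM
  have hM0 : 0 ≤ M := by have := esq_nonneg c; positivity
  refine ⟨κ, max 1 (2 * M / θ), hκ0, fun R hR x hx hD => ?_⟩
  have hR1 : 1 ≤ R := (le_max_left _ _).trans hR
  have hRM : 2 * M ≤ θ * R := by
    have := (le_max_right _ _).trans hR
    rw [div_le_iff₀ hθ] at this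
    linarith
  have hRM2 : 2 * M ≤ θ * R ^ 2 := by
    have : R ≤ R ^ 2 := by nlinarith
    exact hRM.trans (mul_le_mul_of_nonneg_left this hθ.le)
  have hsq : ∀ i, x i ^ 2 ≤ R ^ 2 := by
    intro i
    have := mem_box.mp hx i
    rw [← sq_abs]
    exact pow_le_pow_left₀ (abs_nonneg _) this 2
  have hex : esq x ≤ 5 * R ^ 2 := by
    rw [esq5]
    linarith [hsq 0, hsq 1, hsq 2, hsq 3, hsq 4]
  have hm2 : m ^ 2 ≤ l ^ 2 := pow_le_pow_left₀ hm hml 2
  have hA : esq (AV l m x) ≤ l ^ 2 * esq x := by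
    rw [esq_AV, esq5]
    nlinarith [sq_nonneg (x 2), sq_nonneg (x 3), mul_nonneg (sub_nonneg.mpr hm2)
      (add_nonneg (sq_nonneg (x 2)) (sq_nonneg (x 3))), mul_nonneg (sq_nonneg l) (sq_nonneg (x 4))]
  have hA2 : l ^ 2 * esq x - esq (AV l m x)
      = (l ^ 2 - m ^ 2) * (x 2 ^ 2 + x 3 ^ 2) + l ^ 2 * x 4 ^ 2 := by
    rw [esq_AV, esq5]; ring
  have h1 := esq_add_le hκ0 (AV l m x) c
  have hAn := esq_nonneg (AV l m x)
  have hcn := esq_nonneg c
  have hden : 0 < l ^ 2 + esq (AV l m x + c) := by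
    have := esq_nonneg (AV l m x + c)
    positivity
  unfold gg
  rw [div_mul_eq_mul_div, le_div_iff₀ hden]
  -- (1+κ)(l²+|Ax+c|²) ≤ l² |x|²
  have h2 : (1 + κ) * (l ^ 2 + esq (AV l m x + c))
      ≤ (1 + κ) * (l ^ 2 + ((1 + κ) * esq (AV l m x) + (1 + 1 / κ) * esq c)) :=
    mul_le_mul_of_nonneg_left (by linarith) (by linarith)
  have h3 : (1 + κ) * (l ^ 2 + ((1 + κ) * esq (AV l m x) + (1 + 1 / κ) * esq c))
      = (1 + κ) * (l ^ 2 + (1 + 1 / κ) * esq c) + (1 + κ) ^ 2 * esq (AV l m x) := by ring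
  have h4 : (1 + κ) * (l ^ 2 + (1 + 1 / κ) * esq c) ≤ M := by
    rw [hM]
    apply mul_le_mul_of_nonneg_right (by linarith)
    positivity
  have h5 : (1 + κ) ^ 2 * esq (AV l m x) ≤ esq (AV l m x) + 3 * κ * esq (AV l m x) := by
    have : (1 + κ) ^ 2 ≤ 1 + 3 * κ := by nlinarith
    have := mul_le_mul_of_nonneg_right this hAn
    linarith
  have h6 : 3 * κ * esq (AV l m x) ≤ θ * R ^ 2 / 2 := by
    have h7 : esq (AV l m x) ≤ 5 * l ^ 2 * R ^ 2 := by
      refine hA.trans ?_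
      have := mul_le_mul_of_nonneg_left hex (sq_nonneg l)
      linarith
    have h8 := mul_le_mul_of_nonneg_left h7 (show 0 ≤ 3 * κ by positivity)
    have h9 := mul_le_mul_of_nonneg_right hκθ (sq_nonneg R)
    linarith
  linarith

lemma wh_le_gg {l m : ℝ} (hl : 0 < l) (hm : 0 ≤ m) (hml : m ≤ l) (c x : Fin 5 → ℝ) :
    wh (eno c / l) x ^ 2 ≤ gg l m c x := by
  have hm2 : m ^ 2 ≤ l ^ 2 := pow_le_pow_left₀ hm hml 2
  have hA : esq (AV l m x) ≤ l ^ 2 * esq x := by
    rw [esq_AV, esq5]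
    nlinarith [sq_nonneg (x 2), sq_nonneg (x 3), mul_nonneg (sub_nonneg.mpr hm2)
      (add_nonneg (sq_nonneg (x 2)) (sq_nonneg (x 3))), mul_nonneg (sq_nonneg l) (sq_nonneg (x 4))]
  have hden : 0 < l ^ 2 + esq (AV l m x + c) := by
    have := esq_nonneg (AV l m x + c)
    positivity
  have hc0 : 0 ≤ eno c := Real.sqrt_nonneg _
  have hx0 : 0 ≤ eno x := Real.sqrt_nonneg _
  have hcs : eno c ^ 2 = esq c := Real.sq_sqrt (esq_nonneg c)
  have hxs : eno x ^ 2 = esq x := Real.sq_sqrt (esq_nonneg x)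
  -- |Ax+c| ≤ l|x| + |c|
  have h1 : esq (AV l m x + c) ≤ (l * eno x + eno c) ^ 2 := by
    have h2 : esq (AV l m x + c) = esq (AV l m x) + 2 * (∑ i, AV l m x i * c i) + esq c := by
      unfold esq
      rw [Finset.mul_sum, ← Finset.sum_add_distrib, ← Finset.sum_add_distrib]
      apply Finset.sum_congr rfl
      intro i _
      simp only [Pi.add_apply]
      ring
    have h3 : (∑ i, AV l m x i * c i) ^ 2 ≤ esq (AV l m x) * esq c :=
      Finset.sum_mul_sq_le_sq_mul_sq _ _ _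
    have h4 : ∑ i, AV l m x i * c i ≤ l * eno x * eno c := by
      refine (le_abs_self _).trans (abs_le_of_sq_le_sq ?_ (by positivity))
      refine h3.trans ?_
      have : (l * eno x * eno c) ^ 2 = l ^ 2 * esq x * esq c := by
        rw [mul_pow, mul_pow, hcs, hxs]
      rw [this]
      exact mul_le_mul_of_nonneg_right hA (esq_nonneg c)
    have h5 : (l * eno x + eno c) ^ 2 = l ^ 2 * esq x + 2 * (l * eno x * eno c) + esq c := by
      rw [add_sq, mul_pow, hcs, hxs]; ring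
    rw [h2, h5]
    linarith
  unfold gg wh
  set s := Real.sqrt (1 + esq x) with hs
  have hs0 : 0 < s := Real.sqrt_pos.mpr (by linarith [esq_nonneg x])
  have hss : s ^ 2 = 1 + esq x := Real.sq_sqrt (by linarith [esq_nonneg x])
  have hxs' : eno x ≤ s := Real.sqrt_le_sqrt (by linarith [esq_nonneg x])
  have hd2 : 0 < eno c / l + s := by positivity
  rw [div_pow, one_pow, div_le_div_iff₀ (by positivity) hden, one_mul]
  have h6 : l ^ 2 * (eno c / l + s) ^ 2 = (eno c + l * s) ^ 2 := by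
    field_simp
  rw [h6]
  have h7 : (eno c + l * s) ^ 2 = esq c + 2 * (l * s * eno c) + l ^ 2 * (1 + esq x) := by
    rw [add_sq, mul_pow, hcs, hss]; ring
  have h8 : (l * eno x + eno c) ^ 2 = l ^ 2 * esq x + 2 * (l * eno x * eno c) + esq c := by
    rw [add_sq, mul_pow, hcs, hxs]; ring
  have h9 : l * eno x * eno c ≤ l * s * eno c :=
    mul_le_mul_of_nonneg_right (mul_le_mul_of_nonneg_left hxs' hl.le) hc0
  rw [h7]
  rw [h8] at h1
  linarith


lemma RR_nonneg {n : ℕ} (p q : Fin n) (u : (Fin n → ℝ) → ℝ) (x : Fin n → ℝ) : 0 ≤ RR p q u x :=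
  Finset.sum_nonneg fun _ _ => sq_nonneg _

lemma Q2_nonneg' {n : ℕ} (p q : Fin n) (u : (Fin n → ℝ) → ℝ) (x : Fin n → ℝ) : 0 ≤ Q2 p q u x := by
  unfold Q2; positivity

lemma Q2_cont' {n : ℕ} {u : (Fin n → ℝ) → ℝ} (hu : Sol u) (p q : Fin n) : Continuous (Q2 p q u) := by
  have h : ∀ j, Continuous (pd j u) := fun j => (contDiff_pd_one hu.c2).continuous
  unfold Q2
  exact ((h p).pow 2).add ((h q).pow 2)

lemma gain_pt {u : (Fin 5 → ℝ) → ℝ} {l m l' : ℝ} (hl : 0 < l) (hl' : l' = l) {c : Fin 5 → ℝ}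
    {p q : Fin 5} (h : ∀ x, l' ^ 2 * Q2 p q u x ^ 2 ≤ esq (AV l m x + c) * RR p q u x)
    (x : Fin 5 → ℝ) : gg l m c x * Q2 p q u x ^ 2 ≤ RR p q u x := by
  subst hl'
  have hden : 0 < l' ^ 2 + esq (AV l' m x + c) := by
    have := esq_nonneg (AV l' m x + c)
    positivity
  unfold gg
  rw [div_mul_eq_mul_div, div_le_iff₀ hden]
  have h1 := h x
  have h2 := RR_nonneg p q u x
  nlinarith [mul_nonneg (sq_nonneg l') h2]

lemma Q01_le {u : (Fin 5 → ℝ) → ℝ} (hu : Sol u) (x : Fin 5 → ℝ) :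
    Q2 0 1 u x ≤ psi u x ^ 2 := by
  have h := hu.defi_nonneg x
  unfold defi at h
  rw [Fin.sum_univ_five] at h
  unfold Q2
  nlinarith [sq_nonneg (pd 2 u x), sq_nonneg (pd 3 u x), sq_nonneg (pd 4 u x),
    sq_nonneg (psi u x)]

lemma Q23_le {u : (Fin 5 → ℝ) → ℝ} (hu : Sol u) (x : Fin 5 → ℝ) :
    Q2 2 3 u x ≤ psi u x ^ 2 := by
  have h := hu.defi_nonneg x
  unfold defi at h
  rw [Fin.sum_univ_five] at h
  unfold Q2
  nlinarith [sq_nonneg (pd 0 u x), sq_nonneg (pd 1 u x), sq_nonneg (pd 4 u x),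
    sq_nonneg (psi u x)]

lemma ibox {f : (Fin 5 → ℝ) → ℝ} (hf : Continuous f) (r : ℝ) : IntegrableOn f (box 5 r) :=
  hf.continuousOn.integrableOn_compact (isCompact_box r)

lemma mbox (r : ℝ) : MeasurableSet (box 5 r) := (isCompact_box r).isClosed.measurableSet

lemma cover {f : (Fin 5 → ℝ) → ℝ} (hf : Continuous f) (h0 : ∀ x, 0 ≤ f x) {R : ℝ}
    {S G : Set (Fin 5 → ℝ)} (mS : MeasurableSet S) (mG : MeasurableSet G) (hS : S ⊆ box 5 R)
    (hG : G ⊆ box 5 R) (hc : ∀ x ∈ box 5 R, x ∉ S → x ∈ G) :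
    ∫ x in box 5 R, f x ≤ (∫ x in S, f x) + ∫ x in G, f x := by
  have h1 := integral_inter_add_diff (μ := volume) (f := f) (s := box 5 R) mS (ibox hf R)
  rw [Set.inter_eq_right.mpr hS] at h1
  rw [← h1]
  have h2 : ∫ x in box 5 R \ S, f x ≤ ∫ x in G, f x := by
    apply setIntegral_mono_set ((ibox hf R).mono_set hG)
    · exact Eventually.of_forall fun x => h0 x
    · exact (show box 5 R \ S ⊆ G from fun x hx => hc x hx.1 hx.2).eventuallyLE
  linarith

end RowV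


open RowV in
/-- ROW V, from the rows R, B, C, T, I. -/
theorem stV (hR : StR) (hB : StB) (hC : StC) (hT : StT) (hI : StI) : StV := by
  intro C u hu l m c hl hm hml hinv K hK
  have hk : ∀ x, dd (AV l m x + c) u x = 0 := by
    intro x
    rw [AV_apply]
    exact hinv x
  have hsol := hu.toSol
  have a01 : AV l m (Pi.single 0 1) = l • Pi.single 1 1 := by
    rw [AV_apply]; ext i; fin_cases i <;> simp
  have a10 : AV l m (Pi.single 1 1) = -(l • Pi.single 0 1) := by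
    rw [AV_apply]; ext i; fin_cases i <;> simp
  have a23 : AV l m (Pi.single 2 1) = m • Pi.single 3 1 := by
    rw [AV_apply]; ext i; fin_cases i <;> simp
  have a32 : AV l m (Pi.single 3 1) = -(m • Pi.single 2 1) := by
    rw [AV_apply]; ext i; fin_cases i <;> simp
  have r01 := hR u hsol (AV l m) c hk 0 1 l a01 a10
  have r23 := hR u hsol (AV l m) c hk 2 3 m a23 a32
  have g01 := gain_pt hl rfl r01
  have hh : 0 ≤ eno c / l := div_nonneg (Real.sqrt_nonneg _) hl.le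
  have cpsi : Continuous (fun x => psi u x ^ 2) := hsol.psi_contDiff.continuous.pow 2
  have hK0 : ∀ R : ℝ, 1 ≤ R → ∫ x in box 5 R, psi u x ^ 2 ≤ K * R ^ 4 := by
    intro R hR1
    have := hK 0 R hR1
    simpa using this
  have k01 : ∀ R : ℝ, 1 ≤ R → ∫ x in box 5 R, Q2 0 1 u x ≤ K * R ^ 4 := fun R hR1 =>
    (setIntegral_mono_on (ibox (Q2_cont' hsol 0 1) R) (ibox cpsi R) (mbox R)
      fun x _ => Q01_le hsol x).trans (hK0 R hR1)
  have k23 : ∀ R : ℝ, 1 ≤ R → ∫ x in box 5 R, Q2 2 3 u x ≤ K * R ^ 4 := fun R hR1 =>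
    (setIntegral_mono_on (ibox (Q2_cont' hsol 2 3) R) (ibox cpsi R) (mbox R)
      fun x _ => Q23_le hsol x).trans (hK0 R hR1)
  have mG : ∀ δ R : ℝ, MeasurableSet {x | x ∈ box 5 R ∧ 1 + δ ≤ gg l m c x * esq x} := fun δ R =>
    (mbox R).inter (isClosed_le continuous_const ((gg_cont hl c).mul esq_cont')).measurableSet
  have hw : ∀ x, wh (eno c / l) x ^ 2 ≤ gg l m c x := wh_le_gg hl hm hml c
  -- it is enough to have small mean density
  suffices hsm : ∀ ε : ℝ, 0 < ε → ∃ R₀ : ℝ, ∀ R, R₀ ≤ R → ∫ x in box 5 R, Q2 0 1 u x ≤ ε * R ^ 4 by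
    have hz := hC C u hu 0 1 (eno c / l) hh
      (fun x => (mul_le_mul_of_nonneg_right (hw x) (sq_nonneg _)).trans (g01 x))
      (fun ε R₀ hε => by
        obtain ⟨R₁, h1⟩ := hsm ε hε
        exact ⟨max R₀ R₁, le_max_left _ _, h1 _ (le_max_right _ _)⟩)
    intro x
    have h := hz x
    unfold Q2 at h
    have h2 : pd 0 u x ^ 2 = 0 := by nlinarith [sq_nonneg (pd 0 u x), sq_nonneg (pd 1 u x)]
    exact pow_eq_zero_iff (two_ne_zero) |>.mp h2
  intro ε hε
  rcases lt_or_eq_of_le hml with hlt | heq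
  · -- two different eigenvalues
    have hd : 0 < l ^ 2 - m ^ 2 := by nlinarith
    obtain ⟨δT, RT, hδT, hTT⟩ := hT u K hsol hK (ε / 2) (by positivity)
    obtain ⟨δ, R₁, hδ, hg⟩ := geo hl hm hml c (θ := (l ^ 2 - m ^ 2) * δT ^ 2) (by positivity)
    obtain ⟨R₂, hb⟩ := hB C u hu 0 1 (eno c / l) K (gg l m c) hh (gg_cont hl c) g01 hw k01
      δ (ε / 2) hδ (by positivity)
    refine ⟨max 1 (max RT (max R₁ R₂)), fun R hR' => ?_⟩
    have hR1 : 1 ≤ R := (le_max_left _ _).trans hR'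
    have hRT : RT ≤ R := ((le_max_left _ _).trans (le_max_right _ _)).trans hR'
    have hRR1 : R₁ ≤ R := (((le_max_left _ _).trans (le_max_right _ _)).trans
      (le_max_right _ _)).trans hR'
    have hRR2 : R₂ ≤ R := (((le_max_right _ _).trans (le_max_right _ _)).trans
      (le_max_right _ _)).trans hR'
    have hR0 : 0 < R := by linarith
    set S : Set (Fin 5 → ℝ) :=
      {x | x ∈ box 5 R ∧ |x 2| ≤ δT * R ∧ |x 3| ≤ δT * R ∧ |x 4| ≤ δT * R} with hS
    have mS : MeasurableSet S := by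
      have mm : ∀ i : Fin 5, MeasurableSet {x : Fin 5 → ℝ | |x i| ≤ δT * R} := fun i =>
        (isClosed_le (continuous_apply i).abs continuous_const).measurableSet
      exact (mbox R).inter ((mm 2).inter ((mm 3).inter (mm 4)))
    have hcov := cover (Q2_cont' hsol 0 1) (Q2_nonneg' 0 1 u) mS (mG δ R) (fun x hx => hx.1)
      (fun x hx => hx.1) (fun x hx hxS => by
        refine ⟨hx, hg R hRR1 x hx ?_⟩
        have h3 : δT * R < |x 2| ∨ δT * R < |x 3| ∨ δT * R < |x 4| := by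
          by_contra hcon
          push Not at hcon
          exact hxS ⟨hx, hcon.1, hcon.2.1, hcon.2.2⟩
        have hsq : ∀ i, δT * R < |x i| → δT ^ 2 * R ^ 2 ≤ x i ^ 2 := by
          intro i hi
          rw [← mul_pow, ← sq_abs (x i)]
          exact pow_le_pow_left₀ (by positivity) hi.le 2
        have hm0 : 0 ≤ m ^ 2 := sq_nonneg m
        have s2 := sq_nonneg (x 2)
        have s3 := sq_nonneg (x 3)
        have s4 := sq_nonneg (x 4)
        rcases h3 with h | h | h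
        · have := mul_le_mul_of_nonneg_left (hsq 2 h) hd.le
          nlinarith [mul_nonneg hd.le s3, mul_nonneg (sq_nonneg l) s4]
        · have := mul_le_mul_of_nonneg_left (hsq 3 h) hd.le
          nlinarith [mul_nonneg hd.le s2, mul_nonneg (sq_nonneg l) s4]
        · have := mul_le_mul_of_nonneg_left (hsq 4 h) hd.le
          nlinarith [mul_nonneg hd.le s2, mul_nonneg hd.le s3, mul_nonneg hm0 s4])
    have h4 : ∫ x in S, Q2 0 1 u x ≤ ε / 2 * R ^ 4 := by
      refine (setIntegral_mono_on ((ibox (Q2_cont' hsol 0 1) R).mono_set fun x hx => hx.1)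
        ((ibox cpsi R).mono_set fun x hx => hx.1) mS fun x _ => Q01_le hsol x).trans (hTT R hRT)
    have h5 := hb R hRR2
    linarith
  · -- equal eigenvalues
    have g23 := gain_pt hl heq r23
    obtain ⟨R₀, h0⟩ := hI u K hsol hK0 (fun δ' ε' hδ' hε' => by
      obtain ⟨δ, R₁, hδ, hg⟩ := geo hl hm hml c (θ := l ^ 2 * δ' ^ 2) (by positivity)
      obtain ⟨R₂, hb⟩ := hB C u hu 0 1 (eno c / l) K (gg l m c) hh (gg_cont hl c) g01 hw k01
        δ (ε' / 2) hδ (by positivity)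
      obtain ⟨R₃, hb'⟩ := hB C u hu 2 3 (eno c / l) K (gg l m c) hh (gg_cont hl c) g23 hw k23
        δ (ε' / 2) hδ (by positivity)
      refine ⟨max 1 (max R₁ (max R₂ R₃)), fun R hR' => ?_⟩
      have hR1 : 1 ≤ R := (le_max_left _ _).trans hR'
      have hRR1 : R₁ ≤ R := ((le_max_left _ _).trans (le_max_right _ _)).trans hR'
      have hRR2 : R₂ ≤ R := (((le_max_left _ _).trans (le_max_right _ _)).trans
        (le_max_right _ _)).trans hR'
      have hRR3 : R₃ ≤ R := (((le_max_right _ _).trans (le_max_right _ _)).trans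
        (le_max_right _ _)).trans hR'
      have hR0 : 0 < R := by linarith
      have hsub : {x : Fin 5 → ℝ | x ∈ box 5 R ∧ δ' * R ≤ |x 4|}
          ⊆ {x | x ∈ box 5 R ∧ 1 + δ ≤ gg l m c x * esq x} := by
        rintro x ⟨hx, h4⟩
        refine ⟨hx, hg R hRR1 x hx ?_⟩
        have h5 : δ' ^ 2 * R ^ 2 ≤ x 4 ^ 2 := by
          rw [← mul_pow, ← sq_abs (x 4)]
          exact pow_le_pow_left₀ (by positivity) h4 2
        have h6 := mul_le_mul_of_nonneg_left h5 (sq_nonneg l)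
        have h7 : l ^ 2 - m ^ 2 = 0 := by rw [heq]; ring
        rw [h7]
        linarith
      have cQ : Continuous (fun x => Q2 0 1 u x + Q2 2 3 u x) :=
        (Q2_cont' hsol 0 1).add (Q2_cont' hsol 2 3)
      have h6 : ∫ x in {x : Fin 5 → ℝ | x ∈ box 5 R ∧ δ' * R ≤ |x 4|},
          (Q2 0 1 u x + Q2 2 3 u x)
          ≤ ∫ x in {x | x ∈ box 5 R ∧ 1 + δ ≤ gg l m c x * esq x}, (Q2 0 1 u x + Q2 2 3 u x) := by
        apply setIntegral_mono_set ((ibox cQ R).mono_set fun x hx => hx.1)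
        · exact Eventually.of_forall fun x => add_nonneg (Q2_nonneg' _ _ _ _) (Q2_nonneg' _ _ _ _)
        · exact hsub.eventuallyLE
      have i1 : IntegrableOn (Q2 0 1 u) {x | x ∈ box 5 R ∧ 1 + δ ≤ gg l m c x * esq x} :=
        (ibox (Q2_cont' hsol 0 1) R).mono_set fun x hx => hx.1
      have i2 : IntegrableOn (Q2 2 3 u) {x | x ∈ box 5 R ∧ 1 + δ ≤ gg l m c x * esq x} :=
        (ibox (Q2_cont' hsol 2 3) R).mono_set fun x hx => hx.1
      rw [integral_add i1 i2] at h6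
      have h7 := hb R hRR2
      have h8 := hb' R hRR3
      linarith) ε hε
    refine ⟨R₀, fun R hR' => ?_⟩
    refine le_trans ?_ (h0 R hR')
    have cQ : Continuous (fun x => Q2 0 1 u x + Q2 2 3 u x) :=
      (Q2_cont' hsol 0 1).add (Q2_cont' hsol 2 3)
    apply setIntegral_mono_on (ibox (Q2_cont' hsol 0 1) R) (ibox cQ R) (mbox R)
    intro x _
    have := Q2_nonneg' 2 3 u x
    linarith

end Vale.Agent.P134.B331
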