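import Mathlib

/-! Definitions used in the statement of `P134.FiveSymmetric`. -/

namespace Vale.Agent.P134.B331

/-- The group of symmetries of `u` (isometries `g` of `ℝⁿ` with `u ∘ g = u`) is not discrete: it
contains isometries different from the identity and arbitrarily close to it on the unit ball. -/
def NonDiscreteSym {n : ℕ} (u : EuclideanSpace ℝ (Fin n) → ℝ) : Prop :=
  ∀ δ : ℝ, 0 < δ → ∃ g : EuclideanSpace ℝ (Fin n) ≃ᵢ EuclideanSpace ℝ (Fin n),
    g ≠ 1 ∧ (∀ x, u (g x) = u x) ∧ ∀ x, ‖x‖ ≤ 1 → ‖g x - x‖ < δ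

/-- `u` is stable: the second variation of the Allen-Cahn energy is nonnegative. -/
def StableSol {n : ℕ} (u : EuclideanSpace ℝ (Fin n) → ℝ) : Prop :=
  ∀ η : EuclideanSpace ℝ (Fin n) → ℝ, ContDiff ℝ (⊤ : ℕ∞) η → HasCompactSupport η →
    0 ≤ ∫ x, (‖fderiv ℝ η x‖ ^ 2 + (3 * u x ^ 2 - 1) * η x ^ 2)

end Vale.Agent.P134.B331
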