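import Vale.Agent.P134.B331.RowB
import Vale.Agent.P134.B331.RowN4
import Vale.Agent.P134.B331.RowP4
import Vale.Agent.P134.B331.RowS
import Vale.Agent.P134.B331.StK
import Vale.Agent.P134.B331.StR
import Vale.Agent.P134.B331.StG
import Vale.Agent.P134.B331.StT
import Vale.Agent.P134.B331.StI
import Vale.Agent.P134.B331.StV
import Vale.Agent.P134.B331.StN5
import Vale.Agent.P134.B331.StRd
import Vale.Agent.P134.B331.StD2

/-! Dimension five, solutions with a non-discrete group of symmetries: assembly. -/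

set_option linter.all false

open MeasureTheory Filter Topology
open scoped InnerProductSpace Laplacian

namespace Vale.Agent.P134.B331.M

open Vale.Agent.P134 Vale.Agent.P134.H765 Vale.Agent.P134.B331

theorem topP4 (hS : LI.StS3) : StP4 := by
  have h1 : StD1 := stD1 hS stH
  exact stP4 stR (stC stK) stH M.stN4 h1 (stD2 h1)

theorem topP5 (hS : LI.StS3) : StP5 := stP5 (stD1 hS stH) (topP4 hS)

theorem topV : StV := stV stR (stB stK) (stC stK) stT stI

/-- Monotone solutions on `ℝ⁵` with a non-discrete group of symmetries. -/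
theorem five_top (hS : LI.StS3) (hM : Mono 4) {u : EuclideanSpace ℝ (Fin 5) → ℝ}
    (hu : ContDiff ℝ 2 u) (heq : ∀ x, Δ u x = u x ^ 3 - u x) (hb : ∃ M : ℝ, ∀ x, |u x| ≤ M)
    {a : EuclideanSpace ℝ (Fin 5)} (ha : ∀ x, 0 < fderiv ℝ u x a) (hG : NonDiscrete u) :
    ∃ (e : EuclideanSpace ℝ (Fin 5)) (c : ℝ), ‖e‖ = 1 ∧ 0 < ⟪e, a⟫_ℝ ∧
      ∀ x, u x = Real.tanh ((⟪e, x⟫_ℝ - c) / √2) := by
  obtain ⟨B, c, hBc, hB, hgen⟩ :=
    generator_of_nonDiscrete (hu.differentiable (by norm_num)) hG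
  have hRed : Red := fun u hu heq hb a ha w hw hwu => stRd 4 hM u hu heq hb a ha w hw hwu
  exact five_killing stH (topP5 hS) stG stN5 topV hRed hu heq hb ha hBc hB hgen

/-- Stable solutions on `ℝ⁴` with a non-discrete group of symmetries. -/
theorem four_top (hS : LI.StS3) {u : EuclideanSpace ℝ (Fin 4) → ℝ}
    (hu : ContDiff ℝ 2 u) (heq : ∀ x, Δ u x = u x ^ 3 - u x) (hb : ∃ M : ℝ, ∀ x, |u x| ≤ M)
    (hs : StableE u) (hG : NonDiscrete u) :
    (∀ x, u x = 1) ∨ (∀ x, u x = -1) ∨ ∃ (e : EuclideanSpace ℝ (Fin 4)) (c : ℝ), ‖e‖ = 1 ∧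
      ∀ x, u x = Real.tanh ((⟪e, x⟫_ℝ - c) / √2) := by
  obtain ⟨B, c, hBc, hB, hgen⟩ :=
    generator_of_nonDiscrete (hu.differentiable (by norm_num)) hG
  exact four_stable_killing (topP4 hS) hu heq hb hs hBc hB hgen

end Vale.Agent.P134.B331.M
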